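import Crest.Agent.R166.M.Defs

/-!
# Row 166, block M: spectral identities
-/

set_option autoImplicit false

open MeasureTheory ProbabilityTheory Filter Topology Complex
open scoped ENNReal NNReal BigOperators Matrix

noncomputable section

namespace Crest.Agent.R166

section
variable {V : Type} [Fintype V] [DecidableEq V]

/-- Recipe: `(A - E') * M = 1` for `M v w = ∑ i, u i v * u i w / (lam i - E')`; `Matrix.inv_eq_right_inv`. -/
theorem m_inv_spec {A : Matrix V V ℝ} {lam : V → ℝ} {u : V → V → ℝ}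
    (h1 : ∀ i, A *ᵥ u i = lam i • u i) (h3 : ∀ x y, ∑ i, u i x * u i y = if x = y then 1 else 0)
    {E' : ℝ} (hE : ∀ i, lam i ≠ E') : (A - E' • (1 : Matrix V V ℝ)).det ≠ 0 ∧
      ∀ v w, (A - E' • (1 : Matrix V V ℝ))⁻¹ v w = ∑ i, u i v * u i w / (lam i - E') := by
  have h : (A - E' • (1 : Matrix V V ℝ)) *
      (Matrix.of fun v w => ∑ i, u i v * u i w / (lam i - E')) = 1 := by
    ext v w
    rw [Matrix.one_apply, ← h3, Matrix.mul_apply]
    simp only [Matrix.of_apply, Finset.mul_sum]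
    rw [Finset.sum_comm]
    refine Finset.sum_congr rfl fun i _ => ?_
    have h4 : ∑ x, (A - E' • (1 : Matrix V V ℝ)) v x * u i x = (lam i - E') * u i v := by
      have h5 : (A - E' • (1 : Matrix V V ℝ)) *ᵥ u i = (lam i - E') • u i := by
        rw [Matrix.sub_mulVec, h1, Matrix.smul_mulVec, Matrix.one_mulVec, sub_smul]
      exact congrFun h5 v
    have h6 := sub_ne_zero.2 (hE i)
    calc ∑ x, (A - E' • (1 : Matrix V V ℝ)) v x * (u i x * u i w / (lam i - E'))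
        = (∑ x, (A - E' • (1 : Matrix V V ℝ)) v x * u i x) * (u i w / (lam i - E')) := by
          rw [Finset.sum_mul]; exact Finset.sum_congr rfl fun x _ => by ring
      _ = u i v * u i w := by rw [h4]; field_simp
  exact ⟨(Matrix.isUnit_det_of_right_inverse h).ne_zero, fun v w => by
    rw [Matrix.inv_eq_right_inv h]; rfl⟩

omit [DecidableEq V] in
/-- `1/x = bL L x + x/(x² + L²)`, termwise; `N` stands for `nρ`. -/
theorem m_split_spec (lam : V → ℝ) (cf : V → ℝ) (E' : ℝ) {N L : ℝ} (hN : 0 < N) (hL : 0 < L)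
    (hE : ∀ i, lam i ≠ E') :
    ∑ i, cf i / (lam i - E') =
      (∑ i, ((cf i : ℝ) : ℂ) / ((lam i : ℂ) - ((E' : ℂ) + ((L / N : ℝ) : ℂ) * I))).re +
        N * ∑ i, bL L (N * (lam i - E')) * cf i := by
  rw [Complex.re_sum, Finset.mul_sum, ← Finset.sum_add_distrib]
  refine Finset.sum_congr rfl fun i _ => ?_
  have h6 := sub_ne_zero.2 (hE i)
  have h1 : (((cf i : ℝ) : ℂ) / ((lam i : ℂ) - ((E' : ℂ) + ((L / N : ℝ) : ℂ) * I))).re =
      cf i * ((lam i - E') / ((lam i - E') ^ 2 + (L / N) ^ 2)) := by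
    generalize L / N = η
    rw [div_eq_mul_inv, Complex.re_ofReal_mul, Complex.inv_re, Complex.normSq_apply]
    simp [sq]
  rw [h1, bL]
  generalize lam i - E' = d at h6
  field_simp

/-- Ward identity: `∑ v w, ‖G v w‖² = ∑ i, 1/|lam i - z|² = N² mN L x / L`. -/
theorem m_ward {lam : V → ℝ} {u : V → V → ℝ}
    (h2 : ∀ i j, ∑ v, u i v * u j v = if i = j then 1 else 0) (E' : ℝ) {N L : ℝ} (hN : 0 < N)
    (hL : 0 < L) :
    ∑ v, ∑ w, ‖∑ i, ((u i v * u i w : ℝ) : ℂ) / ((lam i : ℂ) - ((E' : ℂ) + ((L / N : ℝ) : ℂ) * I))‖ ^ 2 =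
      N ^ 2 * mN L (fun i => N * (lam i - E')) / L := by
  have h1 : ∀ a : V → ℂ, ∑ v, ∑ w, ‖∑ i, ((u i v * u i w : ℝ) : ℂ) * a i‖ ^ 2 = ∑ i, ‖a i‖ ^ 2 := by
    intro a
    have h3 : ∀ i j, ∑ v, ∑ w, ((u i v * u i w : ℝ) : ℂ) * ((u j v * u j w : ℝ) : ℂ) =
        if i = j then 1 else 0 := fun i j => by
      have h4 : ∑ v, ∑ w, u i v * u i w * (u j v * u j w) =
          (∑ v, u i v * u j v) * ∑ w, u i w * u j w := by
        rw [Finset.sum_mul_sum]
        exact Finset.sum_congr rfl fun v _ => Finset.sum_congr rfl fun w _ => by ring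
      rw [h2] at h4
      have h5 := congrArg (fun x : ℝ => (x : ℂ)) h4
      simp only [Complex.ofReal_sum, Complex.ofReal_mul _ (_ * _)] at h5
      rw [h5]; split_ifs <;> simp
    have h6 : ∀ v w, ((‖∑ i, ((u i v * u i w : ℝ) : ℂ) * a i‖ ^ 2 : ℝ) : ℂ) = ∑ i, ∑ j,
        a i * starRingEnd ℂ (a j) * (((u i v * u i w : ℝ) : ℂ) * ((u j v * u j w : ℝ) : ℂ)) := by
      intro v w
      rw [Complex.ofReal_pow, ← Complex.mul_conj', map_sum, Finset.sum_mul_sum]
      refine Finset.sum_congr rfl fun i _ => Finset.sum_congr rfl fun j _ => ?_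
      rw [map_mul, Complex.conj_ofReal]; ring
    have h7 : ∀ f : V → V → V → V → ℂ,
        ∑ v, ∑ w, ∑ i, ∑ j, f v w i j = ∑ i, ∑ j, ∑ v, ∑ w, f v w i j := fun f => by
      have := Finset.sum_comm (s := Finset.univ) (t := Finset.univ)
        (f := fun p p' : V × V => f p.1 p.2 p'.1 p'.2)
      simpa only [Fintype.sum_prod_type] using this
    apply Complex.ofReal_injective
    simp only [Complex.ofReal_sum, h6]
    rw [h7]
    simp only [← Finset.mul_sum, h3, mul_ite, mul_one, mul_zero, Finset.sum_ite_eq, Finset.mem_univ,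
      if_true, Complex.mul_conj', Complex.ofReal_pow]
  simp only [div_eq_mul_inv ((_ : ℝ) : ℂ)]
  rw [h1, mN, Finset.mul_sum, Finset.sum_div]
  refine Finset.sum_congr rfl fun i _ => ?_
  have h8 : ‖(lam i : ℂ) - ((E' : ℂ) + ((L / N : ℝ) : ℂ) * I)‖ ^ 2 = (lam i - E') ^ 2 + (L / N) ^ 2 := by
    generalize L / N = η
    rw [Complex.sq_norm, Complex.normSq_apply]
    simp [sq]
  rw [norm_inv, inv_pow, h8]
  field_simp

end

theorem m_bL_far {A L x : ℝ} (hA : 0 < A) (hL : 0 < L) (h : A * L ≤ |x|) :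
    |bL L x| ≤ 2 / A ^ 2 * (A * L / (x ^ 2 + (A * L) ^ 2)) := by
  have hx : 0 < |x| := (mul_pos hA hL).trans_le h
  have h1 : (A * L) ^ 2 ≤ x ^ 2 := by
    rw [← sq_abs x]; exact pow_le_pow_left₀ (by positivity) h 2
  have h2 : 2 / A ^ 2 * (A * L / (x ^ 2 + (A * L) ^ 2)) = L ^ 2 * 2 / (A * L * (x ^ 2 + (A * L) ^ 2)) := by
    field_simp
  rw [h2, bL, abs_div, abs_mul, abs_of_nonneg (sq_nonneg L),
    abs_of_nonneg (by positivity : 0 ≤ x ^ 2 + L ^ 2), div_le_div_iff₀ (by positivity) (by positivity),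
    mul_assoc (L ^ 2)]
  refine mul_le_mul_of_nonneg_left ?_ (sq_nonneg L)
  calc A * L * (x ^ 2 + (A * L) ^ 2) ≤ |x| * (2 * (x ^ 2 + L ^ 2)) :=
        mul_le_mul h (by nlinarith [sq_nonneg L]) (by positivity) hx.le
    _ = _ := by ring

theorem m_bL_le (L x : ℝ) : |bL L x| ≤ |x|⁻¹ := by
  rw [bL, abs_div, abs_mul, abs_of_nonneg (sq_nonneg L),
    abs_of_nonneg (by positivity : 0 ≤ x ^ 2 + L ^ 2), mul_comm, ← div_div, div_eq_mul_inv]
  exact mul_le_of_le_one_left (by positivity)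
    (div_le_one_of_le₀ (by nlinarith [sq_nonneg x]) (by positivity))

theorem m_bL_meas (L : ℝ) : Measurable (bL L) := by
  unfold bL; fun_prop

theorem m_mN_nonneg {ι : Type} [Fintype ι] {R : ℝ} (hR : 0 ≤ R) (ξ : ι → ℝ) : 0 ≤ mN R ξ := by
  exact Finset.sum_nonneg fun i _ => by positivity

theorem m_mN_shift {ι : Type} [Fintype ι] {R t : ℝ} (hR : 1 ≤ R) (ht : |t| ≤ 1) (ξ : ι → ℝ) :
    mN R (fun i => ξ i - t) ≤ 3 * mN R ξ := by
  rw [mN, mN, Finset.mul_sum]
  refine Finset.sum_le_sum fun i _ => ?_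
  have h1 : t ^ 2 ≤ 1 := by rw [← sq_abs]; exact pow_le_one₀ (abs_nonneg _) ht
  have h2 : 1 ≤ R ^ 2 := one_le_pow₀ hR
  rw [← mul_div_assoc, div_le_div_iff₀ (by positivity) (by positivity), mul_comm 3, mul_assoc]
  exact mul_le_mul_of_nonneg_left (by nlinarith [sq_nonneg (ξ i - 2 * t), sq_nonneg (ξ i - t)])
    (by linarith)

/-- number of points in `[-a, a]` -/
theorem m_card_le {ι : Type} [Fintype ι] {R a : ℝ} (hR : 0 < R) (ξ : ι → ℝ) :
    ((Finset.univ.filter fun i => |ξ i| ≤ a).card : ℝ) ≤ (a ^ 2 + R ^ 2) / R * mN R ξ := by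
  rw [mN, Finset.mul_sum, Finset.card_filter]
  push_cast
  refine Finset.sum_le_sum fun i _ => ?_
  split_ifs with h
  · have h1 : ξ i ^ 2 ≤ a ^ 2 := by rw [← sq_abs]; exact pow_le_pow_left₀ (abs_nonneg _) h 2
    rw [div_mul_div_cancel₀ hR.ne', one_le_div (by positivity)]
    linarith
  · positivity

end Crest.Agent.R166
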