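import Crest.Agent.R166.M.Cay
import Crest.Agent.R166.M.Spec

/-!
# Row 166, block M: averaging over the shift
-/

set_option autoImplicit false

open MeasureTheory ProbabilityTheory Filter Topology Complex
open scoped ENNReal NNReal BigOperators Matrix

noncomputable section

namespace Crest.Agent.R166

variable {ι : Type} [Fintype ι] [DecidableEq ι]

/-- few shifts are close to a point.  Recipe: Tonelli; for fixed `ξ` with `mN R ξ ≤ C₁` the set of `t ∈ [0,δ]` is covered by the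
intervals `(ξ i - γ, ξ i + γ)` with `|ξ i| ≤ 2`, at most `(4 + R²)/R C₁` of them (`m_card_le`). -/
theorem m_near {n : ℕ} (P : Measure (Fin n → ℝ)) [IsProbabilityMeasure P] {δ γ R C₁ : ℝ} (hδ : 0 < δ)
    (hδ1 : δ ≤ 1) (hγ : 0 < γ) (hγ1 : γ ≤ 1) (hR : 0 < R) (hC : 0 ≤ C₁) :
    IntervalIntegrable (fun t => P.real {ξ | ∃ i, |ξ i - t| < γ}) volume 0 δ ∧
    ∫ t in (0 : ℝ)..δ, P.real {ξ | ∃ i, |ξ i - t| < γ} ≤
      δ * P.real {ξ | C₁ < mN R ξ} + 2 * γ * ((4 + R ^ 2) / R * C₁) := by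
  set D : Set (ℝ × (Fin n → ℝ)) := {p | ∃ i, |p.2 i - p.1| < γ} with hD
  have hDm : MeasurableSet D := by
    have : D = ⋃ i, {p : ℝ × (Fin n → ℝ) | |p.2 i - p.1| < γ} := by ext p; simp [hD]
    rw [this]
    exact MeasurableSet.iUnion fun i => measurableSet_lt (by fun_prop) measurable_const
  have hm : Measurable fun t => P (Prod.mk t ⁻¹' D) := measurable_measure_prodMk_left hDm
  have hSm : MeasurableSet {ξ : Fin n → ℝ | C₁ < mN R ξ} :=
    measurableSet_lt measurable_const (by unfold mN; fun_prop)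
  refine ⟨?_, ?_⟩
  · rw [intervalIntegrable_iff_integrableOn_Ioc_of_le hδ.le]
    exact Integrable.of_bound hm.ennreal_toReal.aestronglyMeasurable 1 (ae_of_all _ fun t => by
      rw [Real.norm_eq_abs, abs_of_nonneg measureReal_nonneg]; exact measureReal_le_one)
  rw [intervalIntegral.integral_of_le hδ.le]
  have e1 : ∫ t in Set.Ioc 0 δ, P.real {ξ | ∃ i, |ξ i - t| < γ} =
      (∫⁻ t in Set.Ioc 0 δ, P (Prod.mk t ⁻¹' D)).toReal :=
    integral_toReal hm.aemeasurable (ae_of_all _ fun t => measure_lt_top _ _)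
  rw [e1, ← Measure.prod_apply hDm, Measure.prod_apply_symm hDm]
  have hK : 0 ≤ 2 * γ * ((4 + R ^ 2) / R * C₁) := by positivity
  have key : ∀ ξ : Fin n → ℝ, (volume.restrict (Set.Ioc 0 δ)) ((fun t => (t, ξ)) ⁻¹' D) ≤
      {ξ : Fin n → ℝ | C₁ < mN R ξ}.indicator (fun _ => ENNReal.ofReal δ) ξ +
        ENNReal.ofReal (2 * γ * ((4 + R ^ 2) / R * C₁)) := by
    intro ξ
    by_cases hξ : C₁ < mN R ξ
    · rw [Set.indicator_of_mem (show ξ ∈ {ξ : Fin n → ℝ | C₁ < mN R ξ} from hξ)]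
      refine le_add_right ((measure_mono (Set.subset_univ _)).trans ?_)
      simp
    · refine le_add_left ?_
      rw [Measure.restrict_apply' measurableSet_Ioc]
      have hsub : (fun t => (t, ξ)) ⁻¹' D ∩ Set.Ioc 0 δ ⊆
          ⋃ i ∈ Finset.univ.filter (fun i => |ξ i| ≤ 2), Set.Ioo (ξ i - γ) (ξ i + γ) := by
        rintro t ⟨⟨i, hi⟩, ht⟩
        have hi := abs_lt.1 hi
        simp only [Set.mem_iUnion, Finset.mem_filter, Finset.mem_univ, true_and, Set.mem_Ioo]
        exact ⟨i, abs_le.2 ⟨by linarith [ht.1, hi.1], by linarith [ht.2, hi.2]⟩,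
          by linarith [hi.2], by linarith [hi.1]⟩
      refine (measure_mono hsub).trans ((measure_biUnion_finset_le _ _).trans ?_)
      have e : ∀ i, volume (Set.Ioo (ξ i - γ) (ξ i + γ)) = ENNReal.ofReal (2 * γ) := fun i => by
        rw [Real.volume_Ioo]; congr 1; ring
      simp only [e, Finset.sum_const, nsmul_eq_mul]
      rw [← ENNReal.ofReal_natCast, ← ENNReal.ofReal_mul (Nat.cast_nonneg _), mul_comm]
      refine ENNReal.ofReal_le_ofReal (mul_le_mul_of_nonneg_left ?_ (by positivity))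
      refine (m_card_le hR ξ).trans ?_
      rw [show (2 : ℝ) ^ 2 = 4 by norm_num]
      exact mul_le_mul_of_nonneg_left (not_lt.1 hξ) (by positivity)
  refine ENNReal.toReal_le_of_le_ofReal (by positivity) ((lintegral_mono key).trans ?_)
  rw [lintegral_add_right _ measurable_const, lintegral_indicator_const hSm, lintegral_const,
    measure_univ, mul_one, ENNReal.ofReal_add (by positivity) hK, ENNReal.ofReal_mul hδ.le,
    ofReal_measureReal]

theorem m_modelE_int {n : ℕ} (P : Measure (Fin n → ℝ)) [IsProbabilityMeasure P] {b : ℝ → ℝ}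
    (hb : Measurable b) {F : Matrix ι ι ℂ → ℝ} (hF : Continuous F) {δ : ℝ} (hδ : 0 < δ) :
    IntervalIntegrable (fun t => ∫ ξ, mM b F (fun i => ξ i - t) ∂P) volume 0 δ ∧
    ∫ ξ, modelE b δ F ξ ∂P = δ⁻¹ * ∫ t in (0 : ℝ)..δ, ∫ ξ, mM b F (fun i => ξ i - t) ∂P := by
  obtain ⟨B, -, hB⟩ := m_cay_bdd hF
  have hsh : Measurable fun (p : (Fin n → ℝ) × ℝ) i => p.1 i - p.2 := by fun_prop
  have hm : Measurable fun p : (Fin n → ℝ) × ℝ => mM b F fun i => p.1 i - p.2 :=
    (m_mM_meas hb hF).comp hsh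
  have hi : Integrable (Function.uncurry fun (ξ : Fin n → ℝ) (t : ℝ) => mM b F fun i => ξ i - t)
      (P.prod (volume.restrict (Set.Ioc 0 δ))) :=
    Integrable.of_bound hm.aestronglyMeasurable B (ae_of_all _ fun p => m_mM_bdd b hB _)
  refine ⟨?_, ?_⟩
  · rw [intervalIntegrable_iff_integrableOn_Ioc_of_le hδ.le]
    exact hi.integral_prod_right
  · simp only [m_modelE, intervalIntegral.integral_of_le hδ.le]
    rw [integral_const_mul, integral_integral_swap hi]

/-- averaging over the shift.  Recipe: Fubini (`m_mM_meas`, `m_mM_bdd`, `integral_integral_swap`), `m_near`;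
order of choices: `C`, then `C₁, R` from `H1`, then `γ`. -/
theorem m_fin (n : ℕ → ℕ) (P : ∀ j, Measure (Fin (n j) → ℝ)) (hP : ∀ᶠ j in atTop, IsProbabilityMeasure (P j))
    (h1 : H1 n P) {F F' : Matrix ι ι ℂ → ℝ} (hF : Continuous F) (hF' : Continuous F')
    (h : ∀ ε : ℝ, 0 < ε → ∃ C : ℝ, 0 ≤ C ∧ ∀ γ : ℝ, 0 < γ → ∀ᶠ L in (atTop : Filter ℝ), ∀ᶠ j in atTop,
      ∀ t ∈ Set.Icc (0 : ℝ) 1,
        |∫ ξ, mM (bL L) F (fun i => ξ i - t) ∂P j - ∫ ξ, mM (bL L) F' (fun i => ξ i - t) ∂P j| ≤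
          ε + C * (P j).real {ξ | ∃ i, |ξ i - t| < γ})
    {δ : ℝ} (hδ : 0 < δ) (hδ1 : δ ≤ 1) {ε : ℝ} (hε : 0 < ε) :
    ∀ᶠ L in (atTop : Filter ℝ), ∀ᶠ j in atTop,
      |∫ ξ, modelE (bL L) δ F ξ ∂P j - ∫ ξ, modelE (bL L) δ F' ξ ∂P j| ≤ ε := by
  obtain ⟨C, hC0, hC⟩ := h (ε / 2) (by positivity)
  set ε' := ε / (4 * (C + 1)) with hε'd
  have hε' : 0 < ε' := by positivity
  obtain ⟨C₁, hC₁⟩ := h1 ε' hε'
  obtain ⟨R, hR, hR0⟩ := (hC₁.and (eventually_gt_atTop 0)).exists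
  set K := (4 + R ^ 2) / R * max C₁ 0 with hK
  have hK0 : 0 ≤ K := by positivity
  set γ := min 1 (δ * ε' / (2 * (K + 1))) with hγd
  have hγ : 0 < γ := lt_min one_pos (by positivity)
  filter_upwards [hC γ hγ] with L hL
  filter_upwards [hL, hP, hR] with j hj hPj hRj
  obtain ⟨i1, e1⟩ := m_modelE_int (P j) (m_bL_meas L) hF hδ
  obtain ⟨i2, e2⟩ := m_modelE_int (P j) (m_bL_meas L) hF' hδ
  obtain ⟨i3, e3⟩ := m_near (P j) hδ hδ1 hγ (min_le_left _ _) hR0 (le_max_right C₁ 0)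
  rw [e1, e2, ← mul_sub, ← intervalIntegral.integral_sub i1 i2, abs_mul, abs_of_pos (inv_pos.2 hδ),
    inv_mul_le_iff₀ hδ]
  have a1 : (P j).real {ξ | max C₁ 0 < mN R ξ} ≤ ε' :=
    (measureReal_mono (fun ξ (hξ : max C₁ 0 < mN R ξ) => (le_max_left _ _).trans_lt hξ)
      (measure_ne_top _ _)).trans (ENNReal.toReal_le_of_le_ofReal hε'.le hRj)
  have a2 : 2 * γ * K ≤ δ * ε' := by
    calc _ ≤ 2 * (δ * ε' / (2 * (K + 1))) * (K + 1) := by
          gcongr
          · exact min_le_right _ _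
          · linarith
      _ = _ := by field_simp
  refine (intervalIntegral.abs_integral_le_integral_abs hδ.le).trans ?_
  refine (intervalIntegral.integral_mono_on hδ.le (i1.sub i2).abs
    (intervalIntegrable_const.add (i3.const_mul C))
    fun t ht => hj t ⟨ht.1, ht.2.trans hδ1⟩).trans ?_
  rw [intervalIntegral.integral_add intervalIntegrable_const (i3.const_mul C),
    intervalIntegral.integral_const, intervalIntegral.integral_const_mul, sub_zero, smul_eq_mul]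
  have a3 : C * ∫ t in (0 : ℝ)..δ, (P j).real {ξ | ∃ i, |ξ i - t| < γ} ≤ C * (2 * (δ * ε')) :=
    mul_le_mul_of_nonneg_left (e3.trans (by nlinarith)) hC0
  have a4 : C * (2 * (δ * ε')) ≤ δ * (ε / 2) := by
    calc _ ≤ (C + 1) * (2 * (δ * ε')) := by gcongr; linarith
      _ = _ := by rw [hε'd]; field_simp; ring
  linarith

end Crest.Agent.R166
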