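import Crest.Agent.R166.M.Nu

/-!
# Row 166, block M: H1
-/

set_option autoImplicit false

open MeasureTheory ProbabilityTheory Filter Topology Complex
open scoped ENNReal NNReal BigOperators Matrix

noncomputable section

namespace Crest.Agent.R166

/-- `avg Im G_vv (E + i R/(nρ)) = ρ N_R(ξ)` (spectral decomposition `StE`, `∑ v, u i v ^ 2 = 1`) -/
theorem m_avg_im (hE : StE) {q n : ℕ} (hn : 0 < n) (s : ℝ) (c : Cfg (Fin n) q) (E : ℝ) {ρ R : ℝ}
    (hρ : 0 < ρ) (hR : 0 < R) :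
    (avg fun v => (Gr (Hm s c) ((E : ℂ) + ((R / (n * ρ) : ℝ) : ℂ) * I) v v).im) =
      ρ * mN R fun i => n * ρ * (ev (Hm s c) i - E) := by
  obtain ⟨u, -, h2, -, h4⟩ := (hE (Fin n)).2 _ (m_Hm_herm s c)
  have hn' : (0 : ℝ) < n := by exact_mod_cast hn
  set η := R / (n * ρ) with hη
  have hη0 : 0 < η := by positivity
  have h5 := h4 ((E : ℂ) + (η : ℂ) * I) fun i h => by
    have := congrArg Complex.im h
    simp at this
    exact hη0.ne' this.symm
  have h6 : ∀ v, (Gr (Hm s c) ((E : ℂ) + (η : ℂ) * I) v v).im =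
      ∑ i, u i v * u i v * (η / ((ev (Hm s c) i - E) ^ 2 + η ^ 2)) := fun v => by
    rw [h5, Complex.im_sum]
    refine Finset.sum_congr rfl fun i _ => ?_
    rw [div_eq_mul_inv, Complex.im_ofReal_mul, Complex.inv_im, Complex.normSq_apply]
    simp [sq]
  simp only [avg, h6, Fintype.card_fin, mN]
  rw [Finset.sum_comm, Finset.sum_div, Finset.mul_sum]
  refine Finset.sum_congr rfl fun i _ => ?_
  rw [← Finset.sum_mul, h2, if_pos rfl, hη]
  field_simp

/-- Recipe: `LL3` with `ε / C` (`C` from `m_nu`) at `z = E + i R/(nρ)`, `R ≥ ρ L₀`; `Measure.map_apply`. -/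
theorem m_H1 (hE : StE) (h1 : StP1) (q : ℕ) (π : Measure II) [IsProbabilityMeasure π] (s κ E : ℝ)
    (hb : Bulk q κ E) (hρ : 0 < rho q π s E) (h3 : LL3 q π s κ) (n : ℕ → ℕ)
    (hn : Tendsto n atTop atTop) (he : ∀ j, Even (n j * (q + 1))) :
    H1 n fun j => rrgLaw q π s E (n j) := by
  intro ε hε
  obtain ⟨C, hC, h4⟩ := m_nu h1 q π
  obtain ⟨C', L₀, h5⟩ := h3 (ε / C) (by positivity)
  set ρ := rho q π s E with hρd
  refine ⟨C' / ρ, ?_⟩
  filter_upwards [eventually_ge_atTop (ρ * L₀), eventually_gt_atTop 0] with R hR hR0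
  have h6 : ∀ᶠ m : ℕ in atTop, R / ρ ≤ m :=
    tendsto_natCast_atTop_atTop.eventually (eventually_ge_atTop _)
  filter_upwards [hn.eventually h4, hn.eventually h5, hn.eventually h6,
    hn.eventually (eventually_gt_atTop 0)] with j k4 k5 k6 k7
  obtain ⟨_, p, hp0, hp, k8, -⟩ := k4 (he j)
  have hn' : (0 : ℝ) < n j := by exact_mod_cast k7
  have k9 := k5 ((E : ℂ) + ((R / (n j * ρ) : ℝ) : ℂ) * I) 
    (by simpa only [add_re, ofReal_re, re_ofReal_mul, I_re, mul_zero, add_zero] using hb)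
    (by simp only [add_im, ofReal_im, im_ofReal_mul, I_im, zero_add, mul_one]; positivity)
    (by
      simp only [add_im, ofReal_im, im_ofReal_mul, I_im, zero_add, mul_one]
      rw [div_le_div_iff₀ hn' (by positivity)]
      nlinarith)
    (by
      simp only [add_im, ofReal_im, im_ofReal_mul, I_im, zero_add, mul_one]
      rw [div_le_one (by positivity)]
      rwa [div_le_iff₀ hρ] at k6)
  simp only [m_avg_im hE k7 s _ E hρ hR0] at k9
  have hm : MeasurableSet {ξ : Fin (n j) → ℝ | C' / ρ < ∑ i, R / (ξ i ^ 2 + R ^ 2)} :=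
    measurableSet_lt measurable_const (by fun_prop)
  rw [m_rrg, Measure.map_apply (m_xi_meas hE π s E) hm, ← ofReal_measureReal, k8]
  refine ENNReal.ofReal_le_ofReal ?_
  have k10 : (cfgLaw (Fin (n j)) q π).real {c | IsSimple c.1 ∧
      c ∈ mXi π s E ⁻¹' {ξ | C' / ρ < ∑ i, R / (ξ i ^ 2 + R ^ 2)}} ≤ ε / C := by
    refine ENNReal.toReal_le_of_le_ofReal (by positivity) (le_trans (measure_mono ?_) k9)
    exact fun c hc => ⟨hc.1, (div_lt_iff₀' hρ).1 hc.2⟩
  calc _ ≤ C * (ε / C) := mul_le_mul hp k10 measureReal_nonneg hC.le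
    _ = ε := by field_simp

end Crest.Agent.R166
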