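import Crest.Agent.R166.M.Defs

/-!
# Row 166, block M: averages, comparison of integrals
-/

set_option autoImplicit false

open MeasureTheory ProbabilityTheory Filter Topology Complex
open scoped ENNReal NNReal BigOperators Matrix

noncomputable section

namespace Crest.Agent.R166

/-- comparison of integrals off a bad set (no measurability of `Bad`; use `toMeasurable`) -/
theorem m_cmp {Ω : Type} [MeasurableSpace Ω] (ν : Measure Ω) [IsZeroOrProbabilityMeasure ν]
    {g h : Ω → ℝ} (hg : Integrable g ν) (hh : Integrable h ν) {ε B : ℝ} (hε : 0 ≤ ε) (hB : 0 ≤ B)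
    (Bad : Set Ω) (h1 : ∀ ω, ω ∉ Bad → |g ω - h ω| ≤ ε) (h2 : ∀ ω, |g ω - h ω| ≤ B) :
    |∫ ω, g ω ∂ν - ∫ ω, h ω ∂ν| ≤ ε + B * ν.real Bad := by
  have hm := measurableSet_toMeasurable ν Bad
  rw [← integral_sub hg hh]
  refine (abs_integral_le_integral_abs).trans ?_
  have h3 : ∫ ω, |g ω - h ω| ∂ν ≤ ∫ ω, (ε + (toMeasurable ν Bad).indicator (fun _ => B) ω) ∂ν := by
    refine integral_mono (hg.sub hh).abs
      ((integrable_const ε).add ((integrable_const B).indicator hm)) fun ω => ?_
    by_cases hω : ω ∈ toMeasurable ν Bad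
    · simp only [Set.indicator_of_mem hω]; linarith [h2 ω]
    · simp only [Set.indicator_of_notMem hω, add_zero]
      exact h1 ω fun hb => hω (subset_toMeasurable _ _ hb)
  refine h3.trans ?_
  rw [integral_add (integrable_const ε) ((integrable_const B).indicator hm),
    integral_indicator_const _ hm, integral_const, smul_eq_mul, smul_eq_mul, mul_comm _ B]
  have h4 : ν.real (toMeasurable ν Bad) = ν.real Bad := by simp [Measure.real]
  rw [h4]
  exact add_le_add (mul_le_of_le_one_left hε measureReal_le_one) le_rfl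

theorem m_avg_abs {ι : Type} [Fintype ι] (f g : ι → ℝ) :
    |avg f - avg g| ≤ avg fun i => |f i - g i| := by
  simp only [avg]
  rw [← sub_div, ← Finset.sum_sub_distrib, abs_div, Nat.abs_cast]
  exact div_le_div_of_nonneg_right (Finset.abs_sum_le_sum_abs _ _) (Nat.cast_nonneg _)

/-- coordinates of a uniform function along an injection are uniform.  Recipe: if `H` is empty and `K`
nonempty both sides vanish ...; in general use `Equiv.piEquivPiSubtypeProd (· ∈ Set.range f)` and
`Equiv.ofInjective`, `p_avg_equiv`, `p_avg_prod`, `p_avg_const`. -/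
theorem m_avg_comp {J K H : Type} [Fintype J] [DecidableEq J] [Fintype K] [DecidableEq K] [Fintype H]
    [Nonempty H] {f : K → J} (hf : Function.Injective f) (g : (K → H) → ℝ) :
    (avg fun a : J → H => g fun k => a (f k)) = avg g := by
  classical
  let e := Equiv.piEquivPiSubtypeProd (· ∈ Set.range f) fun _ : J => H
  let e' : ({x // x ∈ Set.range f} → H) ≃ (K → H) :=
    (Equiv.arrowCongr (Equiv.ofInjective f hf) (Equiv.refl H)).symm
  have h1 := p_avg_equiv e fun p => g (e' p.1)
  rw [p_avg_prod] at h1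
  simp only [p_avg_const] at h1
  rw [p_avg_equiv e' g] at h1
  exact h1

theorem m_avg_eval {J H : Type} [Fintype J] [DecidableEq J] [Fintype H] [Nonempty H] (j : J)
    (g : H → ℝ) : (avg fun a : J → H => g (a j)) = avg g := by
  have h1 := m_avg_comp (K := Unit) (f := fun _ => j) (fun _ _ _ => rfl) fun a : Unit → H => g (a ())
  rw [h1]
  exact p_avg_equiv (Equiv.funUnique Unit H) g

theorem m_avg_eval2 {J H : Type} [Fintype J] [DecidableEq J] [Fintype H] [Nonempty H] {j₁ j₂ : J}
    (h : j₁ ≠ j₂) (g : H × H → ℝ) : (avg fun a : J → H => g (a j₁, a j₂)) = avg g := by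
  have h1 := m_avg_comp (K := Fin 2) (f := ![j₁, j₂]) (by
    intro a b; fin_cases a <;> fin_cases b <;> simp [h, h.symm]) fun a : Fin 2 → H => g (a 0, a 1)
  exact h1.trans (p_avg_equiv (finTwoArrowEquiv H) g)

theorem m_avg_eval3 {J H : Type} [Fintype J] [DecidableEq J] [Fintype H] [Nonempty H] {j₁ j₂ j₃ : J}
    (h12 : j₁ ≠ j₂) (h13 : j₁ ≠ j₃) (h23 : j₂ ≠ j₃) (g : (H × H) × H → ℝ) :
    (avg fun a : J → H => g ((a j₁, a j₂), a j₃)) = avg g := by
  have h1 := m_avg_comp (K := Fin 3) (f := ![j₁, j₂, j₃]) (by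
    intro a b
    fin_cases a <;> fin_cases b <;> simp [h12, h12.symm, h13, h13.symm, h23, h23.symm])
    fun a : Fin 3 → H => g ((a 0, a 1), a 2)
  let e : (Fin 3 → H) ≃ (H × H) × H :=
    ⟨fun a => ((a 0, a 1), a 2), fun p => ![p.1.1, p.1.2, p.2],
      fun a => by funext i; fin_cases i <;> rfl, fun _ => rfl⟩
  exact h1.trans (p_avg_equiv e g)

/-- an endpoint of a uniform half-edge is a uniform vertex (`σ` is a bijection) -/
theorem m_avg_ep {V : Type} [Fintype V] [DecidableEq V] {q : ℕ} (σ : Pairing V q) (o : Fin 2)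
    (g : V → ℝ) : (avg fun h : HE V q => g (ep σ h o)) = avg g := by
  have h0 : (avg fun h : HE V q => g h.1) = avg g := by
    rw [p_avg_prod, p_avg_comm]
    exact p_avg_const (ι := Fin (q + 1)) (avg g)
  fin_cases o
  · exact h0
  · exact (p_avg_equiv σ.1 fun h => g h.1).trans h0

theorem m_emp_prob {ι X : Type} [Fintype ι] [Nonempty ι] [MeasurableSpace X] (f : ι → X) :
    IsProbabilityMeasure (emp f) := by
  constructor
  simp only [emp, Measure.smul_apply, Measure.coe_finsetSum, Finset.sum_apply, measure_univ,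
    Finset.sum_const, Finset.card_univ, nsmul_eq_mul, mul_one, smul_eq_mul]
  exact ENNReal.inv_mul_cancel (by simp) (by simp)

/-- Recipe: `Measure.pi_eq` on boxes (`Finset.prod_univ_sum`, `Fintype.card_fun`), then
`integral_smul_measure`, `integral_finset_sum_measure`, `integral_dirac`. -/
theorem m_integral_pi_emp {ι J X : Type} [Fintype ι] [Nonempty ι] [Fintype J] [DecidableEq J]
    [MeasurableSpace X] [MeasurableSingletonClass X] (f : ι → X) (Φ : (J → X) → ℝ) :
    ∫ Y, Φ Y ∂(Measure.pi fun _ : J => emp f) = avg fun a : J → ι => Φ fun j => f (a j) := by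
  have := m_emp_prob f
  have h1 : (Measure.pi fun _ : J => emp f) = emp fun a : J → ι => fun j => f (a j) := by
    refine Measure.pi_eq fun s hs => ?_
    simp only [emp, Measure.smul_apply, Measure.coe_finsetSum, Finset.sum_apply, smul_eq_mul]
    rw [Finset.prod_mul_distrib, Finset.prod_const, Finset.prod_univ_sum, Fintype.piFinset_univ,
      Fintype.card_fun, Nat.cast_pow, ENNReal.inv_pow, Finset.card_univ]
    congr 1
    refine Finset.sum_congr rfl fun a _ => ?_
    simp only [Measure.dirac_apply]
    by_cases ha : ∀ j, f (a j) ∈ s j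
    · rw [Set.indicator_of_mem (by simpa using ha)]
      simp [Set.indicator_of_mem (ha _)]
    · rw [Set.indicator_of_notMem (by simpa using ha)]
      obtain ⟨j, hj⟩ := not_forall.1 ha
      exact (Finset.prod_eq_zero (Finset.mem_univ j) (Set.indicator_of_notMem hj _)).symm
  rw [h1, emp, integral_smul_measure,
    integral_finsetSum_measure fun _ _ => integrable_dirac (by simp)]
  simp [avg, div_eq_inv_mul]

end Crest.Agent.R166
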