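import Crest.Agent.R166.M.SwDet
import Crest.Agent.R166.M.Meas

/-!
# Row 166, block M: the switch, probabilistic part
-/

set_option autoImplicit false

open MeasureTheory ProbabilityTheory Filter Topology Complex
open scoped ENNReal NNReal BigOperators Matrix

noncomputable section

namespace Crest.Agent.R166

theorem m_frac_exists {ι J : Type} [Fintype ι] [Fintype J] (p : J → ι → Prop) :
    frac (fun i => ∃ j, p j i) ≤ ∑ j, frac (p j) := by
  classical
  unfold frac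
  rw [← p_avg_sum]
  refine p_avg_mono fun i => ?_
  split_ifs with h
  · obtain ⟨j, hj⟩ := h
    refine le_trans ?_ (Finset.single_le_sum (f := fun j => if p j i then (1 : ℝ) else 0)
      (fun j _ => by split_ifs <;> norm_num) (Finset.mem_univ j))
    rw [if_pos hj]
  · exact Finset.sum_nonneg fun j _ => by split_ifs <;> norm_num

theorem m_frac_eval2 {J H : Type} [Fintype J] [DecidableEq J] [Fintype H] [Nonempty H] {j₁ j₂ : J}
    (h : j₁ ≠ j₂) (P : H × H → Prop) : frac (fun a : J → H => P (a j₁, a j₂)) = frac P := by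
  classical
  exact m_avg_eval2 h fun p => @ite ℝ (P p) (Classical.propDecidable _) 1 0

theorem m_frac_eval3 {J H : Type} [Fintype J] [DecidableEq J] [Fintype H] [Nonempty H] {j₁ j₂ j₃ : J}
    (h12 : j₁ ≠ j₂) (h13 : j₁ ≠ j₃) (h23 : j₂ ≠ j₃) (P : (H × H) × H → Prop) :
    frac (fun a : J → H => P ((a j₁, a j₂), a j₃)) = frac P :=
  m_avg_eval3 h12 h13 h23 fun p => @ite ℝ (P p) (Classical.propDecidable _) 1 0

theorem m_cfg_fst {V : Type} [Fintype V] [DecidableEq V] {q : ℕ} (π : Measure II)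
    [IsProbabilityMeasure π] (P : Pairing V q → Prop) :
    (cfgLaw V q π).real {c | P c.1} = frac P := by
  have e : {c : Cfg V q | P c.1} = {σ | P σ} ×ˢ Set.univ := by ext c; simp
  rw [Measure.real, e, cfgLaw, Measure.prod_prod, measure_univ, mul_one, p_uniform_apply,
    ENNReal.toReal_ofReal (p_frac_nonneg _)]

theorem m_integral_avg {Ω ι : Type} [MeasurableSpace Ω] [Fintype ι] (μ : Measure Ω) {g : ι → Ω → ℝ}
    (hg : ∀ i, Integrable (g i) μ) : ∫ ω, (avg fun i => g i ω) ∂μ = avg fun i => ∫ ω, g i ω ∂μ := by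
  unfold avg
  rw [integral_div, integral_finsetSum _ fun i _ => hg i]

/-- Recipe: union bound (`p_frac_or`, ...), `m_avg_eval2/3` to reduce to `StP5`;
`frac (a j₂ = σ (a j₁)) ≤ 1 / card HE ≤ 1 / card V`. -/
theorem m_swbad (h5 : StP5) (q R : ℕ) {J : Type} [Fintype J] [DecidableEq J] {j₁ j₂ : J}
    (hj : j₁ ≠ j₂) : ∃ C : ℝ, ∀ (V : Type) [Fintype V] [DecidableEq V] [Nonempty V],
      (avg fun σ : Pairing V q => frac fun a : J → HE V q => mSwBad R j₁ j₂ σ a) ≤
        C / Fintype.card V := by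
  obtain ⟨C, hC⟩ := h5 q R
  refine ⟨1 + C + C + Fintype.card J * C, fun V _ _ _ => ?_⟩
  obtain ⟨c1, c2, c3⟩ := hC V
  let P1 : Pairing V q → HE V q × HE V q → Prop := fun σ p => p.2 = σ p.1
  let P2 : Pairing V q → HE V q × HE V q → Prop := fun σ p =>
    ¬ (IsSimple (switch σ p.1 p.2) ↔ IsSimple σ)
  let P3 : Pairing V q → HE V q × HE V q → Prop := fun σ p =>
    ∃ h ∈ [p.1, p.2, σ p.1, σ p.2], ∃ l : List (Fin q), l.length ≤ R ∧
      walk (switch σ p.1 p.2) h l ≠ walk σ h l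
  let P4 : Pairing V q → (HE V q × HE V q) × HE V q → Prop := fun σ p =>
    switch σ p.1.1 p.1.2 p.2 ≠ σ p.2 ∨ ∃ h ∈ [p.2, σ p.2], ∃ l : List (Fin q), l.length ≤ R ∧
      walk (switch σ p.1.1 p.1.2) h l ≠ walk σ h l
  have key : ∀ σ : Pairing V q, frac (fun a : J → HE V q => mSwBad R j₁ j₂ σ a) ≤
      1 / Fintype.card V + frac (P2 σ) + frac (P3 σ) + Fintype.card J * frac (P4 σ) := by
    intro σ
    have e1 : frac (fun a : J → HE V q => P1 σ (a j₁, a j₂)) = frac (P1 σ) := m_frac_eval2 hj _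
    have e2 : frac (fun a : J → HE V q => P2 σ (a j₁, a j₂)) = frac (P2 σ) := m_frac_eval2 hj _
    have e3 : frac (fun a : J → HE V q => P3 σ (a j₁, a j₂)) = frac (P3 σ) := m_frac_eval2 hj _
    have e4 : frac (fun a : J → HE V q => ∃ j, j ≠ j₁ ∧ j ≠ j₂ ∧ P4 σ ((a j₁, a j₂), a j)) ≤
        Fintype.card J * frac (P4 σ) := by
      refine (m_frac_exists _).trans ?_
      rw [← Finset.card_univ, ← nsmul_eq_mul]
      refine Finset.sum_le_card_nsmul _ _ _ fun j _ => ?_
      by_cases h : j ≠ j₁ ∧ j ≠ j₂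
      · have e : frac (fun a : J → HE V q => P4 σ ((a j₁, a j₂), a j)) = frac (P4 σ) :=
          m_frac_eval3 hj h.1.symm h.2.symm _
        rw [← e]
        exact p_frac_mono fun a ha => ha.2.2
      · rw [p_frac_eq_zero fun a ha => h ⟨ha.1, ha.2.1⟩]
        exact p_frac_nonneg _
    have e5 : frac (P1 σ) ≤ 1 / Fintype.card V := by
      rw [p_frac_prod]
      refine p_avg_le (by positivity) fun a => ?_
      refine (p_frac_le_card (T := {σ a}) (t := 1) (fun b hb => Finset.mem_singleton.2 hb)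
        (by simp)).trans (p_div_HE zero_le_one)
    have u1 := p_frac_or (fun a : J → HE V q => P1 σ (a j₁, a j₂)) fun a =>
      P2 σ (a j₁, a j₂) ∨ P3 σ (a j₁, a j₂) ∨ ∃ j, j ≠ j₁ ∧ j ≠ j₂ ∧ P4 σ ((a j₁, a j₂), a j)
    have u2 := p_frac_or (fun a : J → HE V q => P2 σ (a j₁, a j₂)) fun a =>
      P3 σ (a j₁, a j₂) ∨ ∃ j, j ≠ j₁ ∧ j ≠ j₂ ∧ P4 σ ((a j₁, a j₂), a j)
    have u3 := p_frac_or (fun a : J → HE V q => P3 σ (a j₁, a j₂)) fun a =>
      ∃ j, j ≠ j₁ ∧ j ≠ j₂ ∧ P4 σ ((a j₁, a j₂), a j)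
    refine le_trans u1 ?_
    linarith
  refine (p_avg_mono key).trans ?_
  rw [p_avg_add, p_avg_add, p_avg_add, p_avg_mul]
  have a1 : (avg fun _ : Pairing V q => (1 : ℝ) / Fintype.card V) ≤ 1 / Fintype.card V :=
    p_avg_le (by positivity) fun _ => le_rfl
  have a2 := mul_le_mul_of_nonneg_left c3 (Nat.cast_nonneg (Fintype.card J))
  rw [add_div, add_div, add_div, mul_div_assoc]
  exact add_le_add (add_le_add (add_le_add a1 c1) c2) a2

/-- the switch with fixed half-edges preserves the law of the configuration (`p_switchE`) -/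
theorem m_sw_mp {V : Type} [Fintype V] [DecidableEq V] {q : ℕ} (π : Measure II)
    [IsProbabilityMeasure π] (a b : HE V q) :
    MeasurePreserving (fun c : Cfg V q => ((switch c.1 a b, c.2) : Cfg V q)) (cfgLaw V q π)
      (cfgLaw V q π) := by
  have h : MeasurePreserving (fun σ : Pairing V q => switch σ a b) (uniformOn Set.univ)
      (uniformOn Set.univ) := by
    refine ⟨Measurable.of_discrete, Measure.ext fun S hS => ?_⟩
    rw [Measure.map_apply Measurable.of_discrete hS]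
    have e1 := p_uniform_apply fun σ : Pairing V q => switch σ a b ∈ S
    have e2 := p_uniform_apply fun σ : Pairing V q => σ ∈ S
    exact e1.trans ((congrArg _ (p_frac_equiv (p_switchE a b) (· ∈ S))).trans e2.symm)
  exact h.prod (MeasurePreserving.id _)

/-- Exchangeability.  Recipe: `g(c,a) = 1[simple c] mF(c,a) F(S(c,a))`, `g^W` likewise with `W S Wᵀ`, `c' = switch`.
`∫ avg_a g(c,a) = avg_a ∫ g(c',a)` (`m_sw_mp`), and pointwise
`|g(c',a) - g^W(c,a)| ≤ 2|J|ηB + 2B (1[mSwBad] + 1[simple c ∧ sing c] + 1[simple c' ∧ sing c'])`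
(`m_sw_det`, `m_sw_weight`, `m_depth`).  Integrate, multiply by `p` of `m_nu`. -/
theorem m_sw (h1 : StP1) (h5 : StP5) (q : ℕ) (π : Measure II) [IsProbabilityMeasure π] (s : ℝ)
    {y : ℂ} (hy : 0 < y.im) {J : Type} [Fintype J] [DecidableEq J] {j₁ j₂ : J} (hj : j₁ ≠ j₂)
    {φ : Env q → ℝ} (hφ : Continuous φ) (hφ1 : ∀ β, 0 ≤ φ β ∧ φ β ≤ 1)
    {F : Matrix (Fin 2 × J) (Fin 2 × J) ℂ → ℝ} (hF : Continuous F) {B : ℝ} (hB0 : 0 ≤ B)
    (hB : mBd F B) (hB' : mBd (fun S => F (mW y j₁ j₂ * S * (mW y j₁ j₂)ᵀ)) B) {ε : ℝ} (hε : 0 < ε) :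
    ∀ᶠ n : ℕ in atTop, Even (n * (q + 1)) → ∀ E' : ℝ,
      |∫ c, mObs s y φ F c E' ∂mNu q π n -
        ∫ c, mObs s y φ (fun S => F (mW y j₁ j₂ * S * (mW y j₁ j₂)ᵀ)) c E' ∂mNu q π n| ≤
      ε + 4 * B * (mNu q π n).real {c | (Hm s c - E' • (1 : Matrix (Fin n) (Fin n) ℝ)).det = 0} := by
  set W := mW y j₁ j₂ with hW
  have hF' : Continuous fun S => F (W * S * Wᵀ) :=
    hF.comp ((continuous_const.matrix_mul continuous_id).matrix_mul continuous_const)
  obtain ⟨C₀, hC₀, hnu⟩ := m_nu h1 q π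
  set cJ : ℝ := (Fintype.card J : ℝ) with hcJ
  have hcJ0 : 0 ≤ cJ := Nat.cast_nonneg _
  set η := ε / (4 * (C₀ * (cJ * B) + 1)) with hη
  obtain ⟨R, hR⟩ := m_depth hφ (show 0 < η by positivity)
  obtain ⟨C, hC⟩ := m_swbad h5 q R hj
  have hn : ∀ᶠ n : ℕ in atTop, C₀ * (2 * B) * max C 0 / n ≤ ε / 2 :=
    (tendsto_const_nhds.div_atTop tendsto_natCast_atTop_atTop).eventually
      (ge_mem_nhds (by positivity))
  filter_upwards [hnu, hn, eventually_gt_atTop 0] with n hnu hn hn0 he E'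
  obtain ⟨-, p, hp0, hpC, hpS, hpI⟩ := hnu he
  have : Nonempty (Fin n) := ⟨⟨0, hn0⟩⟩
  let g : (Matrix (Fin 2 × J) (Fin 2 × J) ℂ → ℝ) → (J → HE (Fin n) q) → Cfg (Fin n) q → ℝ :=
    fun F a c => if IsSimple c.1 then
      mF φ (fun j => eview c (a j)) * F (cay (mK y (mX s c E' a))) else 0
  have gm : ∀ F, Continuous F → ∀ a, Measurable (g F a) := fun F hF a =>
    Measurable.ite m_simple_meas (m_term_meas s y hφ.measurable hF E' a) measurable_const
  have gb : ∀ F, mBd F B → ∀ a c, |g F a c| ≤ B := fun F hB a c => by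
    simp only [g]
    split_ifs
    · obtain ⟨a1, a2⟩ := m_mF_mem hφ1 fun j => eview c (a j)
      rw [abs_mul, abs_of_nonneg a1]
      exact (mul_le_mul a2 (hB _ (m_mK_symm y (m_mX_symm s c E' a))) (abs_nonneg _)
        zero_le_one).trans (one_mul _).le
    · rwa [abs_zero]
  have gi : ∀ F, Continuous F → mBd F B → ∀ a, Integrable (g F a) (cfgLaw (Fin n) q π) :=
    fun F hF hB a => Integrable.of_bound (gm F hF a).aestronglyMeasurable B (ae_of_all _ (gb F hB a))
  have gI : ∀ F, Continuous F → mBd F B → ∫ c, mObs s y φ F c E' ∂mNu q π n =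
      p * avg fun a => ∫ c, g F a c ∂cfgLaw (Fin n) q π := fun F hF hB => by
    rw [hpI, ← m_integral_avg _ (gi F hF hB)]
    congr 2
    funext c
    simp only [g]
    split_ifs
    · rfl
    · simp [avg]
  set Z : Set (Cfg (Fin n) q) := {c | IsSimple c.1 ∧
    c ∈ {c : Cfg (Fin n) q | (Hm s c - E' • (1 : Matrix (Fin n) (Fin n) ℝ)).det = 0}} with hZ
  have hZm : MeasurableSet Z := m_simple_meas.inter (m_sing_meas s E')
  have key : ∀ a : J → HE (Fin n) q, |∫ c, g F a c ∂cfgLaw (Fin n) q π -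
      ∫ c, g (fun S => F (W * S * Wᵀ)) a c ∂cfgLaw (Fin n) q π| ≤
      2 * cJ * η * B + 2 * B * (frac (fun σ => mSwBad R j₁ j₂ σ a) +
        2 * (cfgLaw (Fin n) q π).real Z) := by
    intro a
    have mp := m_sw_mp π (a j₁) (a j₂)
    set T := fun c : Cfg (Fin n) q => ((switch c.1 (a j₁) (a j₂), c.2) : Cfg (Fin n) q) with hT
    have e : ∫ c, g F a c ∂cfgLaw (Fin n) q π = ∫ c, g F a (T c) ∂cfgLaw (Fin n) q π := by
      rw [← integral_map mp.measurable.aemeasurable (gm F hF a).aestronglyMeasurable, mp.map_eq]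
    rw [e]
    refine (m_cmp _ (mp.integrable_comp_of_integrable (gi F hF hB a)) (gi _ hF' hB' a)
      (ε := 2 * cJ * η * B) (B := 2 * B) (by positivity) (by positivity)
      ({c | mSwBad R j₁ j₂ c.1 a} ∪ Z ∪ T ⁻¹' Z) (fun c hc => ?_) fun c => ?_).trans ?_
    · simp only [Set.mem_union, not_or] at hc
      obtain ⟨⟨c1, c2⟩, c3⟩ := hc
      have c1 : ¬ mSwBad R j₁ j₂ c.1 a := c1
      have hw := m_sw_weight hφ1 hR hj c a c1
      simp only [mSwBad, not_or, not_not] at c1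
      obtain ⟨d1, d2, -, d4⟩ := c1
      simp only [g, Function.comp, hT]
      by_cases hs : IsSimple c.1
      · rw [if_pos (d2.2 hs), if_pos hs, m_sw_det s hy hj c a E' d1
          (fun j h1 h2 => by_contra fun h => d4 ⟨j, h1, h2, Or.inl h⟩) (fun h => c2 ⟨hs, h⟩)
          (fun h => c3 ⟨d2.2 hs, h⟩), ← sub_mul, abs_mul]
        exact mul_le_mul hw (hB' _ (m_mK_symm y (m_mX_symm s c E' a))) (abs_nonneg _) (by positivity)
      · rw [if_neg (fun h => hs (d2.1 h)), if_neg hs, sub_zero, abs_zero]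
        positivity
    · exact (abs_sub _ _).trans ((add_le_add (gb F hB a (T c)) (gb _ hB' a c)).trans (two_mul B).ge)
    · have u1 := measureReal_union_le (μ := cfgLaw (Fin n) q π) ({c | mSwBad R j₁ j₂ c.1 a} ∪ Z) (T ⁻¹' Z)
      have u2 := measureReal_union_le (μ := cfgLaw (Fin n) q π) {c | mSwBad R j₁ j₂ c.1 a} Z
      have u3 : (cfgLaw (Fin n) q π).real (T ⁻¹' Z) = (cfgLaw (Fin n) q π).real Z :=
        mp.measureReal_preimage hZm.nullMeasurableSet
      rw [m_cfg_fst π fun σ => mSwBad R j₁ j₂ σ a] at u2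
      gcongr
      linarith
  rw [gI F hF hB, gI _ hF' hB', ← mul_sub, abs_mul, abs_of_nonneg hp0, hpS]
  have a1 := (m_avg_abs _ _).trans (p_avg_mono key)
  rw [p_avg_add, p_avg_const, p_avg_mul, p_avg_add, p_avg_const, ← p_frac_comm] at a1
  have a2 := hC (Fin n)
  rw [Fintype.card_fin] at a2
  have a3 : C / n ≤ max C 0 / n := div_le_div_of_nonneg_right (le_max_left _ _) (Nat.cast_nonneg _)
  have a4 : p * (2 * cJ * η * B) ≤ ε / 2 := by
    calc _ ≤ C₀ * (2 * cJ * η * B) := by gcongr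
      _ = 2 * (C₀ * (cJ * B)) * η := by ring
      _ ≤ 2 * (C₀ * (cJ * B) + 1) * η := by gcongr; linarith
      _ = ε / 2 := by rw [hη]; field_simp; ring
  have a5 : p * (2 * B * (max C 0 / n)) ≤ ε / 2 := by
    calc _ ≤ C₀ * (2 * B * (max C 0 / n)) := by gcongr
      _ = _ := by ring
      _ ≤ ε / 2 := hn
  calc _ ≤ p * (2 * cJ * η * B + 2 * B * (max C 0 / n + 2 * (cfgLaw (Fin n) q π).real Z)) := by
        refine mul_le_mul_of_nonneg_left (a1.trans ?_) hp0
        gcongr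
        exact a2.trans a3
    _ = p * (2 * cJ * η * B) + p * (2 * B * (max C 0 / n)) +
        4 * B * (p * (cfgLaw (Fin n) q π).real Z) := by ring
    _ ≤ _ := by linarith

end Crest.Agent.R166
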