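import Crest.Agent.R166.M.Core
import Crest.Agent.R166.M.Sw
import Crest.Agent.R166.M.H1
import Crest.Agent.R166.M.Fin

/-!
# Row 166, block M: assembly
-/

set_option autoImplicit false

open MeasureTheory ProbabilityTheory Filter Topology Complex
open scoped ENNReal NNReal BigOperators Matrix

noncomputable section

namespace Crest.Agent.R166

theorem m_coreB (hE : StE) (h1 : StP1) (h5 : StP5) (hT : StT0) {q : ℕ} {π : Measure II}
    [IsProbabilityMeasure π] {s κ E : ℝ} (hs0 : 0 ≤ s) (hs1 : s ≤ 1) (hκ : 0 < κ)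
    (hb : Bulk q (2 * κ) E) (hok : TreeOK q π s E) (hL1 : LL1 q π s κ) (hBO : BOut q π s E)
    {n : ℕ → ℕ} (hn : Tendsto n atTop atTop) (he : ∀ j, Even (n j * (q + 1)))
    (hH : H1 n fun j => rrgLaw q π s E (n j)) {J : Type} [Fintype J] [DecidableEq J] {j₁ j₂ : J}
    (hj : j₁ ≠ j₂) {y : ℂ} (hy : 0 < y.im)
    (hsup : ∀ r : ℝ, 0 < r → envLaw q π {β | ‖mB s E β - y‖ < r} ≠ 0)
    {F : Matrix (Fin 2 × J) (Fin 2 × J) ℂ → ℝ} (hF : Continuous F) (ε : ℝ) (hε : 0 < ε) :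
    ∃ C : ℝ, 0 ≤ C ∧ ∀ γ : ℝ, 0 < γ → ∀ᶠ L in (atTop : Filter ℝ), ∀ᶠ j in atTop,
      ∀ t ∈ Set.Icc (0 : ℝ) 1,
        |∫ ξ, mM (bL L) F (fun i => ξ i - t) ∂rrgLaw q π s E (n j) -
          ∫ ξ, mM (bL L) (fun S => F (mW y j₁ j₂ * S * (mW y j₁ j₂)ᵀ)) (fun i => ξ i - t)
            ∂rrgLaw q π s E (n j)| ≤
          ε + C * (rrgLaw q π s E (n j)).real {ξ | ∃ i, |ξ i - t| < γ} := by
  set F' : Matrix (Fin 2 × J) (Fin 2 × J) ℂ → ℝ := fun S => F (mW y j₁ j₂ * S * (mW y j₁ j₂)ᵀ)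
    with hF'def
  have hF' : Continuous F' :=
    hF.comp ((continuous_const.matrix_mul continuous_id).matrix_mul continuous_const)
  obtain ⟨B₁, hB₁0, hB₁⟩ := m_cay_bdd hF
  obtain ⟨B₂, hB₂0, hB₂⟩ := m_cay_bdd hF'
  set B := max B₁ B₂
  have hB0 : 0 ≤ B := hB₁0.le.trans (le_max_left _ _)
  have hB : mBd F B := fun K hK => (hB₁ K hK).trans (le_max_left _ _)
  have hB' : mBd F' B := fun K hK => (hB₂ K hK).trans (le_max_right _ _)
  obtain ⟨r₁, hr₁, hA₁⟩ := m_coreA hE h1 hT hs0 hs1 hκ hb hok hL1 hBO hn he hH hy hF hB0 hB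
    (show 0 < ε / 4 by positivity)
  obtain ⟨r₂, hr₂, hA₂⟩ := m_coreA hE h1 hT hs0 hs1 hκ hb hok hL1 hBO hn he hH hy hF' hB0 hB'
    (show 0 < ε / 4 by positivity)
  set r₀ := min r₁ r₂
  have hr₀ : 0 < r₀ := lt_min hr₁ hr₂
  obtain ⟨hτ, -⟩ := m_tau_pos J hok hr₀ (hsup r₀ hr₀)
  set τ := mTau J q π (fun β => mChi y r₀ (mB s E β)) with hτd
  have hε₂ : 0 < ε * τ / 6 := by positivity
  obtain ⟨k, hk₁, hk₂⟩ := ((hA₁ r₀ hr₀ (min_le_left _ _) _ hε₂).and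
    (hA₂ r₀ hr₀ (min_le_right _ _) _ hε₂)).exists
  set φ : Env q → ℝ := fun β => mChi y r₀ (mT s (zk E k) β)
  have hφ : Continuous φ :=
    (m_chi_cont y r₀).comp ((hT q s hs0 hs1).1 _ (m_zk_im E k)).2.1
  have hφ1 : ∀ β, 0 ≤ φ β ∧ φ β ≤ 1 := fun β => m_chi_mem y hr₀ _
  have hsw := hn.eventually (m_sw h1 h5 q π s hy hj hφ hφ1 hF hB0 hB hB' hε₂)
  refine ⟨8 * B / τ, by positivity, fun γ hγ => ?_⟩
  filter_upwards [hk₁ γ hγ, hk₂ γ hγ] with L hL₁ hL₂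
  filter_upwards [hL₁, hL₂, hsw, hn.eventually (eventually_gt_atTop 0)] with j hj₁ hj₂ hj₃ hj0 t ht
  have hρ := hok.rho_pos
  have hn0 : (0 : ℝ) < n j := by exact_mod_cast hj0
  have a1 := hj₁ t ht
  have a2 := hj₂ t ht
  have a3 := hj₃ (he j) (E + t / (n j * rho q π s E))
  have hxi := m_xi_meas hE (q := q) (n := n j) π s E
  have hsh : Measurable fun (ξ : Fin (n j) → ℝ) i => ξ i - t := by fun_prop
  have m1 : Measurable fun ξ : Fin (n j) → ℝ => mM (bL L) F fun i => ξ i - t :=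
    (m_mM_meas (m_bL_meas L) hF).comp hsh
  have m2 : Measurable fun ξ : Fin (n j) → ℝ => mM (bL L) F' fun i => ξ i - t :=
    (m_mM_meas (m_bL_meas L) hF').comp hsh
  rw [m_rrg, integral_map hxi.aemeasurable m1.aestronglyMeasurable,
    integral_map hxi.aemeasurable m2.aestronglyMeasurable]
  rw [← hτd] at a1 a2
  change |_ - ∫ c, mObs s y φ F' c _ ∂_| ≤ _ at a3
  have hN : (mNu q π (n j)).real {c | ∃ i, |mXi π s E c i - t| < γ} ≤
      ((mNu q π (n j)).map (mXi π s E)).real {ξ | ∃ i, |ξ i - t| < γ} :=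
    ENNReal.toReal_mono (measure_ne_top _ _) (Measure.le_map_apply hxi.aemeasurable _)
  have hS : (mNu q π (n j)).real {c | (Hm s c - (E + t / (n j * rho q π s E)) •
        (1 : Matrix (Fin (n j)) (Fin (n j)) ℝ)).det = 0} ≤
      (mNu q π (n j)).real {c | ∃ i, |mXi π s E c i - t| < γ} := by
    refine measureReal_mono (fun c hc => ?_) (measure_ne_top _ _)
    by_contra hne
    obtain ⟨u, hu1, -, hu3, -⟩ := (hE (Fin (n j))).2 (Hm s c) (m_Hm_herm s c)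
    refine (m_inv_spec hu1 hu3 (E' := E + t / (n j * rho q π s E)) fun i hi => hne ⟨i, ?_⟩).1 hc
    have : mXi π s E c i - t = 0 := by
      simp only [mXi, hi]; field_simp; ring
    rw [this, abs_zero]; exact hγ
  set I₁ := ∫ c, mM (bL L) F (fun i => mXi π s E c i - t) ∂mNu q π (n j)
  set I₂ := ∫ c, mM (bL L) F' (fun i => mXi π s E c i - t) ∂mNu q π (n j)
  set N := (mNu q π (n j)).real {c | ∃ i, |mXi π s E c i - t| < γ}
  set N' := ((mNu q π (n j)).map (mXi π s E)).real {ξ | ∃ i, |ξ i - t| < γ}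
  have key : τ * |I₁ - I₂| ≤ τ * (ε + 8 * B / τ * N') := by
    have e1 : τ * (ε + 8 * B / τ * N') = ε * τ + 8 * B * N' := by field_simp
    rw [e1, ← abs_of_pos hτ, ← abs_mul, abs_of_pos hτ, mul_sub]
    have b1 := abs_le.1 a1
    have b2 := abs_le.1 a2
    have b3 := abs_le.1 a3
    have b4 := mul_le_mul_of_nonneg_left hS hB0
    have b5 := mul_le_mul_of_nonneg_left hN hB0
    rw [abs_le]
    constructor <;> linarith [b1.1, b1.2, b2.1, b2.2, b3.1, b3.2]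
  exact le_of_mul_le_mul_left key hτ

theorem stM (hE : StE) (h1 : StP1) (h5 : StP5) (hT : StT0) (_hEnv : StEnv) : StM := by
  intro q π _ s κ E _ hs0 hs1 hκ hb hok hL1 hL3 hBO n hn he
  have hb' : Bulk q κ E := by unfold Bulk at hb ⊢; linarith
  have hH := m_H1 hE h1 q π s κ E hb' hok.rho_pos hL3 n hn he
  refine ⟨hH, ?_⟩
  obtain ⟨y, hy, hsup⟩ := m_exists_y hok
  obtain ⟨W₀, hW, hWi, hWb⟩ := m_W0 hy
  refine ⟨2 * 2, W₀, hW, hWi, fun δ hδ hδ1 k => ⟨2 * k, by omega, fun F hF ε hε => ?_⟩⟩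
  have hP : ∀ᶠ j in atTop, IsProbabilityMeasure (rrgLaw q π s E (n j)) := by
    obtain ⟨C, -, hC⟩ := m_nu h1 q π
    filter_upwards [hn.eventually hC] with j hj
    have := (hj (he j)).1
    rw [m_rrg]
    exact Measure.isProbabilityMeasure_map (m_xi_meas hE π s E).aemeasurable
  have hF' : Continuous fun S => F (blk W₀ (2 * k) * S * (blk W₀ (2 * k))ᵀ) :=
    hF.comp ((continuous_const.matrix_mul continuous_id).matrix_mul continuous_const)
  refine m_fin n _ hP hH hF hF' (fun ε hε => ?_) hδ hδ1 hε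
  have hF0 : Continuous fun S : Matrix (Fin 2 × (Fin 2 ⊕ Fin k)) (Fin 2 × (Fin 2 ⊕ Fin k)) ℂ =>
      F (S.submatrix (mE k).symm (mE k).symm) := hF.comp (continuous_id.matrix_submatrix _ _)
  obtain ⟨C, hC0, hC⟩ := m_coreB hE h1 h5 hT hs0 hs1 hκ hb hok hL1 hBO hn he hH
    (j₁ := (Sum.inl 0 : Fin 2 ⊕ Fin k)) (j₂ := Sum.inl 1) (by simp) hy hsup hF0 ε hε
  refine ⟨C, hC0, fun γ hγ => ?_⟩
  filter_upwards [hC γ hγ] with L hL
  filter_upwards [hL] with j hj t ht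
  have e : (fun S : Matrix (Fin 2 × (Fin 2 ⊕ Fin k)) (Fin 2 × (Fin 2 ⊕ Fin k)) ℂ =>
      F (blk W₀ (2 * k) * S.submatrix (mE k).symm (mE k).symm * (blk W₀ (2 * k))ᵀ)) = fun S =>
      F ((mW y (Sum.inl 0 : Fin 2 ⊕ Fin k) (Sum.inl 1) * S *
        (mW y (Sum.inl 0 : Fin 2 ⊕ Fin k) (Sum.inl 1))ᵀ).submatrix (mE k).symm (mE k).symm) := by
    funext S
    rw [← hWb k, ← Matrix.submatrix_mul_equiv _ _ _ (mE k).symm, ← Matrix.submatrix_mul_equiv _ _ _ (mE k).symm]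
    simp [Matrix.transpose_submatrix]
  simp only [m_reindex (mE k) (bL L) hF, m_reindex (mE k) (bL L) hF', e]
  exact hj t ht

end Crest.Agent.R166
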