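import Crest.Agent.R166.M.Defs

/-!
# Row 166, block M: 2 x 2 algebra and the unitary W0
-/

set_option autoImplicit false

open MeasureTheory ProbabilityTheory Filter Topology Complex
open scoped ENNReal NNReal BigOperators Matrix

noncomputable section

namespace Crest.Agent.R166

private theorem y_ne {y : ℂ} (hy : 0 < y.im) : y ≠ 0 := fun h => by simp [h] at hy

private theorem y_ne' {y : ℂ} (hy : 0 < y.im) : 1 - y * y ≠ 0 := fun h => by
  have h1 : (1 - y) * (1 + y) = 0 := by rw [← h]; ring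
  rcases mul_eq_zero.1 h1 with h2 | h2
  · have := congrArg Complex.im h2; simp at this; linarith
  · have := congrArg Complex.im h2; simp at this; linarith

private theorem c_pos {y : ℂ} (hy : 0 < y.im) : 0 < y.im / ‖y‖ ^ 2 :=
  div_pos hy (pow_pos (norm_pos_iff.2 (y_ne hy)) 2)

/-- `Γ₀⁻¹ = y⁻¹ + J₀`  (`1 - y² ≠ 0`, `y ≠ 0` because `Im y > 0`). -/
theorem m_Gam_inv {y : ℂ} (hy : 0 < y.im) :
    GamE y y * (y⁻¹ • (1 : Matrix (Fin 2) (Fin 2) ℂ) + !![0, 1; 1, 0]) = 1 := by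
  have h1 := y_ne hy
  have h2 : 1 - y ^ 2 ≠ 0 := by rw [sq]; exact y_ne' hy
  ext i j
  fin_cases i <;> fin_cases j <;> simp [GamE, Matrix.mul_apply, Fin.sum_univ_two, ← sq] <;>
    field_simp <;> ring

/-- `Im Γ₀ = (Im y/|y|²) Γ₀ conj Γ₀`: from `Γ - Γ̄ = Γ (Γ̄⁻¹ - Γ⁻¹) Γ̄`. -/
theorem m_imGam {y : ℂ} (hy : 0 < y.im) :
    (imM (GamE y y)).map (fun x : ℝ => (x : ℂ)) =
      ((y.im / ‖y‖ ^ 2 : ℝ) : ℂ) • (GamE y y * (GamE y y).map (starRingEnd ℂ)) := by
  set G := GamE y y with hG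
  set J : Matrix (Fin 2) (Fin 2) ℂ := !![0, 1; 1, 0] with hJ
  have h1 : G * (y⁻¹ • 1 + J) = 1 := m_Gam_inv hy
  have h2 : ((starRingEnd ℂ y)⁻¹ • 1 + J) * G.map (starRingEnd ℂ) = 1 := by
    have h3 := congrArg (fun A : Matrix (Fin 2) (Fin 2) ℂ => A.map (starRingEnd ℂ)) (mul_eq_one_comm.1 h1)
    simp only [Matrix.map_mul] at h3
    convert h3 using 2
    · ext i j; fin_cases i <;> fin_cases j <;> simp [hJ]
    · ext i j; fin_cases i <;> fin_cases j <;> simp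
  have h3 : G - G.map (starRingEnd ℂ) = ((starRingEnd ℂ y)⁻¹ - y⁻¹) • (G * G.map (starRingEnd ℂ)) := by
    calc G - G.map (starRingEnd ℂ) = G * (((starRingEnd ℂ y)⁻¹ • 1 + J) * G.map (starRingEnd ℂ)) -
          G * (y⁻¹ • 1 + J) * G.map (starRingEnd ℂ) := by rw [h1, h2, Matrix.mul_one, Matrix.one_mul]
      _ = _ := by
          simp only [Matrix.add_mul, Matrix.mul_add, Matrix.smul_mul, Matrix.mul_smul, Matrix.one_mul,
            Matrix.mul_one, sub_smul, Matrix.mul_assoc]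
          abel
  have h4 : (starRingEnd ℂ y)⁻¹ - y⁻¹ = 2 * I * ((y.im / ‖y‖ ^ 2 : ℝ) : ℂ) := by
    have h5 := Complex.sub_conj (starRingEnd ℂ y)⁻¹
    rw [map_inv₀, Complex.conj_conj] at h5
    rw [h5, Complex.inv_im, Complex.normSq_conj, Complex.normSq_eq_norm_sq, Complex.conj_im]
    push_cast; ring
  ext i j
  have h6 := congrFun (congrFun h3 i) j
  rw [Matrix.sub_apply, Matrix.map_apply, Complex.sub_conj, h4, Matrix.smul_apply, smul_eq_mul] at h6
  rw [Matrix.map_apply, Matrix.smul_apply, smul_eq_mul, imM, Matrix.map_apply]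
  refine mul_left_cancel₀ (mul_ne_zero two_ne_zero Complex.I_ne_zero) ?_
  rw [← mul_assoc, ← h6]
  push_cast; ring

/-- positivity of `C = Im Γ₀`: `C 0 0 = c (|Γ00|² + |Γ01|²)`, `det C = c² |det Γ₀|²`. -/
theorem m_imGam_pos {y : ℂ} (hy : 0 < y.im) :
    0 < imM (GamE y y) 0 0 ∧ 0 < (imM (GamE y y)).det := by
  have hc := c_pos hy
  have h := m_imGam hy
  have hd : (GamE y y).det ≠ 0 := (Matrix.isUnit_det_of_right_inverse (m_Gam_inv hy)).ne_zero
  constructor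
  · have h1 := congrFun (congrFun h 0) 0
    rw [Matrix.map_apply, Matrix.smul_apply, Matrix.mul_apply, Fin.sum_univ_two, Matrix.map_apply,
      Matrix.map_apply, show GamE y y 1 0 = GamE y y 0 1 from rfl, Complex.mul_conj,
      Complex.mul_conj, smul_eq_mul] at h1
    have h2 : imM (GamE y y) 0 0 = y.im / ‖y‖ ^ 2 * (normSq (GamE y y 0 0) + normSq (GamE y y 0 1)) := by
      exact_mod_cast h1
    have h3 : 0 < normSq (GamE y y 0 0) := normSq_pos.2 (div_ne_zero (y_ne hy) (y_ne' hy))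
    rw [h2]
    exact mul_pos hc (by linarith [normSq_nonneg (GamE y y 0 1)])
  · have h1 := congrArg Matrix.det h
    rw [Matrix.det_smul, Matrix.det_mul] at h1
    have h2 := (RingHom.map_det Complex.ofRealHom (imM (GamE y y))).trans h1
    have h3 : ((GamE y y).map (starRingEnd ℂ)).det = starRingEnd ℂ (GamE y y).det :=
      (RingHom.map_det _ _).symm
    rw [h3, Complex.mul_conj, Complex.ofRealHom_eq_coe] at h2
    have h4 : (imM (GamE y y)).det = (y.im / ‖y‖ ^ 2) ^ Fintype.card (Fin 2) * normSq (GamE y y).det := by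
      exact_mod_cast h2
    rw [h4]
    exact mul_pos (pow_pos hc _) (normSq_pos.2 hd)

theorem m_B0_mul {y : ℂ} (hy : 0 < y.im) : mB0 y * (mB0 y)ᵀ = imM (GamE y y) := by
  obtain ⟨h1, h2⟩ := m_imGam_pos hy
  have h3 : imM (GamE y y) 0 1 = imM (GamE y y) 1 0 := rfl
  rw [mB0]
  generalize imM (GamE y y) = C at h1 h2 h3 ⊢
  rw [Matrix.det_fin_two, h3] at h2
  have h4 : 0 ≤ C 1 1 - C 1 0 ^ 2 / C 0 0 := by
    rw [sub_nonneg, div_le_iff₀ h1]; nlinarith
  have h5 := Real.mul_self_sqrt h1.le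
  have h6 := Real.mul_self_sqrt h4
  have h7 : √(C 0 0) ≠ 0 := (Real.sqrt_pos.2 h1).ne'
  ext i j
  fin_cases i <;> fin_cases j <;> simp [chol2, Matrix.mul_apply, Fin.sum_univ_two]
  · exact h5
  · rw [h3]; field_simp
  · field_simp
  · rw [h6, div_mul_div_comm, h5]; ring

theorem m_B0_unit {y : ℂ} (hy : 0 < y.im) : IsUnit (mB0 y).det := by
  have h1 := congrArg Matrix.det (m_B0_mul hy)
  rw [Matrix.det_mul, Matrix.det_transpose] at h1
  refine isUnit_iff_ne_zero.2 fun h => ?_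
  have := (m_imGam_pos hy).2
  rw [← h1, h] at this
  simp at this

/-- `U₀ = √(Im y/|y|²) B₀⁻¹ Γ₀` is unitary; in particular its second column is a unit vector. -/
theorem m_Al_norm {y : ℂ} (hy : 0 < y.im) : ‖mAl y 0‖ ^ 2 + ‖mAl y 1‖ ^ 2 = 1 := by
  set c := y.im / ‖y‖ ^ 2 with hc
  set B := ((mB0 y)⁻¹).map fun x : ℝ => (x : ℂ) with hB
  set U := ((√c : ℝ) : ℂ) • (B * GamE y y) with hU
  have h1 : (GamE y y)ᴴ = (GamE y y).map (starRingEnd ℂ) := by
    ext i j; fin_cases i <;> fin_cases j <;> rfl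
  have h2 : Bᴴ = Bᵀ := by ext i j; simp [hB]
  have h3 : B * (imM (GamE y y)).map (fun x : ℝ => (x : ℂ)) * Bᵀ = 1 := by
    have h4 : (mB0 y)⁻¹ * imM (GamE y y) * ((mB0 y)⁻¹)ᵀ = 1 := by
      rw [← m_B0_mul hy, Matrix.nonsing_inv_mul_cancel_left _ _ (m_B0_unit hy), ← Matrix.transpose_mul,
        Matrix.nonsing_inv_mul _ (m_B0_unit hy), Matrix.transpose_one]
    have h5 := congrArg (fun A : Matrix (Fin 2) (Fin 2) ℝ => A.map Complex.ofRealHom) h4
    simp only [Matrix.map_mul] at h5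
    exact h5.trans (Matrix.map_one _ (by simp) (by simp))
  have h4 : U * Uᴴ = 1 := by
    have h5 : ((√c : ℝ) : ℂ) * ((√c : ℝ) : ℂ) = (c : ℂ) := by
      exact_mod_cast Real.mul_self_sqrt (c_pos hy).le
    rw [hU, Matrix.conjTranspose_smul, Matrix.conjTranspose_mul, h1, h2, ← h3, m_imGam hy,
      Matrix.smul_mul, Matrix.mul_smul, smul_smul, Complex.star_def, Complex.conj_ofReal, h5]
    simp only [Matrix.mul_smul, Matrix.smul_mul, Matrix.mul_assoc, hc]
  have h6 : Uᴴ * U = 1 := mul_eq_one_comm.1 h4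
  have h5 := congrFun (congrFun h6 1) 1
  rw [Matrix.mul_apply, Fin.sum_univ_two, Matrix.conjTranspose_apply, Matrix.conjTranspose_apply,
    Complex.star_def, Complex.conj_mul', Complex.conj_mul', Matrix.one_apply_eq] at h5
  exact_mod_cast h5

/-- for a real matrix `M`, `Im ((Mβ)₀ conj (Mβ)₁) = det M * Im (β₀ conj β₁)`;
`β = Γ₀ e₁ = y/(1-y²) (-y, 1)`. -/
theorem m_Al_im {y : ℂ} (hy : 0 < y.im) : (mAl y 0 * star (mAl y 1)).im ≠ 0 := by
  have hM : ((mB0 y)⁻¹).det ≠ 0 := (Matrix.isUnit_nonsing_inv_det _ (m_B0_unit hy)).ne_zero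
  have ht : y / (1 - y * y) ≠ 0 := div_ne_zero (y_ne hy) (y_ne' hy)
  have hr : √(y.im / ‖y‖ ^ 2) ≠ 0 := (Real.sqrt_pos.2 (c_pos hy)).ne'
  have h0 : GamE y y 0 1 = -y * (y / (1 - y * y)) := by simp [GamE]; ring
  have h1 : GamE y y 1 1 = y / (1 - y * y) := rfl
  simp only [mAl, Matrix.mul_apply, Fin.sum_univ_two, Matrix.map_apply, h0, h1]
  generalize (mB0 y)⁻¹ = M at hM ⊢
  generalize y / (1 - y * y) = t at ht ⊢
  generalize √(y.im / ‖y‖ ^ 2) = r at hr ⊢
  have h2 : ((r : ℂ) * (M 0 0 * (-y * t) + M 0 1 * t) * star (r * (M 1 0 * (-y * t) + M 1 1 * t))).im =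
      -(r ^ 2 * M.det * y.im * normSq t) := by
    simp [Matrix.det_fin_two, normSq_apply]; ring
  rw [h2]
  exact neg_ne_zero.2 (mul_ne_zero (mul_ne_zero (mul_ne_zero (pow_ne_zero _ hr) hM) hy.ne')
    (normSq_pos.2 ht).ne')

/-- `‖w‖² = 2`, so `1 - w wᴴ` is a unitary reflection; the entry `((0,j₁),(1,j₁))` is `-α₀ conj α₁`.
`W₀ := (mW y (0 : Fin 2) 1).submatrix finProdFinEquiv.symm finProdFinEquiv.symm`; the last claim is checked
entrywise (`rcases` on the `Sum` components). -/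
theorem m_W0 {y : ℂ} (hy : 0 < y.im) :
    ∃ W₀ : Matrix (Fin (2 * 2)) (Fin (2 * 2)) ℂ, W₀ ∈ Matrix.unitaryGroup (Fin (2 * 2)) ℂ ∧
      (∃ i j, (W₀ i j).im ≠ 0) ∧ ∀ k : ℕ, (blk W₀ (2 * k)).submatrix (mE k) (mE k) =
        mW y (Sum.inl 0 : Fin 2 ⊕ Fin k) (Sum.inl 1) := by
  set w := mWv y (0 : Fin 2) 1 with hw
  have h1 : star w ⬝ᵥ w = 2 := by
    have h2 : (‖mAl y 0‖ : ℂ) ^ 2 + (‖mAl y 1‖ : ℂ) ^ 2 = 1 := by exact_mod_cast m_Al_norm hy
    simp only [dotProduct, Fintype.sum_prod_type, Fin.sum_univ_two, Pi.star_apply, Complex.star_def,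
      Complex.conj_mul', hw, mWv]
    simp
    linear_combination 2 * h2
  have h2 : mW y (0 : Fin 2) 1 * (mW y (0 : Fin 2) 1)ᴴ = 1 := by
    rw [mW, ← hw, Matrix.conjTranspose_sub, Matrix.conjTranspose_one, Matrix.conjTranspose_vecMulVec,
      star_star, Matrix.sub_mul, Matrix.mul_sub, Matrix.mul_sub, Matrix.vecMulVec_mul_vecMulVec, h1,
      Matrix.vecMulVec_smul, two_smul]
    simp
  refine ⟨(mW y (0 : Fin 2) 1).submatrix finProdFinEquiv.symm finProdFinEquiv.symm, ?_,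
    ⟨finProdFinEquiv (0, 0), finProdFinEquiv (1, 0), ?_⟩, fun k => ?_⟩
  · rw [Matrix.mem_unitaryGroup_iff, Matrix.star_eq_conjTranspose, Matrix.conjTranspose_submatrix,
      Matrix.submatrix_mul_equiv, h2, Matrix.submatrix_one_equiv]
  · have := m_Al_im hy
    simp only [mul_im, star_def, conj_re, conj_im] at this
    simp [mW, mWv, Matrix.vecMulVec_apply]
    intro h
    exact this (by linarith)
  · ext ⟨o, j | j⟩ ⟨o', j' | j'⟩ <;>
      simp [blk, mE, mW, mWv, Matrix.vecMulVec_apply, Matrix.one_apply]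

end Crest.Agent.R166
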