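import Crest.Agent.R166.M.Cay
import Crest.Agent.R166.M.Alg

/-!
# Row 166, block M: the algebra of the switch
-/

set_option autoImplicit false

open MeasureTheory ProbabilityTheory Filter Topology Complex
open scoped ENNReal NNReal BigOperators Matrix

noncomputable section

namespace Crest.Agent.R166

theorem m_sw_key {R : Type} [Ring R] {G Gi P D X X' : R} (h1 : G * Gi = 1) (h2 : Gi * G = 1)
    (hP : P * P = 1) (hD : P * Gi * P = Gi + D) (hX : X - X' = X * D * X') :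
    P * X' * P - G = G * P * Gi * ((X - G) * ((1 - D * X') * P)) := by
  have e1 : X * (1 - D * X') = X' := by rw [mul_sub, mul_one, ← mul_assoc, ← hX]; abel
  have e2 : Gi * ((X - G) * (1 - D * X')) = P * Gi * P * X' - 1 := by
    rw [sub_mul, e1, mul_sub, ← mul_assoc, h2, one_mul, hD, add_mul]; abel
  have e3 : G * P * (P * Gi * P * X' - 1) = P * X' - G * P := by
    rw [mul_sub, mul_one]
    congr 1
    calc G * P * (P * Gi * P * X') = G * (P * P) * Gi * P * X' := by simp only [mul_assoc]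
      _ = P * X' := by rw [hP, mul_one, h1, one_mul]
  calc P * X' * P - G = (P * X' - G * P) * P := by rw [sub_mul, mul_assoc G, hP, mul_one]
    _ = G * P * (Gi * ((X - G) * (1 - D * X'))) * P := by rw [e2, e3]
    _ = _ := by simp only [mul_assoc]

theorem m_sw_abs {R : Type} [Ring R] {G Gi H Hi P D X X' Bi S W Wb Wt : R} (h1 : G * Gi = 1)
    (h2 : Gi * G = 1) (h1' : H * Hi = 1) (h2' : Hi * H = 1) (hP : P * P = 1)
    (hD : P * Gi * P = Gi + D) (hD' : P * Hi * P = Hi + D) (hX : X - X' = X * D * X')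
    (hS : S * (Bi * (X - H)) = Bi * (X - G)) (hW : W * Bi = Bi * (G * P * Gi))
    (hWb : Wb * Bi = Bi * (H * P * Hi)) (hWt : Wt * Wb = 1) :
    W * S * Wt * (Bi * (P * X' * P - H)) = Bi * (P * X' * P - G) := by
  rw [m_sw_key h1 h2 hP hD hX, m_sw_key h1' h2' hP hD' hX, ← mul_assoc Bi, ← mul_assoc Bi (G * P * Gi),
    ← hW, ← hWb]
  calc _ = W * (S * ((Wt * Wb) * (Bi * (X - H)))) * ((1 - D * X') * P) := by simp only [mul_assoc]
    _ = _ := by rw [hWt, one_mul, hS]; simp only [mul_assoc]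

theorem m_J_sub {J : Type} [DecidableEq J] {j₁ j₂ : J} (hj : j₁ ≠ j₂) :
    (Matrix.blockDiagonal fun _ : J => (!![0, 1; 1, 0] : Matrix (Fin 2) (Fin 2) ℂ)).submatrix
        (Equiv.swap (1, j₁) (1, j₂)) (Equiv.swap (1, j₁) (1, j₂)) =
      (Matrix.blockDiagonal fun _ : J => (!![0, 1; 1, 0] : Matrix (Fin 2) (Fin 2) ℂ)) +
        (mDel j₁ j₂).map (fun x : ℝ => (x : ℂ)) := by
  ext ⟨o, j⟩ ⟨o', j'⟩
  have hj' := hj.symm
  have key : ∀ j, j = j₁ ∨ j = j₂ ∨ (j ≠ j₁ ∧ j ≠ j₂ ∧ j₁ ≠ j ∧ j₂ ≠ j) := fun j => by tauto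
  rcases key j with h | h | ⟨h1, h2, h3, h4⟩ <;> rcases key j' with h' | h' | ⟨h1', h2', h3', h4'⟩ <;>
    fin_cases o <;> fin_cases o' <;>
    simp [*, Matrix.blockDiagonal_apply, mDel, Matrix.vecMulVec_apply, Equiv.swap_apply_def]

theorem m_map_mul {ι : Type} [Fintype ι] (A B : Matrix ι ι ℝ) :
    (A * B).map (fun x : ℝ => (x : ℂ)) =
      A.map (fun x : ℝ => (x : ℂ)) * B.map (fun x : ℝ => (x : ℂ)) :=
  Matrix.map_mul (f := Complex.ofRealHom)

theorem m_map_sub {ι : Type} (A B : Matrix ι ι ℝ) :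
    (A - B).map (fun x : ℝ => (x : ℂ)) =
      A.map (fun x : ℝ => (x : ℂ)) - B.map (fun x : ℝ => (x : ℂ)) := by
  ext a b; simp

theorem m_perm_eq {ι : Type} [DecidableEq ι] {a b : ι} (h : a ≠ b) :
    ((Equiv.swap a b).toPEquiv.toMatrix : Matrix ι ι ℂ) =
      1 - Matrix.vecMulVec (Pi.single a 1 - Pi.single b 1) (Pi.single a 1 - Pi.single b 1) := by
  ext x x'
  have h' := h.symm
  by_cases h1 : x = a <;> by_cases h2 : x = b <;> by_cases h3 : x' = a <;> by_cases h4 : x' = b <;>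
    simp_all [Matrix.vecMulVec_apply, Equiv.swap_apply_def, Pi.single_apply, Matrix.one_apply,
      PEquiv.toMatrix_apply, eq_comm]

/-- The switch identity.  Recipe (all matrices complexified): `Γ = ⊕ Γ₀`, `Γi = y⁻¹ + 𝐉 = Γ⁻¹`, `B = ⊕ B₀`,
`Bi = B⁻¹`, `d = e(1,j₁) - e(1,j₂)`, `P = 1 - d dᵀ` (the permutation matrix of the swap, `P² = 1`,
`X'.submatrix p p = P X' P`), `P Γi P = Γi + Δ`.  `K ± i = Bi (X - Γ̄ or Γ) Biᵀ`, so `S = cay (mK y X)` is
characterised (`m_cay_mul`, `m_cay_char`) by `S Bi (X - Γ̄) = Bi (X - Γ)`.  With `Z = 1 - Δ X'`, `Γ' = P Γ P`: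
`X' - Γ' = Γ' Γi (X - Γ) Z` (use `X Z = X'`), same for `Γ̄`.  `W = Bi Γ P Γi B = U P Uᴴ = mW`, `U = c Bi Γ`
unitary, `W̄ = Bi Γ̄ P Γ̄i B`, `Wᵀ W̄ = 1`.  Hence
`W S Wᵀ Bi (P X' P - Γ̄) = W S Wᵀ W̄ Bi (X - Γ̄) Z P = W Bi (X - Γ) Z P = Bi (P X' P - Γ)`. -/
theorem m_switch_alg {J : Type} [Fintype J] [DecidableEq J] {y : ℂ} (hy : 0 < y.im) {j₁ j₂ : J}
    (hj : j₁ ≠ j₂) {X X' : Matrix (Fin 2 × J) (Fin 2 × J) ℝ} (hX : X.IsSymm) (hX' : X'.IsSymm)
    (h : X - X' = X * mDel j₁ j₂ * X') :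
    cay (mK y (X'.submatrix (Equiv.swap (1, j₁) (1, j₂)) (Equiv.swap (1, j₁) (1, j₂)))) =
      mW y j₁ j₂ * cay (mK y X) * (mW y j₁ j₂)ᵀ := by
  have hp : ((1 : Fin 2), j₁) ≠ (1, j₂) := fun h => hj (congrArg Prod.snd h)
  -- `2 × 2` facts
  set c : ℂ := ((√(y.im / ‖y‖ ^ 2) : ℝ) : ℂ) with hc
  have hcc : c * c = ((y.im / ‖y‖ ^ 2 : ℝ) : ℂ) := by
    rw [hc, ← ofReal_mul, Real.mul_self_sqrt (by positivity)]
  have hcs : star c = c := by rw [hc]; exact conj_ofReal _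
  set g := GamE y y with hg
  set gi : Matrix (Fin 2) (Fin 2) ℂ := y⁻¹ • 1 + !![0, 1; 1, 0] with hgi
  set bi : Matrix (Fin 2) (Fin 2) ℂ := ((mB0 y)⁻¹).map (fun x : ℝ => (x : ℂ)) with hbi
  have g1 : g * gi = 1 := m_Gam_inv hy
  have gH : gᴴ = g.map (starRingEnd ℂ) := by
    ext o o'; fin_cases o <;> fin_cases o' <;> simp [hg, GamE]
  have biH : biᴴ = biᵀ := by ext o o'; simp [hbi]
  have b1 : bi * (imM g).map (fun x : ℝ => (x : ℂ)) * biᵀ = 1 := by
    have e : (mB0 y)⁻¹ * imM g * ((mB0 y)⁻¹)ᵀ = 1 := by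
      rw [hg, ← m_B0_mul hy, ← Matrix.mul_assoc, Matrix.nonsing_inv_mul _ (m_B0_unit hy),
        Matrix.one_mul, ← Matrix.transpose_mul, Matrix.nonsing_inv_mul _ (m_B0_unit hy),
        Matrix.transpose_one]
    have := congrArg (fun M => M.map Complex.ofRealHom) e
    simp only [Matrix.map_mul] at this
    rw [Matrix.map_one _ (map_zero _) (map_one _)] at this
    exact this
  set u := c • (bi * g) with hu
  have uH : uᴴ = c • (g.map (starRingEnd ℂ) * biᵀ) := by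
    rw [hu, Matrix.conjTranspose_smul, Matrix.conjTranspose_mul, hcs, gH, biH]
  have u1 : u * uᴴ = 1 := by
    rw [uH, hu, ← b1, m_imGam hy, ← hg, ← hcc]
    simp only [Matrix.smul_mul, Matrix.mul_smul, smul_smul, Matrix.mul_assoc]
  have u2 : uᴴ * u = 1 := mul_eq_one_comm.1 u1
  have u3 : c • (uᴴ * bi) = gi := by
    have : c • (uᴴ * bi) * g = 1 := by
      rw [← u2, Matrix.smul_mul, Matrix.mul_assoc, ← Matrix.mul_smul]
    calc _ = c • (uᴴ * bi) * (g * gi) := by rw [g1, Matrix.mul_one]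
      _ = gi := by rw [← Matrix.mul_assoc, this, Matrix.one_mul]
  -- block versions
  set G : Matrix (Fin 2 × J) (Fin 2 × J) ℂ := Matrix.blockDiagonal fun _ => g with hG
  set Gi : Matrix (Fin 2 × J) (Fin 2 × J) ℂ := Matrix.blockDiagonal fun _ => gi with hGi
  set Bi : Matrix (Fin 2 × J) (Fin 2 × J) ℂ := Matrix.blockDiagonal fun _ => bi with hBi
  set U : Matrix (Fin 2 × J) (Fin 2 × J) ℂ := Matrix.blockDiagonal fun _ => u with hU
  set P : Matrix (Fin 2 × J) (Fin 2 × J) ℂ := (Equiv.swap ((1 : Fin 2), j₁) (1, j₂)).toPEquiv.toMatrix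
    with hP
  have bd1 : (Matrix.blockDiagonal fun _ : J => (1 : Matrix (Fin 2) (Fin 2) ℂ)) = 1 :=
    Matrix.blockDiagonal_one
  have G1 : G * Gi = 1 := by rw [hG, hGi, ← Matrix.blockDiagonal_mul]; simp only [g1, bd1]
  have G2 : Gi * G = 1 := mul_eq_one_comm.1 G1
  have U1 : U * Uᴴ = 1 := by
    rw [hU, Matrix.blockDiagonal_conjTranspose, ← Matrix.blockDiagonal_mul]; simp only [u1, bd1]
  have U2 : Uᴴ * U = 1 := mul_eq_one_comm.1 U1
  have U3 : c • (Uᴴ * Bi) = Gi := by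
    rw [hU, hBi, Matrix.blockDiagonal_conjTranspose, ← Matrix.blockDiagonal_mul,
      ← Matrix.blockDiagonal_smul, hGi, ← u3]; rfl
  have U4 : U = c • (Bi * G) := by
    rw [hU, hBi, hG, ← Matrix.blockDiagonal_mul, ← Matrix.blockDiagonal_smul]; rfl
  have Psub : ∀ M : Matrix (Fin 2 × J) (Fin 2 × J) ℂ, P * M * P =
      M.submatrix (Equiv.swap (1, j₁) (1, j₂)) (Equiv.swap (1, j₁) (1, j₂)) := fun M => by
    rw [hP, PEquiv.toMatrix_toPEquiv_mul, PEquiv.mul_toMatrix_toPEquiv, Equiv.symm_swap]; rfl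
  have PP : P * P = 1 := by
    have := Psub 1
    rwa [Matrix.mul_one, Matrix.submatrix_one_equiv] at this
  have PH : Pᴴ = P := by
    rw [hP, m_perm_eq hp]; ext a b
    simp [Matrix.vecMulVec_apply, Matrix.one_apply, Pi.single_apply, eq_comm, mul_comm,
      apply_ite (starRingEnd ℂ)]
  have hWU : mW y j₁ j₂ = U * P * Uᴴ := by
    have e1 : mWv y j₁ j₂ = U *ᵥ (Pi.single (1, j₁) 1 - Pi.single (1, j₂) 1) := by
      ext ⟨o, j⟩
      simp only [Matrix.mulVec_sub, Matrix.mulVec_single_one, Pi.sub_apply, Matrix.col_apply, hU,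
        Matrix.blockDiagonal_apply, mWv, mAl, hu, Matrix.smul_apply, smul_eq_mul]
      split_ifs <;> simp [hc, hbi, hg]
    have e2 : star (Pi.single ((1 : Fin 2), j₁) (1 : ℂ) - Pi.single (1, j₂) 1 : Fin 2 × J → ℂ) =
        Pi.single (1, j₁) 1 - Pi.single (1, j₂) 1 := by
      ext a; simp [Pi.single_apply, apply_ite (starRingEnd ℂ)]
    rw [mW, e1, Matrix.star_mulVec, e2, hP, m_perm_eq hp, Matrix.mul_sub, Matrix.sub_mul,
      Matrix.mul_one, U1, Matrix.mul_vecMulVec, Matrix.vecMulVec_mul]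
  have W1 : mW y j₁ j₂ * Bi = Bi * (G * P * Gi) := by
    rw [hWU, ← U3]
    calc U * P * Uᴴ * Bi = U * (P * (Uᴴ * Bi)) := by simp only [Matrix.mul_assoc]
      _ = c • (Bi * G) * (P * (Uᴴ * Bi)) := by rw [← U4]
      _ = _ := by simp only [Matrix.smul_mul, Matrix.mul_smul, Matrix.mul_assoc]
  have W2 : (mW y j₁ j₂)ᴴ * mW y j₁ j₂ = 1 := by
    rw [hWU, Matrix.conjTranspose_mul, Matrix.conjTranspose_mul, PH,
      Matrix.conjTranspose_conjTranspose]
    calc _ = U * (P * (Uᴴ * U) * P) * Uᴴ := by simp only [Matrix.mul_assoc]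
      _ = 1 := by rw [U2, Matrix.mul_one, PP, Matrix.mul_one, U1]
  set Δ := (mDel j₁ j₂).map (fun x : ℝ => (x : ℂ)) with hΔ
  have D1 : P * Gi * P = Gi + Δ := by
    have e : Gi = y⁻¹ • (1 : Matrix (Fin 2 × J) (Fin 2 × J) ℂ) +
        Matrix.blockDiagonal fun _ : J => (!![0, 1; 1, 0] : Matrix (Fin 2) (Fin 2) ℂ) := by
      rw [← bd1, ← Matrix.blockDiagonal_smul, ← Matrix.blockDiagonal_add]; rfl
    rw [e, Matrix.mul_add, Matrix.add_mul, Psub (Matrix.blockDiagonal _), m_J_sub hj,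
      Matrix.mul_smul, Matrix.mul_one, Matrix.smul_mul, PP, add_assoc]
  -- conjugation
  let cj := (starRingEnd ℂ).mapMatrix (m := Fin 2 × J)
  have cre : ∀ M : Matrix (Fin 2 × J) (Fin 2 × J) ℝ,
      cj (M.map fun x : ℝ => (x : ℂ)) = M.map fun x : ℝ => (x : ℂ) := fun M => by
    ext a b; simp [cj]
  have eBi : Bi = (mBi J y).map fun x : ℝ => (x : ℂ) := by
    rw [mBi, Matrix.blockDiagonal_map _ _ ofReal_zero]
  have cP : cj P = P := by
    ext a b; simp [cj, hP, PEquiv.toMatrix_apply, apply_ite (starRingEnd ℂ)]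
  have cB : cj Bi = Bi := by rw [eBi, cre]
  have cΔ : cj Δ = Δ := cre _
  have H1 := congrArg cj G1
  have H2 := congrArg cj G2
  have D2 := congrArg cj D1
  have W3 := congrArg cj W1
  have W4 := congrArg cj W2
  simp only [map_mul, map_one, map_add, cP, cB, cΔ] at H1 H2 D2 W3 W4
  have W5 : cj (mW y j₁ j₂)ᴴ = (mW y j₁ j₂)ᵀ := by ext a b; simp [cj]
  rw [W5] at W4
  -- the `K`-matrix
  have B1 : Bi * (Matrix.blockDiagonal fun _ : J => (imM g).map fun x : ℝ => (x : ℂ)) * Biᵀ = 1 := by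
    rw [hBi, Matrix.blockDiagonal_transpose, ← Matrix.blockDiagonal_mul,
      ← Matrix.blockDiagonal_mul]
    simp only [b1, bd1]
  have eG : G = (mRe J y).map (fun x : ℝ => (x : ℂ)) +
      I • Matrix.blockDiagonal fun _ : J => (imM g).map fun x : ℝ => (x : ℂ) := by
    ext ⟨o, j⟩ ⟨o', j'⟩
    simp only [hG, mRe, Matrix.blockDiagonal_apply, Matrix.add_apply, Matrix.map_apply,
      Matrix.smul_apply, imM, smul_eq_mul, ← hg]
    split_ifs
    · rw [mul_comm, re_add_im]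
    · simp
  have eH : cj G = (mRe J y).map (fun x : ℝ => (x : ℂ)) -
      I • Matrix.blockDiagonal fun _ : J => (imM g).map fun x : ℝ => (x : ℂ) := by
    ext ⟨o, j⟩ ⟨o', j'⟩
    simp only [cj, RingHom.mapMatrix_apply, hG, mRe, Matrix.blockDiagonal_apply, Matrix.sub_apply,
      Matrix.map_apply, Matrix.smul_apply, imM, smul_eq_mul, ← hg]
    split_ifs
    · apply Complex.ext <;> simp
    · simp
  have eK : ∀ Y : Matrix (Fin 2 × J) (Fin 2 × J) ℝ, (mK y Y).map (fun x : ℝ => (x : ℂ)) =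
      Bi * (Y.map (fun x : ℝ => (x : ℂ)) - (mRe J y).map (fun x : ℝ => (x : ℂ))) * Biᵀ := fun Y => by
    rw [mK, m_map_mul, m_map_mul, m_map_sub, eBi]; rfl
  have K1 : ∀ Y : Matrix (Fin 2 × J) (Fin 2 × J) ℝ, (mK y Y).map (fun x : ℝ => (x : ℂ)) + I • 1 =
      Bi * (Y.map (fun x : ℝ => (x : ℂ)) - cj G) * Biᵀ := fun Y => by
    rw [eK, eH, ← B1]
    simp only [Matrix.mul_sub, Matrix.sub_mul, Matrix.mul_smul, Matrix.smul_mul]
    abel
  have K2 : ∀ Y : Matrix (Fin 2 × J) (Fin 2 × J) ℝ, (mK y Y).map (fun x : ℝ => (x : ℂ)) - I • 1 =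
      Bi * (Y.map (fun x : ℝ => (x : ℂ)) - G) * Biᵀ := fun Y => by
    rw [eK, eG, ← B1]
    simp only [Matrix.mul_sub, Matrix.sub_mul, Matrix.mul_add, Matrix.add_mul, Matrix.mul_smul,
      Matrix.smul_mul]
    abel
  have hS : cay (mK y X) * (Bi * (X.map (fun x : ℝ => (x : ℂ)) - cj G)) =
      Bi * (X.map (fun x : ℝ => (x : ℂ)) - G) := by
    have e := m_cay_mul (m_mK_symm y hX)
    rw [K1, K2] at e
    have B2 := mul_eq_one_comm.1 B1
    have e2 := congrArg (fun M => M * (Bi * Matrix.blockDiagonal fun _ : J =>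
      (imM g).map fun x : ℝ => (x : ℂ))) e
    simp only [Matrix.mul_assoc] at e2 B2
    simpa only [B2, Matrix.mul_one] using e2
  have hXc : X.map (fun x : ℝ => (x : ℂ)) - X'.map (fun x : ℝ => (x : ℂ)) =
      X.map (fun x : ℝ => (x : ℂ)) * Δ * X'.map (fun x : ℝ => (x : ℂ)) := by
    rw [← m_map_sub, h, m_map_mul, m_map_mul]
  have fin := m_sw_abs G1 G2 H1 H2 PP D1 D2 hXc hS W1 W3 W4
  symm
  refine m_cay_char (m_mK_symm y (hX'.submatrix _)) ?_
  rw [K1, K2, ← Matrix.submatrix_map, ← Psub, ← Matrix.mul_assoc, fin]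

end Crest.Agent.R166
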