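import Crest.Agent.R166.M.Defs

/-!
# Row 166, block M: the Cayley transform
-/

set_option autoImplicit false

open MeasureTheory ProbabilityTheory Filter Topology Complex
open scoped ENNReal NNReal BigOperators Matrix

noncomputable section

namespace Crest.Agent.R166

variable {ι : Type} [Fintype ι] [DecidableEq ι]

theorem m_cay_im {K : Matrix ι ι ℝ} (hK : K.IsSymm) (v : ι → ℂ) :
    (star v ⬝ᵥ (K.map (fun x : ℝ => (x : ℂ)) + I • (1 : Matrix ι ι ℂ)) *ᵥ v).im =
      ∑ i, ‖v i‖ ^ 2 := by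
  have hH : (K.map (fun x : ℝ => (x : ℂ))).IsHermitian := by
    ext i j
    simp [Matrix.conjTranspose_apply, hK.apply i j]
  have h1 := hH.im_star_dotProduct_mulVec_self v
  rw [Matrix.add_mulVec, dotProduct_add, Complex.add_im, Matrix.smul_mulVec, Matrix.one_mulVec,
    dotProduct_smul]
  rw [RCLike.im_to_complex] at h1
  rw [h1, zero_add, smul_eq_mul, Complex.I_mul_im, dotProduct, Complex.re_sum]
  refine Finset.sum_congr rfl fun i _ => ?_
  rw [Pi.star_apply, Complex.star_def, Complex.conj_mul']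
  norm_cast

omit [DecidableEq ι] in
theorem m_compact_entries (r : ℝ) : IsCompact {A : Matrix ι ι ℂ | ∀ x y, ‖A x y‖ ≤ r} := by
  have := isCompact_univ_pi fun _ : ι => isCompact_univ_pi fun _ : ι =>
    isCompact_closedBall (0 : ℂ) r
  have h : {A : Matrix ι ι ℂ | ∀ x y, ‖A x y‖ ≤ r} =
      (Set.univ.pi fun _ : ι => Set.univ.pi fun _ : ι => Metric.closedBall (0 : ℂ) r) := by
    ext A
    exact ⟨fun h x _ y _ => mem_closedBall_zero_iff.2 (h x y),
      fun h x y => mem_closedBall_zero_iff.1 (h x trivial y trivial)⟩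
  rw [h]; exact this

/-- `K + i` is invertible for real symmetric `K`.  Recipe: if `(K+i) v = 0` then
`Im (star v ⬝ᵥ (K+i) v) = ‖v‖² = 0` (`Matrix.exists_mulVec_eq_zero_iff`), or
`(K - i)(K + i) = K² + 1` is positive definite. -/
theorem m_cay_unit {K : Matrix ι ι ℝ} (hK : K.IsSymm) :
    IsUnit (K.map (fun x : ℝ => (x : ℂ)) + I • (1 : Matrix ι ι ℂ)).det := by
  rw [isUnit_iff_ne_zero]
  intro h
  obtain ⟨v, hv, h0⟩ := Matrix.exists_mulVec_eq_zero_iff.2 h
  have h1 := m_cay_im hK v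
  rw [h0, dotProduct_zero, Complex.zero_im, eq_comm,
    Finset.sum_eq_zero_iff_of_nonneg fun _ _ => sq_nonneg _] at h1
  exact hv (funext fun i => by simpa using h1 i (Finset.mem_univ _))

/-- entries of `R = (K+i)⁻¹` have norm at most `1`.  Recipe: `R` is symmetric, `Rᴴ = (K-i)⁻¹`,
`R - Rᴴ = -2i R Rᴴ`, so `∑ y, ‖R x y‖² = -Im R x x ≤ ‖R x x‖`, whence `‖R x x‖ ≤ 1`. -/
theorem m_cayR_le {K : Matrix ι ι ℝ} (hK : K.IsSymm) (x y : ι) :
    ‖(K.map (fun x : ℝ => (x : ℂ)) + I • (1 : Matrix ι ι ℂ))⁻¹ x y‖ ≤ 1 := by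
  set A := K.map (fun x : ℝ => (x : ℂ)) + I • (1 : Matrix ι ι ℂ) with hA
  have h0 : A *ᵥ (fun x => A⁻¹ x y) = Pi.single y 1 := by
    have : (fun x => A⁻¹ x y) = A⁻¹ *ᵥ Pi.single y 1 := by
      rw [Matrix.mulVec_single_one]; rfl
    rw [this, Matrix.mulVec_mulVec, Matrix.mul_nonsing_inv _ (m_cay_unit hK), Matrix.one_mulVec]
  have h1 := m_cay_im hK fun x => A⁻¹ x y
  rw [← hA, h0, dotProduct_single, mul_one] at h1
  have h2 : ∑ i, ‖A⁻¹ i y‖ ^ 2 ≤ ‖A⁻¹ y y‖ := by
    rw [← h1]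
    refine (le_abs_self _).trans ((Complex.abs_im_le_norm _).trans (le_of_eq ?_))
    simp
  have h3 : ∀ i, ‖A⁻¹ i y‖ ^ 2 ≤ ∑ i, ‖A⁻¹ i y‖ ^ 2 := fun i =>
    Finset.single_le_sum (f := fun i => ‖A⁻¹ i y‖ ^ 2) (fun _ _ => sq_nonneg _) (Finset.mem_univ i)
  have h4 : ‖A⁻¹ y y‖ ≤ 1 := by nlinarith [h3 y, norm_nonneg (A⁻¹ y y)]
  nlinarith [h3 x, norm_nonneg (A⁻¹ x y)]

theorem m_cay_mul {K : Matrix ι ι ℝ} (hK : K.IsSymm) :
    cay K * (K.map (fun x : ℝ => (x : ℂ)) + I • (1 : Matrix ι ι ℂ)) =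
      K.map (fun x : ℝ => (x : ℂ)) - I • (1 : Matrix ι ι ℂ) := by
  rw [cay, Matrix.sub_mul, Matrix.one_mul, Matrix.smul_mul,
    Matrix.nonsing_inv_mul _ (m_cay_unit hK), mul_smul, two_smul]
  abel

theorem m_cay_char {K : Matrix ι ι ℝ} (hK : K.IsSymm) {S : Matrix ι ι ℂ}
    (h : S * (K.map (fun x : ℝ => (x : ℂ)) + I • (1 : Matrix ι ι ℂ)) =
      K.map (fun x : ℝ => (x : ℂ)) - I • (1 : Matrix ι ι ℂ)) : S = cay K := by
  rw [← m_cay_mul hK] at h
  have := congrArg (· * (K.map (fun x : ℝ => (x : ℂ)) + I • (1 : Matrix ι ι ℂ))⁻¹) h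
  simpa only [Matrix.mul_nonsing_inv_cancel_right _ _ (m_cay_unit hK)] using this

/-- Recipe: the set of matrices with entries of norm `≤ 3` is compact (`isCompact_univ_pi` twice). -/
theorem m_cay_bdd {F : Matrix ι ι ℂ → ℝ} (hF : Continuous F) : ∃ B : ℝ, 0 < B ∧ mBd F B := by
  obtain ⟨B, hB⟩ := (m_compact_entries (ι := ι) 3).exists_bound_of_continuousOn hF.continuousOn
  refine ⟨max B 1, by positivity, fun K hK => le_trans (hB _ fun x y => ?_) (le_max_left _ _)⟩
  rw [cay, Matrix.sub_apply, Matrix.smul_apply]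
  refine (norm_sub_le _ _).trans ?_
  have h1 : ‖(1 : Matrix ι ι ℂ) x y‖ ≤ 1 := by
    rw [Matrix.one_apply]; split_ifs <;> simp
  have h2 := m_cayR_le hK x y
  rw [smul_eq_mul, norm_mul, norm_mul, Complex.norm_I, Complex.norm_two]
  linarith

/-- Recipe: `ContinuousAt.comp` with `continuousAt_matrix_inv` (`Ring.inverse` is continuous at units,
`NormedRing.inverse_continuousAt`, or rewrite `Ring.inverse_eq_inv'` and use `continuousAt_inv₀`). -/
theorem m_cay_cont {X : Type} [TopologicalSpace X] {K : X → Matrix ι ι ℝ} (hK : Continuous K)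
    (hs : ∀ x, (K x).IsSymm) : Continuous fun x => cay (K x) := by
  refine continuous_const.sub (Continuous.fun_const_smul ?_ _)
  have h1 : Continuous fun x => (K x).map (fun x : ℝ => (x : ℂ)) + I • (1 : Matrix ι ι ℂ) :=
    (hK.matrix_map Complex.continuous_ofReal).add continuous_const
  refine continuous_iff_continuousAt.2 fun x => ?_
  refine ContinuousAt.comp (f := fun x => (K x).map (fun x : ℝ => (x : ℂ)) + I • (1 : Matrix ι ι ℂ))
    (continuousAt_matrix_inv _ ?_) h1.continuousAt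
  rw [Ring.inverse_eq_inv']
  exact continuousAt_inv₀ (m_cay_unit (hs x)).ne_zero

/-- Recipe: `Matrix.inv_def`, `Ring.inverse_eq_inv'`, continuity of `det`, `adjugate`, `Measurable.inv`. -/
theorem m_inv_meas : Measurable fun A : Matrix ι ι ℝ => A⁻¹ := by
  simp only [Matrix.inv_def, Ring.inverse_eq_inv']
  refine measurable_pi_lambda _ fun i => measurable_pi_lambda _ fun j => ?_
  exact ((continuous_id.matrix_det).measurable.inv).mul
    ((continuous_id.matrix_adjugate).matrix_elem i j).measurable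

theorem m_cay_meas : Measurable fun K : Matrix ι ι ℝ => cay K := by
  have h1 : Continuous fun K : Matrix ι ι ℝ =>
      K.map (fun x : ℝ => (x : ℂ)) + I • (1 : Matrix ι ι ℂ) :=
    (continuous_id.matrix_map Complex.continuous_ofReal).add continuous_const
  simp only [cay, Matrix.inv_def, Ring.inverse_eq_inv']
  refine measurable_pi_lambda _ fun i => measurable_pi_lambda _ fun j => ?_
  exact measurable_const.sub (measurable_const.mul ((h1.matrix_det.measurable.inv).mul
    (h1.matrix_adjugate.matrix_elem i j).measurable))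

theorem m_cay_sub {κ : Type} [Fintype κ] [DecidableEq κ] (K : Matrix ι ι ℝ) (e : κ ≃ ι) :
    cay (K.submatrix e e) = (cay K).submatrix e e := by
  have : (K.submatrix e e).map (fun x : ℝ => (x : ℂ)) + I • (1 : Matrix κ κ ℂ) =
      (K.map (fun x : ℝ => (x : ℂ)) + I • (1 : Matrix ι ι ℂ)).submatrix e e := by
    ext i j; simp [Matrix.one_apply]
  rw [cay, cay, this, Matrix.inv_submatrix_equiv]
  ext i j; simp [Matrix.one_apply]

theorem m_modelK_symm {n : ℕ} (b : ℝ → ℝ) (x : Fin n → ℝ) (g : Fin n → ι → ℝ) :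
    (modelK b x g).IsSymm := by
  ext a c
  simp only [Matrix.transpose_apply, modelK, mul_comm]

theorem m_mK_symm {J : Type} [Fintype J] [DecidableEq J] (y : ℂ)
    {X : Matrix (Fin 2 × J) (Fin 2 × J) ℝ} (hX : X.IsSymm) : (mK y X).IsSymm := by
  have h1 : (mRe J y).IsSymm := by
    rw [Matrix.IsSymm, mRe, Matrix.blockDiagonal_transpose]
    congr 1
    funext _
    ext i j
    fin_cases i <;> fin_cases j <;> simp [GamE]
  rw [Matrix.IsSymm, mK, Matrix.transpose_mul, Matrix.transpose_mul, Matrix.transpose_transpose,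
    (hX.sub h1).eq, Matrix.mul_assoc]

/-- joint measurability of the model integrand -/
theorem m_model_meas {n : ℕ} {b : ℝ → ℝ} (hb : Measurable b) {F : Matrix ι ι ℂ → ℝ}
    (hF : Continuous F) :
    Measurable fun p : (Fin n → ℝ) × (Fin n → ι → ℝ) => F (cay (modelK b p.1 p.2)) := by
  refine hF.measurable.comp (m_cay_meas.comp ?_)
  refine measurable_pi_lambda _ fun a => measurable_pi_lambda _ fun c => ?_
  refine measurable_const.mul (Finset.measurable_sum _ fun i _ => ?_)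
  exact (hb.comp ((measurable_pi_apply i).comp measurable_fst)).mul (by fun_prop)

/-- Recipe: `StronglyMeasurable.integral_prod_right'`. -/
theorem m_mM_meas {n : ℕ} {b : ℝ → ℝ} (hb : Measurable b) {F : Matrix ι ι ℂ → ℝ}
    (hF : Continuous F) : Measurable fun x : Fin n → ℝ => mM b F x := by
  exact ((m_model_meas hb hF).stronglyMeasurable.integral_prod_right').measurable

theorem m_mM_bdd {n : ℕ} (b : ℝ → ℝ) {F : Matrix ι ι ℂ → ℝ} {B : ℝ} (hB : mBd F B)
    (x : Fin n → ℝ) : |mM b F x| ≤ B := by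
  have := norm_integral_le_of_norm_le_const (μ := gpi2 (Fin n) ι)
    (f := fun g => F (cay (modelK b x g))) (C := B)
    (ae_of_all _ fun g => hB _ (m_modelK_symm b x g))
  simpa [mM] using this

end Crest.Agent.R166
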