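import Crest.Agent.R166.M.Cay

/-!
# Row 166, block M: uniform continuity of the Cayley transform
-/

set_option autoImplicit false

open MeasureTheory ProbabilityTheory Filter Topology Complex
open scoped ENNReal NNReal BigOperators Matrix

noncomputable section

namespace Crest.Agent.R166

variable {ι : Type} [Fintype ι] [DecidableEq ι]

/-- complexification -/
private def cx (K : Matrix ι ι ℝ) : Matrix ι ι ℂ := K.map fun x : ℝ => (x : ℂ)

private def hh (T D R₁ R : Matrix ι ι ℂ) : Matrix ι ι ℂ :=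
  (1 + R₁ * (I • (T * Tᵀ - 1) - D)) * (T⁻¹)ᵀ * R * T⁻¹

private theorem hh_cont {X : Type} [TopologicalSpace X] {T D R₁ R : X → Matrix ι ι ℂ}
    (hT : Continuous T) (hD : Continuous D) (h₁ : Continuous R₁) (hR : Continuous R) {x : X}
    (hx : T x = 1) : ContinuousAt (fun x => hh (T x) (D x) (R₁ x) (R x)) x := by
  have hi : ContinuousAt (fun x => (T x)⁻¹) x := by
    refine ContinuousAt.comp (f := T) (continuousAt_matrix_inv _ ?_) hT.continuousAt
    rw [Ring.inverse_eq_inv', hx, Matrix.det_one]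
    exact continuousAt_inv₀ one_ne_zero
  have ht : ContinuousAt (fun x => ((T x)⁻¹)ᵀ) x :=
    ContinuousAt.comp (g := fun A : Matrix ι ι ℂ => Aᵀ) (f := fun x => (T x)⁻¹)
      continuous_id.matrix_transpose.continuousAt hi
  have ha : Continuous fun x => 1 + R₁ x * (I • (T x * (T x)ᵀ - 1) - D x) :=
    continuous_const.add (h₁.matrix_mul
      ((((hT.matrix_mul hT.matrix_transpose).sub continuous_const).fun_const_smul _).sub hD))
  exact ((ha.continuousAt.mul ht).mul hR.continuousAt).mul hi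

private theorem hh_eq {T D K : Matrix ι ι ℂ} (hT : IsUnit T.det) (hK : IsUnit (K + I • 1).det)
    (h₁ : IsUnit (T * K * Tᵀ + D + I • 1).det) :
    hh T D (T * K * Tᵀ + D + I • 1)⁻¹ (K + I • 1)⁻¹ = (T * K * Tᵀ + D + I • 1)⁻¹ := by
  have h6 : I • (T * Tᵀ - 1) - D = T * (K + I • 1) * Tᵀ - (T * K * Tᵀ + D + I • 1) := by
    rw [Matrix.mul_add, Matrix.add_mul, smul_sub, Matrix.mul_smul, Matrix.mul_one,
      Matrix.smul_mul]
    abel
  have h7 : Tᵀ * (T⁻¹)ᵀ = 1 := by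
    rw [← Matrix.transpose_mul, Matrix.nonsing_inv_mul _ hT, Matrix.transpose_one]
  rw [hh, h6, Matrix.mul_sub, Matrix.nonsing_inv_mul _ h₁, add_sub_cancel]
  simp only [Matrix.mul_assoc]
  rw [← Matrix.mul_assoc Tᵀ, h7, Matrix.one_mul, Matrix.mul_nonsing_inv_cancel_left _ _ hK,
    Matrix.mul_nonsing_inv _ hT, Matrix.mul_one]

/-- Uniform continuity of `F ∘ cay` under `K ↦ T K Tᵀ + D`.  Recipe: with `R = (K+i)⁻¹`,
`R₁ = (T K Tᵀ + D + i)⁻¹` and `T` invertible one has `R₁ T (K+i) Tᵀ = 1 + R₁ (i (T Tᵀ - 1) - D)`, so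
`R₁ = h(R₁, R, T, D) := (1 + R₁ (i (T Tᵀ - 1) - D)) (Tᵀ)⁻¹ R T⁻¹`.  The function
`F (1 - 2i h) - F (1 - 2i R)` is continuous at every `((1,0), (R₁,R))` with value `0`; apply the tube lemma
`IsCompact.eventually_forall_of_forall_eventually` on the compact set of pairs `(R₁,R)` with entries `≤ 1`
(and `det T ≠ 0` near `1`). -/
theorem m_cay_nhds {F : Matrix ι ι ℂ → ℝ} (hF : Continuous F) {ε : ℝ} (hε : 0 < ε) :
    ∀ᶠ p : Matrix ι ι ℝ × Matrix ι ι ℝ in 𝓝 (1, 0), ∀ K : Matrix ι ι ℝ, K.IsSymm → p.2.IsSymm →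
      |F (cay (p.1 * K * p.1ᵀ + p.2)) - F (cay K)| ≤ ε := by
  have hc : Continuous (cx (ι := ι)) := continuous_id.matrix_map Complex.continuous_ofReal
  have hc1 : cx (1 : Matrix ι ι ℝ) = 1 := Matrix.map_one _ (by simp) (by simp)
  have hc0 : cx (0 : Matrix ι ι ℝ) = 0 := Matrix.map_zero _ (by simp)
  have hK := (m_compact_entries (ι := ι) 1).prod (m_compact_entries (ι := ι) 1)
  have h1 := hK.eventually_forall_of_forall_eventually (x₀ := ((1, 0) : Matrix ι ι ℝ × Matrix ι ι ℝ))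
    (P := fun p y => |F (1 - (2 * I) • hh (cx p.1) (cx p.2) y.1 y.2) - F (1 - (2 * I) • y.2)| ≤ ε)
    fun y _ => by
      have hh1 := hh_cont (X := (Matrix ι ι ℝ × Matrix ι ι ℝ) × (Matrix ι ι ℂ × Matrix ι ι ℂ))
        (hc.comp continuous_fst.fst) (hc.comp continuous_fst.snd) continuous_snd.fst
        continuous_snd.snd (x := ((1, 0), y)) hc1
      have hG : Continuous fun A : Matrix ι ι ℂ => F (1 - (2 * I) • A) :=
        hF.comp (continuous_const.sub (continuous_id.fun_const_smul _))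
      have h2 := ((hG.continuousAt.comp hh1).sub
        ((hG.comp continuous_snd.snd).continuousAt (x := ((1, 0), y)))).abs
      refine h2.eventually (ge_mem_nhds ?_)
      simpa [hh, hc1, hc0] using hε
  have h2 : ∀ᶠ p : Matrix ι ι ℝ × Matrix ι ι ℝ in 𝓝 (1, 0), (cx p.1).det ≠ 0 :=
    (hc.comp continuous_fst).matrix_det.continuousAt.eventually_ne (by simp [hc1])
  filter_upwards [h1, h2] with p hp hd K hK hD
  have hs : (p.1 * K * p.1ᵀ + p.2).IsSymm := by
    refine Matrix.IsSymm.add ?_ hD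
    rw [Matrix.IsSymm, Matrix.transpose_mul, Matrix.transpose_mul, Matrix.transpose_transpose,
      hK.eq, Matrix.mul_assoc]
  have h3 := hp ((cx (p.1 * K * p.1ᵀ + p.2) + I • 1)⁻¹, (cx K + I • 1)⁻¹)
    ⟨m_cayR_le hs, m_cayR_le hK⟩
  have h4 : cx (p.1 * K * p.1ᵀ + p.2) = cx p.1 * cx K * (cx p.1)ᵀ + cx p.2 := by
    ext i j; simp [cx, Matrix.mul_apply]
  have h5 := hh_eq (T := cx p.1) (D := cx p.2) (K := cx K) (isUnit_iff_ne_zero.2 hd)
    (m_cay_unit hK) (by rw [← h4]; exact m_cay_unit hs)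
  rw [← h4] at h5
  simp only [h5] at h3
  exact h3

/-- entrywise form, after conjugation by a fixed matrix.  Recipe: pull `m_cay_nhds` back along the continuous
map `D ↦ (1, M D Mᵀ)`; `Metric.eventually_nhds_iff` on `ι → ι → ℝ`, `dist_pi_lt_iff`. -/
theorem m_cay_unif {F : Matrix ι ι ℂ → ℝ} (hF : Continuous F) (M : Matrix ι ι ℝ) {ε : ℝ}
    (hε : 0 < ε) : ∃ δ : ℝ, 0 < δ ∧ ∀ X X' : Matrix ι ι ℝ, X.IsSymm → X'.IsSymm →
      (∀ x x', |X x x' - X' x x'| ≤ δ) → |F (cay (M * X * Mᵀ)) - F (cay (M * X' * Mᵀ))| ≤ ε := by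
  have h1 : Continuous fun D : ι → ι → ℝ => ((1 : Matrix ι ι ℝ), M * Matrix.of D * Mᵀ) :=
    continuous_const.prodMk ((continuous_const.matrix_mul continuous_id).matrix_mul continuous_const)
  have h2 := (h1.tendsto 0).eventually (p := fun p : Matrix ι ι ℝ × Matrix ι ι ℝ =>
    ∀ K : Matrix ι ι ℝ, K.IsSymm → p.2.IsSymm →
      |F (cay (p.1 * K * p.1ᵀ + p.2)) - F (cay K)| ≤ ε) (by simpa using m_cay_nhds hF hε)
  obtain ⟨δ, hδ, h3⟩ := Metric.eventually_nhds_iff.1 h2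
  have hs : ∀ X : Matrix ι ι ℝ, X.IsSymm → (M * X * Mᵀ).IsSymm := fun X hX => by
    rw [Matrix.IsSymm, Matrix.transpose_mul, Matrix.transpose_mul, Matrix.transpose_transpose,
      hX.eq, Matrix.mul_assoc]
  refine ⟨δ / 2, by positivity, fun X X' hX hX' h => ?_⟩
  have h4 := h3 (y := fun i j => X i j - X' i j) (by
    refine (dist_pi_lt_iff hδ).2 fun i => (dist_pi_lt_iff hδ).2 fun j => ?_
    rw [Real.dist_eq]
    simpa using (h i j).trans_lt (by linarith)) (M * X' * Mᵀ) (hs _ hX') (hs (X - X') (hX.sub hX'))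
  have h5 : (1 : Matrix ι ι ℝ) * (M * X' * Mᵀ) * (1 : Matrix ι ι ℝ)ᵀ + M * (X - X') * Mᵀ =
      M * X * Mᵀ := by
    rw [Matrix.one_mul, Matrix.transpose_one, Matrix.mul_one, Matrix.mul_sub, Matrix.sub_mul]; abel
  rw [← h5]
  exact h4

end Crest.Agent.R166
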