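import Crest.Agent.R166.M.Meas

/-!
# Row 166, block M: counting bad probes; stars to edges
-/

set_option autoImplicit false

open MeasureTheory ProbabilityTheory Filter Topology Complex
open scoped ENNReal NNReal BigOperators Matrix

noncomputable section

namespace Crest.Agent.R166

/-- Markov and union bound over the probes.  Recipe: pointwise
`|g a - g' a| ≤ ε + B (∑ j, 1[bad (a j)] + ∑ j o, T(ep (a j) o)/δ + ∑ j ≠ j', ∑ o o', G2(..)(..)/δ)`;
average with `m_avg_abs`, `p_avg_sum`, `m_avg_eval`, `m_avg_eval2`, `p_avg_prod`, `m_avg_ep`. -/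
theorem m_count {V : Type} [Fintype V] [DecidableEq V] [Nonempty V] {q : ℕ} {J : Type} [Fintype J]
    [DecidableEq J] (σ : Pairing V q) (bad : HE V q → Prop) {T : V → ℝ} (hT : ∀ v, 0 ≤ T v)
    {G2 : V → V → ℝ} (hG : ∀ v w, 0 ≤ G2 v w) {δ ε B : ℝ} (hδ : 0 < δ) (hε : 0 ≤ ε) (hB : 0 ≤ B)
    {g g' : (J → HE V q) → ℝ} (h1 : ∀ a, |g a - g' a| ≤ B)
    (h2 : ∀ a : J → HE V q, (∀ j, ¬ bad (a j)) → (∀ j o, T (ep σ (a j) o) ≤ δ) →
      (∀ j j' o o', j ≠ j' → G2 (ep σ (a j) o) (ep σ (a j') o') ≤ δ) → |g a - g' a| ≤ ε) :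
    |avg g - avg g'| ≤ ε + B * (Fintype.card J * frac bad + 2 * Fintype.card J * avg T / δ +
      4 * (Fintype.card J : ℝ) ^ 2 * (avg fun p : V × V => G2 p.1 p.2) / δ) := by
  classical
  let I₁ : HE V q → ℝ := fun h => if bad h then 1 else 0
  have hI : ∀ h, 0 ≤ I₁ h := fun h => by simp only [I₁]; split_ifs <;> norm_num
  let S : (J → HE V q) → ℝ := fun a => ∑ j, I₁ (a j) + ∑ x : J × Fin 2, δ⁻¹ * T (ep σ (a x.1) x.2) +
    ∑ x : (J × J) × (Fin 2 × Fin 2),
      if x.1.1 = x.1.2 then 0 else δ⁻¹ * G2 (ep σ (a x.1.1) x.2.1) (ep σ (a x.1.2) x.2.2)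
  have n1 : ∀ (a : J → HE V q) (x : J × Fin 2), 0 ≤ δ⁻¹ * T (ep σ (a x.1) x.2) := fun a x =>
    mul_nonneg (inv_pos.2 hδ).le (hT _)
  have n2 : ∀ (a : J → HE V q) (x : (J × J) × (Fin 2 × Fin 2)), 0 ≤ if x.1.1 = x.1.2 then 0 else
      δ⁻¹ * G2 (ep σ (a x.1.1) x.2.1) (ep σ (a x.1.2) x.2.2) := fun a x => by
    split_ifs; exacts [le_rfl, mul_nonneg (inv_pos.2 hδ).le (hG _ _)]
  have h3 : ∀ a, |g a - g' a| ≤ ε + B * S a := fun a => by
    have s1 := Finset.sum_nonneg (s := Finset.univ) fun j _ => hI (a j)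
    have s2 := Finset.sum_nonneg (s := Finset.univ) fun x _ => n1 a x
    have s3 := Finset.sum_nonneg (s := Finset.univ) fun x _ => n2 a x
    by_cases hS : 1 ≤ S a
    · linarith [h1 a, mul_le_mul_of_nonneg_left hS hB]
    push Not at hS
    refine (h2 a (fun j hj => ?_) (fun j o => ?_) fun j j' o o' hj => ?_).trans
      (le_add_of_nonneg_right (mul_nonneg hB (by simp only [S]; linarith)))
    · have := Finset.single_le_sum (fun j _ => hI (a j)) (Finset.mem_univ j)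
      simp only [I₁, if_pos hj] at this
      simp only [S, I₁] at hS
      linarith
    · have := Finset.single_le_sum (fun x _ => n1 a x) (Finset.mem_univ (j, o))
      rw [← inv_mul_le_one₀ hδ]
      simp only [S] at hS
      linarith
    · have := Finset.single_le_sum (fun x _ => n2 a x) (Finset.mem_univ ((j, j'), (o, o')))
      rw [← inv_mul_le_one₀ hδ]
      simp only [if_neg hj] at this
      simp only [S] at hS
      linarith
  refine (m_avg_abs g g').trans ((p_avg_mono h3).trans ?_)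
  rw [p_avg_add, p_avg_const, p_avg_mul]
  refine add_le_add le_rfl (mul_le_mul_of_nonneg_left ?_ hB)
  simp only [S]
  rw [p_avg_add, p_avg_add, p_avg_sum, p_avg_sum, p_avg_sum]
  refine add_le_add (add_le_add (le_of_eq ?_) (le_of_eq ?_)) ?_
  · simp only [m_avg_eval _ I₁, Finset.sum_const, Finset.card_univ, nsmul_eq_mul]
    congr!
  · have : ∀ x : J × Fin 2, (avg fun a : J → HE V q => δ⁻¹ * T (ep σ (a x.1) x.2)) = δ⁻¹ * avg T :=
      fun x => by rw [p_avg_mul, m_avg_eval x.1 fun h => T (ep σ h x.2), m_avg_ep]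
    simp only [this, Finset.sum_const, Finset.card_univ, nsmul_eq_mul, Fintype.card_prod,
      Fintype.card_fin]
    push_cast; ring
  · have : ∀ x : (J × J) × (Fin 2 × Fin 2), (avg fun a : J → HE V q => if x.1.1 = x.1.2 then 0 else
        δ⁻¹ * G2 (ep σ (a x.1.1) x.2.1) (ep σ (a x.1.2) x.2.2)) ≤
        δ⁻¹ * avg fun p : V × V => G2 p.1 p.2 := fun x => by
      by_cases hx : x.1.1 = x.1.2
      · simp only [if_pos hx, p_avg_const]
        exact mul_nonneg (inv_pos.2 hδ).le (p_avg_nonneg fun _ => hG _ _)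
      · simp only [if_neg hx]
        rw [p_avg_mul, m_avg_eval2 hx fun p => G2 (ep σ p.1 x.2.1) (ep σ p.2 x.2.2), p_avg_prod,
          p_avg_prod fun p : V × V => G2 p.1 p.2]
        simp only [m_avg_ep σ x.2.2 (G2 _)]
        rw [m_avg_ep σ x.2.1 fun v => avg (G2 v)]
    refine (Finset.sum_le_card_nsmul _ _ _ fun x _ => this x).trans (le_of_eq ?_)
    simp only [Finset.card_univ, nsmul_eq_mul, Fintype.card_prod, Fintype.card_fin]
    push_cast; ring

/-- from stars to edges.  Recipe: `ep σ h 0 = sp σ h none`, `ep σ h 1 = sp σ h (some 0)` (`p_rot_zero`),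
`view c h = nearV (sview c h) 0`, `m' = mT (view c h) = Psi ω (children)` by the recursion of `StT0`, so
`Psi_star = m'/(1 - m' m)` (`Fin.sum_univ_succ`; `m' ≠ 0`, `1 - m' m ≠ 0` as both lie in the upper half plane). -/
theorem m_bad_star (hT : StT0) {V : Type} [Fintype V] [DecidableEq V] {q : ℕ} {s : ℝ} (hs0 : 0 ≤ s)
    (hs1 : s ≤ 1) (z : ℂ) {z₀ : ℂ} (hz : 0 < z₀.im) (η : ℝ) (c : Cfg V q) (h : HE V q)
    (hb : mBad s z z₀ η c h) :
    ∃ a b, η < ‖Gr (Hm s c) z (sp c.1 h a) (sp c.1 h b) - GS s z₀ (sview c h) a b‖ := by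
  obtain ⟨-, -, h1⟩ := (hT q s hs0 hs1).1 z₀ hz
  set m' := mT s z₀ (view c h) with hm'
  set m := mT s z₀ (view c (c.1 h)) with hm
  have p1 : 0 < m'.im := (h1 _).1
  have p2 : 0 < m.im := (h1 _).1
  have n1 : m' ≠ 0 := fun e => by simp [e] at p1
  have n2 : 1 - m' * m ≠ 0 := fun e => by
    have e1 : m = m'⁻¹ := eq_inv_of_mul_eq_one_right (by linear_combination -e)
    have e2 : 0 < normSq m' := normSq_pos.2 n1
    rw [e1, Complex.inv_im] at p2
    have := div_pos p1 e2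
    rw [neg_div] at p2
    linarith
  have h2 : m' = Psi s z₀ (c.2 h.1) fun j => mT s z₀ (view c (c.1 (rot h j.succ))) := (h1 _).2.2
  have h3 : Psi s z₀ (c.2 h.1) (fun k => mT s z₀ (view c (c.1 (rot h k)))) = m' / (1 - m' * m) := by
    rw [Psi] at h2 ⊢
    rw [Fin.sum_univ_succ, p_rot_zero, ← hm]
    have h4 : z₀ - s * (c.2 h.1 : ℝ) + ∑ j : Fin q, mT s z₀ (view c (c.1 (rot h j.succ))) = -m'⁻¹ := by
      rw [h2, inv_neg, inv_inv, neg_neg]
    rw [add_comm m, ← add_assoc, h4]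
    have h5 : -m'⁻¹ + m = -((1 - m' * m) / m') := by field_simp; ring
    rw [h5, inv_neg, neg_neg, inv_div]
  have h6 : ∀ o, ep c.1 h o = sp c.1 h (![none, some 0] o) := fun o => by
    fin_cases o <;> simp [ep, sp, p_rot_zero]
  obtain ⟨o, o', hb⟩ := hb
  refine ⟨![none, some 0] o, ![none, some 0] o', ?_⟩
  rw [← h6, ← h6]
  convert hb using 3
  have n3 : 1 - m * m' ≠ 0 := by rwa [mul_comm]
  have h7 : GE s z₀ (eview c h) = GamE m' m := rfl
  rw [h7]
  fin_cases o <;> fin_cases o' <;>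
    simp [GS, GamS, sview, h3, GamE, p_rot_zero, ← hm] <;> field_simp <;> ring

end Crest.Agent.R166
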