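import Crest.Agent.R166.M.Nu

/-!
# Row 166, block M: weak continuity, uniformly in the coefficients
-/

set_option autoImplicit false

open MeasureTheory ProbabilityTheory Filter Topology Complex
open scoped ENNReal NNReal BigOperators Matrix

noncomputable section

namespace Crest.Agent.R166

/-- Recipe: `(b, μ) ↦ ∫ Φ b d(pi μ) = ∫ uncurry Φ d((diracProba b).prod (pi μ))` is continuous
(`ProbabilityMeasure.continuous_pi`, `continuous_prod`, `continuous_diracProba`,
`ProbabilityMeasure.continuous_integral_boundedContinuousFunction`, `BoundedContinuousFunction.ofNormedAddCommGroup`);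
tube lemma `IsCompact.eventually_forall_of_forall_eventually`. -/
theorem m_wk {X : Type} [TopologicalSpace X] [SecondCountableTopology X]
    [TopologicalSpace.PseudoMetrizableSpace X] [MeasurableSpace X] [BorelSpace X] {r : ℕ} {J : Type}
    [Fintype J] {Φ : (Fin r → ℝ) → (J → X) → ℝ} (hΦ : Continuous (Function.uncurry Φ)) {B : ℝ}
    (hB : ∀ b Y, |Φ b Y| ≤ B) {Kc : Set (Fin r → ℝ)} (hK : IsCompact Kc) (Q : ProbabilityMeasure X)
    {ε : ℝ} (hε : 0 < ε) :
    ∀ᶠ μ : ProbabilityMeasure X in 𝓝 Q, ∀ b ∈ Kc,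
      |∫ Y, Φ b Y ∂(Measure.pi fun _ : J => (μ : Measure X)) -
        ∫ Y, Φ b Y ∂(Measure.pi fun _ : J => (Q : Measure X))| ≤ ε := by
  let G : BoundedContinuousFunction ((Fin r → ℝ) × (J → X)) ℝ :=
    BoundedContinuousFunction.ofNormedAddCommGroup _ hΦ B fun p => hB p.1 p.2
  have h1 : Continuous fun p : ProbabilityMeasure X × (Fin r → ℝ) =>
      (diracProba p.2).prod (ProbabilityMeasure.pi fun _ : J => p.1) :=
    ProbabilityMeasure.continuous_prod.comp ((continuous_diracProba.comp continuous_snd).prodMk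
      (ProbabilityMeasure.continuous_pi.comp (continuous_pi fun _ => continuous_fst)))
  have h2 := (ProbabilityMeasure.continuous_integral_boundedContinuousFunction G).comp h1
  have h3 : Continuous fun p : ProbabilityMeasure X × (Fin r → ℝ) =>
      ∫ Y, Φ p.2 Y ∂(Measure.pi fun _ : J => (p.1 : Measure X)) := by
    convert h2 using 2 with p
    simp only [Function.comp, ProbabilityMeasure.toMeasure_prod, diracProba,
      ProbabilityMeasure.coe_mk, ProbabilityMeasure.toMeasure_pi]
    rw [Measure.dirac_prod, integral_map measurable_prodMk_left.aemeasurable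
      G.continuous.aestronglyMeasurable]
    rfl
  refine hK.eventually_forall_of_forall_eventually fun b _ => ?_
  have h4 := (h3.sub (h3.comp ((continuous_const (y := Q)).prodMk continuous_snd))).abs
  exact (h4.tendsto (Q, b)).eventually (ge_mem_nhds (by simpa using hε))

/-- `1 - m' m ≠ 0` in the upper half plane -/
theorem m_one_sub_ne {m' m : ℂ} (h' : 0 < m'.im) (h : 0 < m.im) : 1 - m' * m ≠ 0 := by
  intro e
  have n1 : m' ≠ 0 := fun e => by simp [e] at h'
  have e1 : m = m'⁻¹ := eq_inv_of_mul_eq_one_right (by linear_combination -e)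
  have := div_pos h' (normSq_pos.2 n1)
  rw [e1, Complex.inv_im, neg_div] at h
  linarith

theorem m_GamE_contAt {m' m : ℂ} (h' : 0 < m'.im) (h : 0 < m.im) :
    ContinuousAt (fun p : ℂ × ℂ => GamE p.1 p.2) (m', m) := by
  have h1 := m_one_sub_ne h' h
  refine continuousAt_pi.2 fun i => continuousAt_pi.2 fun j => ?_
  fin_cases i <;> fin_cases j <;> simp only [GamE] <;>
    exact ContinuousAt.div (by fun_prop) (by fun_prop) h1

theorem m_GE_cont (hT : StT0) {q : ℕ} {s : ℝ} (hs0 : 0 ≤ s) (hs1 : s ≤ 1) {z : ℂ} (hz : 0 < z.im) :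
    Continuous (GE (q := q) s z) := by
  obtain ⟨-, h1, h2⟩ := (hT q s hs0 hs1).1 z hz
  refine continuous_iff_continuousAt.2 fun e => ?_
  exact ContinuousAt.comp (g := fun p : ℂ × ℂ => GamE p.1 p.2)
    (f := fun e : EEnv q => (mT s z e.1, mT s z e.2)) (m_GamE_contAt (h2 _).1 (h2 _).1)
    ((h1.comp continuous_fst).prodMk (h1.comp continuous_snd)).continuousAt

theorem m_mXT_symm {q r : ℕ} {J : Type} [DecidableEq J] (s : ℝ) (z : ℂ) (ρ : ℝ) (b : Fin r → ℝ)
    (Y : J → EState q r) : (mXT s z ρ b Y).IsSymm := by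
  ext ⟨o, j⟩ ⟨o', j'⟩
  simp only [Matrix.transpose_apply, mXT]
  congr 1
  · by_cases h : j = j'
    · subst h
      fin_cases o <;> fin_cases o' <;> rfl
    · rw [if_neg h, if_neg (Ne.symm h)]
  · simp only [mul_comm]

/-- Recipe: `m_cay_cont`, `m_mK_symm`, `m_mXT_symm`, `m_GE_cont`, `continuous_matrix`. -/
theorem m_phi_cont (hT : StT0) {q r : ℕ} {J : Type} [Fintype J] [DecidableEq J] {s : ℝ}
    (hs0 : 0 ≤ s) (hs1 : s ≤ 1) {z : ℂ} (hz : 0 < z.im) (y : ℂ) (ρ : ℝ) {φ : Env q → ℝ}
    (hφ : Continuous φ) {F : Matrix (Fin 2 × J) (Fin 2 × J) ℂ → ℝ} (hF : Continuous F) :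
    Continuous (Function.uncurry (mPhi (r := r) s z y ρ φ F)) := by
  have h1 := m_GE_cont hT (q := q) hs0 hs1 hz
  have h2 : Continuous fun p : (Fin r → ℝ) × (J → EState q r) => mXT s z ρ p.1 p.2 := by
    refine continuous_matrix fun x x' => Continuous.add ?_ (by fun_prop)
    split_ifs
    · exact Complex.continuous_re.comp ((h1.comp (by fun_prop)).matrix_elem _ _)
    · exact continuous_const
  have h3 : Continuous (mK (J := J) y) :=
    (continuous_const.matrix_mul (continuous_id.sub continuous_const)).matrix_mul continuous_const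
  refine Continuous.mul (continuous_finsetProd _ fun j _ => ?_)
    (hF.comp (m_cay_cont (h3.comp h2) fun p => m_mK_symm y (m_mXT_symm s z ρ p.1 p.2)))
  exact (hφ.comp (by fun_prop)).mul (hφ.comp (by fun_prop))

theorem m_phi_bdd {q r : ℕ} {J : Type} [Fintype J] [DecidableEq J] (s : ℝ) (z y : ℂ) (ρ : ℝ)
    {φ : Env q → ℝ} (hφ : ∀ β, 0 ≤ φ β ∧ φ β ≤ 1) {F : Matrix (Fin 2 × J) (Fin 2 × J) ℂ → ℝ} {B : ℝ}
    (hB : mBd F B) (b : Fin r → ℝ) (Y : J → EState q r) : |mPhi s z y ρ φ F b Y| ≤ B := by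
  rw [mPhi, abs_mul, abs_of_nonneg (m_mF_mem hφ _).1]
  exact (mul_le_of_le_one_left (abs_nonneg _) (m_mF_mem hφ _).2).trans
    (hB _ (m_mK_symm y (m_mXT_symm s z ρ b Y)))

end Crest.Agent.R166
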