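import Crest.Agent.R166.M.Spec
import Crest.Agent.R166.M.Count
import Crest.Agent.R166.M.Wk
import Crest.Agent.R166.M.CayU

/-!
# Row 166, block M: deterministic reduction to eigenvector frames
-/

set_option autoImplicit false

open MeasureTheory ProbabilityTheory Filter Topology Complex
open scoped ENNReal NNReal BigOperators Matrix

noncomputable section

namespace Crest.Agent.R166

theorem m_mRe_symm (J : Type) [DecidableEq J] (y : ℂ) : (mRe J y).IsSymm := by
  refine Matrix.IsSymm.ext fun a b => ?_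
  obtain ⟨o, j⟩ := a
  obtain ⟨o', j'⟩ := b
  simp only [mRe, Matrix.blockDiagonal_apply, Matrix.map_apply]
  by_cases h : j = j'
  · subst h
    fin_cases o <;> fin_cases o' <;> simp [GamE]
  · rw [if_neg h, if_neg (Ne.symm h)]

theorem m_tail_le {ι : Type} (S : Finset ι) (b p p' : ι → ℝ) {N : ℝ} (hN : 0 ≤ N) :
    |N * ∑ i ∈ S, b i * (p i * p' i)| ≤
      (N * ∑ i ∈ S, |b i| * p i ^ 2 + N * ∑ i ∈ S, |b i| * p' i ^ 2) / 2 := by
  rw [abs_mul, abs_of_nonneg hN, ← mul_add, mul_div_assoc, ← Finset.sum_add_distrib, Finset.sum_div]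
  refine mul_le_mul_of_nonneg_left ((Finset.abs_sum_le_sum_abs _ _).trans
    (Finset.sum_le_sum fun i _ => ?_)) hN
  rw [abs_mul, ← mul_add, mul_div_assoc]
  refine mul_le_mul_of_nonneg_left (abs_le.2 ⟨?_, ?_⟩) (abs_nonneg _) <;>
    nlinarith [sq_nonneg (p i + p' i), sq_nonneg (p i - p' i)]

/-- Recipe: `u` from `StE`, `ψ α = √n u (f α)`, `f` enumerates `{i : |x i| ≤ A L}` (`Finset.orderEmbOfFin`).
`X = Re G(z) + ρ ∑ bL(x i) ψ_i ψ_iᵀ` (`m_inv_spec`, `m_split_spec`, `N = nρ`), tail entries bounded by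
`(T v + T w)/2`, `T v = nρ ∑_{far} |bL| u i v ^ 2`, `avg T = ρ ∑_{far} |bL| ≤ 2ρC₂/A²` (`m_bL_far`),
`G2 = ‖G‖²` (`m_ward`), `m_count`, `m_cay_unif` with `M = mBi J y`. -/
theorem m_det (hE : StE) {q : ℕ} (s : ℝ) (y : ℂ) {J : Type} [Fintype J] [DecidableEq J]
    {F : Matrix (Fin 2 × J) (Fin 2 × J) ℂ → ℝ} (hF : Continuous F) {B : ℝ} (hB0 : 0 ≤ B)
    (hB : mBd F B) {ρ : ℝ} (hρ : 0 < ρ) {C₂ : ℝ} (_hC : 0 ≤ C₂) {ε : ℝ} (hε : 0 < ε) :
    ∃ η : ℝ, 0 < η ∧ ∀ᶠ A in (atTop : Filter ℝ), ∀ᶠ L in (atTop : Filter ℝ),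
      ∀ (n : ℕ) (c : Cfg (Fin n) q) (φ : Env q → ℝ) (E t : ℝ) (z₀ : ℂ) (x : Fin n → ℝ), 0 < n →
        (∀ β, 0 ≤ φ β ∧ φ β ≤ 1) → |t| ≤ 1 → (∀ i, x i = n * ρ * (ev (Hm s c) i - E) - t) →
        (∀ i, x i ≠ 0) → mN L x ≤ C₂ → mN (A * L) x ≤ C₂ →
        frac (mBad s (((E + t / (n * ρ) : ℝ) : ℂ) + ((L / (n * ρ) : ℝ) : ℂ) * I) z₀ η c) ≤ η →
        ∃ (r : ℕ) (f : Fin r ↪ Fin n) (ψ : Fin r → Fin n → ℝ), (r : ℝ) ≤ 2 * (A * L) * C₂ ∧
          IsFrame s E ((A * L + 1) / ρ) c ψ ∧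
          ∑ i ∈ (Finset.univ.map f)ᶜ, |bL L (x i)| ≤ 2 * C₂ / A ^ 2 ∧
          |mObs s y φ F c (E + t / (n * ρ)) -
            avg fun a : J → HE (Fin n) q => mPhi s z₀ y ρ φ F (fun α => bL L (x (f α)))
              fun j => (eview c (a j), fun α o => ψ α (ep c.1 (a j) o))| ≤ ε := by
  obtain ⟨δ, hδ, hunif⟩ := m_cay_unif hF (mBi J y) (show 0 < ε / 4 by positivity)
  set cJ : ℝ := (Fintype.card J : ℝ) with hcJ
  have hcJ0 : 0 ≤ cJ := Nat.cast_nonneg _
  set δ' := min (δ / 2) (δ ^ 2 / 4) with hδ'd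
  have hδ' : 0 < δ' := lt_min (by positivity) (by positivity)
  refine ⟨min (δ / 2) (ε / (8 * (B * cJ + 1))), lt_min (by positivity) (by positivity), ?_⟩
  set η := min (δ / 2) (ε / (8 * (B * cJ + 1))) with hηd
  have hA : ∀ᶠ A : ℝ in atTop, 2 * B * (2 * cJ * (ρ * (2 * C₂)) / δ') / A ^ 2 ≤ ε / 4 :=
    (tendsto_const_nhds.div_atTop (tendsto_pow_atTop two_ne_zero)).eventually
      (ge_mem_nhds (by positivity))
  have hL : ∀ᶠ L : ℝ in atTop, 2 * B * (4 * cJ ^ 2 * (ρ ^ 2 * C₂) / δ') / L ≤ ε / 4 :=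
    (tendsto_const_nhds.div_atTop tendsto_id).eventually (ge_mem_nhds (by positivity))
  filter_upwards [hA, eventually_gt_atTop 0] with A hA hA0
  filter_upwards [hL, eventually_gt_atTop 0] with L hL hL0 n c φ E t z₀ x hn hφ ht hx hx0 hN1 hN2 hbad
  have hn0 : (0 : ℝ) < n := by exact_mod_cast hn
  have hN : 0 < (n : ℝ) * ρ := by positivity
  have hAL : 0 < A * L := by positivity
  obtain ⟨u, hu1, hu2, hu3, hu4⟩ := (hE (Fin n)).2 (Hm s c) (m_Hm_herm s c)
  set E' := E + t / (n * ρ) with hE'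
  set z : ℂ := (E' : ℂ) + ((L / (n * ρ) : ℝ) : ℂ) * I with hz
  have hx' : ∀ i, n * ρ * (ev (Hm s c) i - E') = x i := fun i => by
    rw [hx, hE']; field_simp; ring
  have hne : ∀ i, ev (Hm s c) i ≠ E' := fun i h => hx0 i (by rw [← hx', h, sub_self, mul_zero])
  have hG := hu4 z fun i h => by
    have := congrArg Complex.im h
    simp only [hz, add_im, ofReal_im, mul_im, ofReal_re, I_im, mul_one, I_re, mul_zero, add_zero,
      zero_add] at this
    exact (div_pos hL0 hN).ne this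
  set S : Finset (Fin n) := Finset.univ.filter fun i => |x i| ≤ A * L with hS
  let f : Fin S.card ↪ Fin n := (S.orderEmbOfFin rfl).toEmbedding
  have hf : Finset.univ.map f = S := Finset.map_orderEmbOfFin_univ S rfl
  have hfS : ∀ α, |x (f α)| ≤ A * L := fun α =>
    (Finset.mem_filter.1 (S.orderEmbOfFin_mem rfl α)).2
  have hfar : ∑ i ∈ Sᶜ, |bL L (x i)| ≤ 2 * C₂ / A ^ 2 := by
    calc _ ≤ ∑ i ∈ Sᶜ, 2 / A ^ 2 * (A * L / (x i ^ 2 + (A * L) ^ 2)) := by
          refine Finset.sum_le_sum fun i hi => m_bL_far hA0 hL0 ?_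
          simp only [hS, Finset.mem_compl, Finset.mem_filter, Finset.mem_univ, true_and,
            not_le] at hi
          exact hi.le
      _ ≤ ∑ i, 2 / A ^ 2 * (A * L / (x i ^ 2 + (A * L) ^ 2)) :=
          Finset.sum_le_sum_of_subset_of_nonneg (Finset.subset_univ _) fun i _ _ => by positivity
      _ = 2 / A ^ 2 * mN (A * L) x := by rw [mN, Finset.mul_sum]
      _ ≤ 2 / A ^ 2 * C₂ := mul_le_mul_of_nonneg_left hN2 (by positivity)
      _ = _ := by ring
  have hsq : √(n : ℝ) * √(n : ℝ) = n := Real.mul_self_sqrt hn0.le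
  refine ⟨S.card, f, fun α v => √(n : ℝ) * u (f α) v, ?_, ⟨fun α => ⟨ev (Hm s c) (f α), ?_, ?_⟩,
    fun α β => ?_⟩, by rw [hf]; exact hfar, ?_⟩
  · refine (m_card_le hAL x).trans ?_
    calc _ = 2 * (A * L) * mN (A * L) x := by field_simp; ring
      _ ≤ _ := mul_le_mul_of_nonneg_left hN2 (by positivity)
  · change Hm s c *ᵥ (√(n : ℝ) • u (f α)) = ev (Hm s c) (f α) • (√(n : ℝ) • u (f α))
    rw [Matrix.mulVec_smul, hu1, smul_comm]
  · rw [Fintype.card_fin, div_div, le_div_iff₀ (by positivity)]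
    have e : |ev (Hm s c) (f α) - E| * (ρ * n) = |x (f α) + t| := by
      rw [hx, sub_add_cancel, abs_mul, abs_of_pos hN]; ring
    rw [e]
    exact (abs_add_le _ _).trans (add_le_add (hfS α) ht)
  · have e : ∑ v, √(n : ℝ) * u (f α) v * (√(n : ℝ) * u (f β) v) =
        n * ∑ v, u (f α) v * u (f β) v := by
      rw [Finset.mul_sum]
      exact Finset.sum_congr rfl fun v _ => by linear_combination (u (f α) v * u (f β) v) * hsq
    rw [e, hu2, Fintype.card_fin]
    simp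
  have : Nonempty (Fin n) := ⟨⟨0, hn⟩⟩
  set T : Fin n → ℝ := fun v => n * ρ * ∑ i ∈ Sᶜ, |bL L (x i)| * u i v ^ 2 with hT
  have hX : ∀ v w, (Hm s c - E' • (1 : Matrix (Fin n) (Fin n) ℝ))⁻¹ v w =
      (Gr (Hm s c) z v w).re +
        ρ * ∑ α, bL L (x (f α)) * ((√(n : ℝ) * u (f α) v) * (√(n : ℝ) * u (f α) w)) +
        n * ρ * ∑ i ∈ Sᶜ, bL L (x i) * (u i v * u i w) := by
    intro v w
    rw [(m_inv_spec hu1 hu3 hne).2, m_split_spec _ (fun i => u i v * u i w) E' hN hL0 hne, hG]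
    simp only [hx']
    rw [← Finset.sum_add_sum_compl S fun i => bL L (x i) * (u i v * u i w)]
    have e : ∑ i ∈ S, bL L (x i) * (u i v * u i w) =
        ∑ α, bL L (x (f α)) * (u (f α) v * u (f α) w) := by
      conv_lhs => rw [← hf]
      rw [Finset.sum_map]
    have e2 : ∑ α, bL L (x (f α)) * ((√(n : ℝ) * u (f α) v) * (√(n : ℝ) * u (f α) w)) =
        n * ∑ α, bL L (x (f α)) * (u (f α) v * u (f α) w) := by
      rw [Finset.mul_sum]
      exact Finset.sum_congr rfl fun α _ => by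
        linear_combination (bL L (x (f α)) * (u (f α) v * u (f α) w)) * hsq
    rw [e, e2]; ring
  have hcount := m_count (J := J) c.1 (mBad s z z₀ η c) (T := T)
    (fun v => by positivity) (G2 := fun v w => ‖Gr (Hm s c) z v w‖ ^ 2) (fun v w => by positivity)
    hδ' (show 0 ≤ ε / 4 by positivity) (show 0 ≤ 2 * B by positivity)
    (g := fun a => mF φ (fun j => eview c (a j)) * F (cay (mK y (mX s c E' a))))
    (g' := fun a => mPhi s z₀ y ρ φ F (fun α => bL L (x (f α)))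
      fun j => (eview c (a j), fun α o => √(n : ℝ) * u (f α) (ep c.1 (a j) o)))
    (fun a => ?_) (fun a h1 h2 h3 => ?_)
  · refine hcount.trans ?_
    have t1 : 2 * B * (cJ * frac (mBad s z z₀ η c)) ≤ ε / 4 := by
      have a1 : frac (mBad s z z₀ η c) ≤ ε / (8 * (B * cJ + 1)) := hbad.trans (min_le_right _ _)
      calc _ = 2 * (B * cJ) * frac (mBad s z z₀ η c) := by ring
        _ ≤ 2 * (B * cJ + 1) * (ε / (8 * (B * cJ + 1))) :=
            mul_le_mul (by linarith) a1 (p_frac_nonneg _) (by positivity)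
        _ = ε / 4 := by field_simp; ring
    have t2 : avg T ≤ ρ * (2 * C₂ / A ^ 2) := by
      have e : avg T = ρ * ∑ i ∈ Sᶜ, |bL L (x i)| := by
        rw [avg, Fintype.card_fin, hT, ← Finset.mul_sum, Finset.sum_comm]
        have : ∀ i ∈ Sᶜ, ∑ v, |bL L (x i)| * u i v ^ 2 = |bL L (x i)| := fun i _ => by
          have := hu2 i i
          rw [if_pos rfl] at this
          simp only [sq]
          rw [← Finset.mul_sum, this, mul_one]
        rw [Finset.sum_congr rfl this]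
        field_simp
      rw [e]; exact mul_le_mul_of_nonneg_left hfar hρ.le
    have t3 : (avg fun p : Fin n × Fin n => ‖Gr (Hm s c) z p.1 p.2‖ ^ 2) ≤ ρ ^ 2 * C₂ / L := by
      rw [avg, Fintype.sum_prod_type]
      simp only [hG]
      rw [m_ward hu2 E' hN hL0]
      simp only [hx', Fintype.card_prod, Fintype.card_fin]
      calc _ = ρ ^ 2 * mN L x / L := by push_cast; field_simp
        _ ≤ _ := by gcongr
    have t4 : 2 * B * (2 * cJ * avg T / δ') ≤ ε / 4 := by
      refine le_trans ?_ hA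
      calc _ ≤ 2 * B * (2 * cJ * (ρ * (2 * C₂ / A ^ 2)) / δ') := by gcongr
        _ = _ := by ring
    have t5 : 2 * B * (4 * cJ ^ 2 *
        (avg fun p : Fin n × Fin n => ‖Gr (Hm s c) z p.1 p.2‖ ^ 2) / δ') ≤ ε / 4 := by
      refine le_trans ?_ hL
      calc _ ≤ 2 * B * (4 * cJ ^ 2 * (ρ ^ 2 * C₂ / L) / δ') := by gcongr
        _ = _ := by ring
    linarith
  · obtain ⟨a1, a2⟩ := m_mF_mem hφ fun j => eview c (a j)
    have a3 : |mF φ (fun j => eview c (a j)) * F (cay (mK y (mX s c E' a)))| ≤ B := by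
      rw [abs_mul, abs_of_nonneg a1]
      exact (mul_le_mul a2 (hB _ (m_mK_symm y (m_mX_symm s c E' a))) (abs_nonneg _)
        zero_le_one).trans (one_mul _).le
    have a4 := m_phi_bdd s z₀ y ρ hφ hB (fun α => bL L (x (f α)))
      fun j => ((eview c (a j), fun α o => √(n : ℝ) * u (f α) (ep c.1 (a j) o)) : EState q S.card)
    exact (abs_sub _ _).trans (by linarith)
  · obtain ⟨a1, a2⟩ := m_mF_mem hφ fun j => eview c (a j)
    simp only [mPhi]
    rw [← mul_sub, abs_mul, abs_of_nonneg a1]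
    refine (mul_le_mul a2 ?_ (abs_nonneg _) zero_le_one).trans (one_mul _).le
    refine hunif _ _ ((m_mX_symm s c E' a).sub (m_mRe_symm J y))
      ((m_mXT_symm _ _ _ _ _).sub (m_mRe_symm J y)) fun p p' => ?_
    obtain ⟨o, j⟩ := p
    obtain ⟨o', j'⟩ := p'
    have tl := m_tail_le Sᶜ (fun i => bL L (x i)) (fun i => u i (ep c.1 (a j) o))
      (fun i => u i (ep c.1 (a j') o')) hN.le
    have tl2 : |n * ρ * ∑ i ∈ Sᶜ, bL L (x i) * (u i (ep c.1 (a j) o) * u i (ep c.1 (a j') o'))| ≤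
        δ / 2 := by
      refine tl.trans ?_
      have b1 : T _ ≤ δ / 2 := (h2 j o).trans (min_le_left _ _)
      have b2 : T _ ≤ δ / 2 := (h2 j' o').trans (min_le_left _ _)
      simp only [hT] at b1 b2
      linarith
    have hd : |(Gr (Hm s c) z (ep c.1 (a j) o) (ep c.1 (a j') o')).re -
        (if j = j' then (GE s z₀ (eview c (a j)) o o').re else 0)| ≤ δ / 2 := by
      split_ifs with hjj
      · subst hjj
        rw [← sub_re]
        refine (abs_re_le_norm _).trans (le_trans ?_ (min_le_left _ (ε / (8 * (B * cJ + 1)))))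
        by_contra hlt
        exact h1 j ⟨o, o', not_le.1 hlt⟩
      · rw [sub_zero]
        refine (abs_re_le_norm _).trans ?_
        have b1 := (h3 j j' o o' hjj).trans (min_le_right _ _)
        exact le_of_sq_le_sq (by linarith) (by positivity)
    simp only [Matrix.sub_apply, mX, mXT, hX]
    have b1 := abs_le.1 tl2
    have b2 := abs_le.1 hd
    rw [abs_le]
    constructor <;> linarith [b1.1, b1.2, b2.1, b2.2]

end Crest.Agent.R166
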