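import Crest.Agent.R166.M.Defs

/-!
# Row 166, block M: Gaussian reindexing
-/

set_option autoImplicit false

open MeasureTheory ProbabilityTheory Filter Topology Complex
open scoped ENNReal NNReal BigOperators Matrix

noncomputable section

namespace Crest.Agent.R166

theorem m_pi_comp {α β X : Type} [Fintype α] [Fintype β] [MeasurableSpace X] (μ : Measure X)
    [IsProbabilityMeasure μ] {f : α → β} (hf : Function.Injective f) :
    MeasurePreserving (fun (g : β → X) a => g (f a)) (Measure.pi fun _ => μ) (Measure.pi fun _ => μ) := by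
  refine ⟨by fun_prop, ?_⟩
  rw [← Measure.infinitePi_eq_pi, ← Measure.infinitePi_eq_pi]
  exact Measure.map_infinitePi_infinitePi_of_inj hf

theorem m_pi_curry (κ ι : Type) {X : Type} [Fintype κ] [Fintype ι] [MeasurableSpace X] (μ : Measure X)
    [IsProbabilityMeasure μ] :
    MeasurePreserving (MeasurableEquiv.curry κ ι X) (Measure.pi fun _ => μ)
      (Measure.pi fun _ => Measure.pi fun _ => μ) := by
  refine ⟨(MeasurableEquiv.curry κ ι X).measurable, ?_⟩
  simp only [← Measure.infinitePi_eq_pi]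
  exact Measure.infinitePi_map_curry fun _ _ => μ

/-- subfamilies of a standard Gaussian vector.  Recipe: `iIndepFun_iff_map_fun_eq_pi_map`,
`iIndepFun_pi`, `iIndepFun.precomp`, or `Measure.pi_eq` on boxes. -/
theorem m_gpi_comp {α β : Type} [Fintype α] [Fintype β] {f : α → β} (hf : Function.Injective f) :
    MeasurePreserving (fun (g : β → ℝ) a => g (f a)) (gpi β) (gpi α) := by
  exact m_pi_comp _ hf

/-- Recipe: `Measure.infinitePi_eq_pi`, `Measure.infinitePi_map_curry`. -/
theorem m_gpi_curry (κ ι : Type) [Fintype κ] [Fintype ι] :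
    MeasurePreserving (fun (g : κ × ι → ℝ) a o => g (a, o)) (gpi (κ × ι)) (gpi2 κ ι) := by
  exact m_pi_curry κ ι _

/-- Recipe: both sides are images of `gpi (κ × ι)`: `m_gpi_curry`, `m_gpi_comp` for `Prod.map`. -/
theorem m_gpi2_comp {κ ι κ' ι' : Type} [Fintype κ] [Fintype ι] [Fintype κ'] [Fintype ι']
    {f : κ' → κ} {e : ι' → ι} (hf : Function.Injective f) (he : Function.Injective e) :
    MeasurePreserving (fun (g : κ → ι → ℝ) a o => g (f a) (e o)) (gpi2 κ ι) (gpi2 κ' ι') := by
  exact (measurePreserving_pi _ _ fun _ => m_gpi_comp he).comp (m_pi_comp (gpi ι) hf)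

/-- Recipe: `pi_J gpi2 κ ι` is the image of `gpi (J × (κ × ι))` (`m_gpi_curry`, `measurePreserving_pi`),
`gpi2 κ (ι × J)` the image of `gpi (κ × (ι × J))`; reindex with `m_gpi_comp`. -/
theorem m_gpi2_split (κ ι J : Type) [Fintype κ] [Fintype ι] [Fintype J] :
    MeasurePreserving (fun (g : κ → ι × J → ℝ) j a o => g a (o, j)) (gpi2 κ (ι × J))
      (Measure.pi fun _ : J => gpi2 κ ι) := by
  have h1 := (m_pi_curry κ (ι × J) (gaussianReal 0 1)).symm _
  have h2 := m_gpi_comp (f := fun p : J × (κ × ι) => (p.2.1, (p.2.2, p.1))) (by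
    rintro ⟨j, a, o⟩ ⟨j', a', o'⟩ h
    simp only [Prod.mk.injEq] at h ⊢
    tauto)
  exact ((measurePreserving_pi _ _ fun _ => m_gpi_curry κ ι).comp
    (m_gpi_curry J (κ × ι))).comp (h2.comp h1)

/-- `E |g_a(x) g_a(x')| ≤ 1` (`|uv| ≤ (u²+v²)/2`) -/
theorem m_gpi2_mom {κ ι : Type} [Fintype κ] [Fintype ι] (a : κ) (x x' : ι) :
    Integrable (fun g : κ → ι → ℝ => g a x * g a x') (gpi2 κ ι) ∧
      ∫ g, |g a x * g a x'| ∂gpi2 κ ι ≤ 1 := by
  have hp : ∀ x : ι, MeasurePreserving (fun g : κ → ι → ℝ => g a x) (gpi2 κ ι) (gaussianReal 0 1) :=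
    fun x => (measurePreserving_eval (fun _ : ι => gaussianReal 0 1) x).comp
      (measurePreserving_eval (fun _ : κ => gpi ι) a)
  have h2 : ∀ x : ι, MemLp (fun g : κ → ι → ℝ => g a x) 2 (gpi2 κ ι) := fun x =>
    (memLp_id_gaussianReal 2).comp_measurePreserving (hp x)
  have h3 : ∀ x : ι, ∫ g, g a x ^ 2 ∂gpi2 κ ι = 1 := fun x => by
    have h4 := integral_map (μ := gpi2 κ ι) (hp x).measurable.aemeasurable
      (f := fun t : ℝ => t ^ 2) (by fun_prop)
    rw [← h4, (hp x).map_eq]
    have h5 := variance_of_integral_eq_zero (μ := gaussianReal 0 1) (X := fun t : ℝ => t)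
      (by fun_prop) (by simp)
    rw [← h5, variance_fun_id_gaussianReal]; simp
  have hi := (h2 x).integrable_mul (h2 x')
  refine ⟨hi, ?_⟩
  have h6 : ∫ g, |g a x * g a x'| ∂gpi2 κ ι ≤ ∫ g, (g a x ^ 2 + g a x' ^ 2) / 2 ∂gpi2 κ ι :=
    integral_mono hi.abs (((h2 x).integrable_sq.add (h2 x').integrable_sq).div_const 2) fun g => by
      simp only [abs_mul]
      nlinarith [sq_nonneg (|g a x| - |g a x'|), sq_abs (g a x), sq_abs (g a x')]
  rw [integral_div, integral_add (h2 x).integrable_sq (h2 x').integrable_sq, h3, h3] at h6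
  linarith

end Crest.Agent.R166
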