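import Crest.Agent.R166.M.CayU
import Crest.Agent.R166.M.Meas
import Crest.Agent.R166.M.Gauss

/-!
# Row 166, block M: the model side
-/

set_option autoImplicit false

open MeasureTheory ProbabilityTheory Filter Topology Complex
open scoped ENNReal NNReal BigOperators Matrix

noncomputable section

namespace Crest.Agent.R166

variable {ι : Type} [Fintype ι] [DecidableEq ι]

theorem m_model_meas' {n : ℕ} (b : ℝ → ℝ) {F : Matrix ι ι ℂ → ℝ} (hF : Continuous F)
    (x : Fin n → ℝ) : Measurable fun g : Fin n → ι → ℝ => F (cay (modelK b x g)) := by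
  refine hF.measurable.comp (m_cay_meas.comp ?_)
  refine measurable_pi_lambda _ fun a => measurable_pi_lambda _ fun c => ?_
  refine measurable_const.mul (Finset.measurable_sum _ fun i _ => ?_)
  fun_prop

/-- far points with small `∑ |b|` are negligible.  Recipe: `mM id F (b ∘ x ∘ f) = ∫ F (cay (modelK id _ (g ∘ f)))`
(`m_gpi2_comp`); `modelK b x g` minus this matrix has entries bounded by `D g = ∑_{a,c} ∑_{far} |b| |g i a g i c|`,
`E D ≤ |ι|² η` (`m_gpi2_mom`); pointwise `|F - F'| ≤ ε/2 + 2B D/δ` (`m_cay_unif` with `M = 1`). -/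
theorem m_mod {F : Matrix ι ι ℂ → ℝ} (hF : Continuous F) {ε : ℝ} (hε : 0 < ε) :
    ∃ η : ℝ, 0 < η ∧ ∀ (n r : ℕ) (f : Fin r ↪ Fin n) (b : ℝ → ℝ) (x : Fin n → ℝ),
      ∑ i ∈ (Finset.univ.map f)ᶜ, |b (x i)| ≤ η →
      |mM id F (fun α => b (x (f α))) - mM b F x| ≤ ε := by
  obtain ⟨B, hB, hb⟩ := m_cay_bdd hF
  obtain ⟨δ, hδ, hu⟩ := m_cay_unif hF 1 (half_pos hε)
  simp only [Matrix.one_mul, Matrix.transpose_one, Matrix.mul_one] at hu
  set N : ℝ := (Fintype.card (ι × ι) : ℝ) with hN
  have hN0 : 0 ≤ N := Nat.cast_nonneg _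
  refine ⟨ε * δ / (4 * B * (N + 1)), by positivity, fun n r f b x hη => ?_⟩
  have hp := m_gpi2_comp (ι := ι) f.injective Function.injective_id
  have h1 : mM id F (fun α => b (x (f α))) =
      ∫ g, F (cay (modelK id (fun α => b (x (f α))) fun a o => g (f a) o)) ∂gpi2 (Fin n) ι := by
    rw [mM, ← hp.map_eq, integral_map hp.measurable.aemeasurable
      (m_model_meas' _ hF _).aestronglyMeasurable]
    rfl
  let D : (Fin n → ι → ℝ) → ℝ := fun g =>
    ∑ p : ι × ι, ∑ i ∈ (Finset.univ.map f)ᶜ, |b (x i)| * |g i p.1 * g i p.2|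
  have hD0 : ∀ g, 0 ≤ D g := fun g => by positivity
  have hDi : ∀ (p : ι × ι) i, Integrable (fun g : Fin n → ι → ℝ => |b (x i)| * |g i p.1 * g i p.2|)
      (gpi2 (Fin n) ι) := fun p i => (m_gpi2_mom i p.1 p.2).1.abs.const_mul _
  have hD : Integrable D (gpi2 (Fin n) ι) :=
    integrable_finsetSum _ fun p _ => integrable_finsetSum _ fun i _ => hDi p i
  have hDe : ∫ g, D g ∂gpi2 (Fin n) ι ≤ N * (ε * δ / (4 * B * (N + 1))) := by
    rw [integral_finsetSum _ fun p _ => integrable_finsetSum _ fun i _ => hDi p i, hN,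
      ← nsmul_eq_mul, ← Finset.card_univ]
    refine Finset.sum_le_card_nsmul _ _ _ fun p _ => le_trans ?_ hη
    rw [integral_finsetSum _ fun i _ => hDi p i]
    refine Finset.sum_le_sum fun i _ => ?_
    rw [integral_const_mul]
    exact mul_le_of_le_one_right (abs_nonneg _) (m_gpi2_mom i p.1 p.2).2
  have h2 : ∀ g : Fin n → ι → ℝ, |F (cay (modelK id (fun α => b (x (f α))) fun a o => g (f a) o)) -
      F (cay (modelK b x g))| ≤ ε / 2 + 2 * B / δ * D g := fun g => by
    by_cases hg : D g ≤ δ
    · refine (hu _ _ (m_modelK_symm _ _ _) (m_modelK_symm _ _ _) fun a c => le_trans ?_ hg).trans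
        (le_add_of_nonneg_right (mul_nonneg (by positivity) (hD0 g)))
      have h3 := Finset.sum_add_sum_compl (Finset.univ.map f) fun i => b (x i) * (g i a * g i c)
      rw [Finset.sum_map] at h3
      simp only [modelK, id]
      rw [← h3, ← mul_sub, sub_add_cancel_left, abs_mul, abs_neg]
      have h4 : |Real.pi⁻¹| ≤ 1 := by
        rw [abs_of_pos (by positivity)]
        exact inv_le_one_of_one_le₀ (by linarith [Real.pi_gt_three])
      refine (mul_le_of_le_one_left (abs_nonneg _) h4).trans ((Finset.abs_sum_le_sum_abs _ _).trans ?_)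
      simp only [abs_mul (b _)]
      exact Finset.single_le_sum (f := fun p : ι × ι =>
        ∑ i ∈ (Finset.univ.map f)ᶜ, |b (x i)| * |g i p.1 * g i p.2|) (fun p _ => by positivity)
        (Finset.mem_univ (a, c))
    · have h3 := hb _ (m_modelK_symm id (fun α => b (x (f α))) fun a o => g (f a) o)
      have h4 := hb _ (m_modelK_symm b x g)
      have h5 : 2 * B / δ * δ ≤ 2 * B / δ * D g :=
        mul_le_mul_of_nonneg_left (not_le.1 hg).le (by positivity)
      rw [div_mul_cancel₀ _ hδ.ne'] at h5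
      refine (abs_sub _ _).trans (by linarith)
  have i1 : Integrable (fun g : Fin n → ι → ℝ =>
      F (cay (modelK id (fun α => b (x (f α))) fun a o => g (f a) o))) (gpi2 (Fin n) ι) :=
    Integrable.of_bound ((m_model_meas' _ hF _).comp hp.measurable).aestronglyMeasurable B
      (ae_of_all _ fun g => hb _ (m_modelK_symm _ _ _))
  have i2 : Integrable (fun g : Fin n → ι → ℝ => F (cay (modelK b x g))) (gpi2 (Fin n) ι) :=
    Integrable.of_bound (m_model_meas' _ hF _).aestronglyMeasurable B
      (ae_of_all _ fun g => hb _ (m_modelK_symm _ _ _))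
  rw [h1, mM, ← integral_sub i1 i2]
  refine abs_integral_le_integral_abs.trans ((integral_mono (i1.sub i2).abs
    ((integrable_const _).add (hD.const_mul _)) h2).trans ?_)
  rw [integral_add' (integrable_const _) (hD.const_mul _), integral_const_mul, integral_const,
    probReal_univ, one_smul]
  have h6 : 2 * B / δ * (N * (ε * δ / (4 * B * (N + 1)))) = ε / 2 * (N / (N + 1)) := by
    field_simp; ring
  have h7 : ε / 2 * (N / (N + 1)) ≤ ε / 2 :=
    mul_le_of_le_one_right (by positivity) (div_le_one_of_le₀ (by linarith) (by positivity))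
  linarith [mul_le_mul_of_nonneg_left hDe (by positivity : 0 ≤ 2 * B / δ)]

/-- relabelling the channels (`m_gpi2_comp`, `m_cay_sub`) -/
theorem m_reindex {κ : Type} [Fintype κ] [DecidableEq κ] (e : κ ≃ ι) {n : ℕ} (b : ℝ → ℝ)
    {F : Matrix ι ι ℂ → ℝ} (hF : Continuous F) (x : Fin n → ℝ) :
    mM b F x = mM b (fun S : Matrix κ κ ℂ => F (S.submatrix e.symm e.symm)) x := by
  have hp := m_gpi2_comp (κ := Fin n) Function.injective_id e.injective
  have hF' : Continuous fun S : Matrix κ κ ℂ => F (S.submatrix e.symm e.symm) :=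
    hF.comp (continuous_id.matrix_submatrix _ _)
  rw [mM, mM, ← hp.map_eq, integral_map hp.measurable.aemeasurable
    (m_model_meas' _ hF' _).aestronglyMeasurable]
  refine integral_congr_ae (ae_of_all _ fun g => ?_)
  have h1 : (modelK b x fun a o => g (id a) (e o)) = (modelK b x g).submatrix e e := rfl
  simp only [h1, m_cay_sub, Matrix.submatrix_submatrix, Equiv.self_comp_symm, Matrix.submatrix_id_id]

end Crest.Agent.R166
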