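import Crest.Agent.R166.M.TreeB
import Crest.Agent.R166.M.Det
import Crest.Agent.R166.M.Mod
import Crest.Agent.R166.M.Spec

/-!
# Row 166, block M: the observable versus the model
-/

set_option autoImplicit false

open MeasureTheory ProbabilityTheory Filter Topology Complex
open scoped ENNReal NNReal BigOperators Matrix

noncomputable section

namespace Crest.Agent.R166

theorem m_zk_im (E : ℝ) (k : ℕ) : 0 < (zk E k).im := by
  simp only [zk, add_im, ofReal_im, mul_im, ofReal_re, I_im, mul_one, I_re, mul_zero, add_zero,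
    zero_add]
  positivity

theorem m_zk_re (E : ℝ) (k : ℕ) : (zk E k).re = E := by
  simp only [zk, add_re, ofReal_re, mul_re, ofReal_im, I_im, mul_one, I_re, mul_zero, sub_zero,
    add_zero]

theorem m_tau_abs (J : Type) [Fintype J] {q : ℕ} (π : Measure II) [IsProbabilityMeasure π]
    {φ : Env q → ℝ} (hφ : ∀ β, 0 ≤ φ β ∧ φ β ≤ 1) : 0 ≤ mTau J q π φ ∧ mTau J q π φ ≤ 1 := by
  refine ⟨integral_nonneg fun e => (m_mF_mem hφ e).1, ?_⟩
  have := norm_integral_le_of_norm_le_const (μ := Measure.pi fun _ : J => edgeLaw q π)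
    (f := fun e => mF φ e) (C := 1) (ae_of_all _ fun e => by
      rw [Real.norm_eq_abs, abs_of_nonneg (m_mF_mem hφ e).1]; exact (m_mF_mem hφ e).2)
  simp only [probReal_univ, mul_one, Real.norm_eq_abs] at this
  exact (le_abs_self _).trans this

theorem m_real_le {Ω : Type} [MeasurableSpace Ω] {μ : Measure Ω} {S : Set Ω} {ε : ℝ} (hε : 0 ≤ ε)
    (h : μ S ≤ ENNReal.ofReal ε) : μ.real S ≤ ε :=
  ENNReal.toReal_le_of_le_ofReal hε h

theorem m_coreA (hE : StE) (h1 : StP1) (hT : StT0) {q : ℕ} {π : Measure II} [IsProbabilityMeasure π]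
    {s κ E : ℝ} (hs0 : 0 ≤ s) (hs1 : s ≤ 1) (hκ : 0 < κ) (hb : Bulk q (2 * κ) E)
    (hok : TreeOK q π s E) (hL1 : LL1 q π s κ) (hBO : BOut q π s E) {n : ℕ → ℕ}
    (hn : Tendsto n atTop atTop) (he : ∀ j, Even (n j * (q + 1)))
    (hH : H1 n fun j => rrgLaw q π s E (n j)) {J : Type} [Fintype J] [DecidableEq J] {y : ℂ}
    (hy : 0 < y.im) {F : Matrix (Fin 2 × J) (Fin 2 × J) ℂ → ℝ} (hF : Continuous F) {B : ℝ}
    (hB0 : 0 ≤ B) (hB : mBd F B) {ε : ℝ} (hε : 0 < ε) :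
    ∃ r₁ : ℝ, 0 < r₁ ∧ ∀ r₀ : ℝ, 0 < r₀ → r₀ ≤ r₁ → ∀ ε₂ : ℝ, 0 < ε₂ → ∀ᶠ k : ℕ in atTop,
      ∀ γ : ℝ, 0 < γ → ∀ᶠ L in (atTop : Filter ℝ), ∀ᶠ j in atTop, ∀ t ∈ Set.Icc (0 : ℝ) 1,
        |∫ c, mObs s y (fun β => mChi y r₀ (mT s (zk E k) β)) F c (E + t / (n j * rho q π s E))
            ∂mNu q π (n j) -
          mTau J q π (fun β => mChi y r₀ (mB s E β)) *
            ∫ c, mM (bL L) F (fun i => mXi π s E c i - t) ∂mNu q π (n j)| ≤
        ε * mTau J q π (fun β => mChi y r₀ (mB s E β)) + ε₂ +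
          2 * B * (mNu q π (n j)).real {c | ∃ i, |mXi π s E c i - t| < γ} := by
  have hρ := hok.rho_pos
  set ρ := rho q π s E with hρd
  obtain ⟨r₁, hr₁, htree⟩ := m_tree hT hs0 hs1 hok hy hF hB hε
  refine ⟨r₁, hr₁, fun r₀ hr₀ hr₀₁ ε₂ hε₂ => ?_⟩
  obtain ⟨hτ0, hτ1⟩ := m_tau_abs J π (φ := fun β : Env q => mChi y r₀ (mB s E β))
    fun β => m_chi_mem y hr₀ _
  set τ := mTau J q π (fun β => mChi y r₀ (mB s E β)) with hτd
  set ε₃ := ε₂ / (4 + 8 * B) with hε₃d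
  have hε₃ : 0 < ε₃ := by positivity
  obtain ⟨C₀, hC₀, hnu⟩ := m_nu h1 q π
  obtain ⟨C₁, hC₁⟩ := hH ε₃ hε₃
  have hC₂ : 0 ≤ 3 * max C₁ 0 := by positivity
  obtain ⟨η₁, hη₁, hmod⟩ := m_mod hF hε₃
  obtain ⟨η, hη, hdet⟩ := m_det (q := q) hE s y hF hB0 hB hρ hC₂ hε₃
  have hA0 : ∀ᶠ A : ℝ in atTop, 2 * (3 * max C₁ 0) / A ^ 2 ≤ η₁ :=
    (tendsto_const_nhds.div_atTop (tendsto_pow_atTop two_ne_zero)).eventually (ge_mem_nhds hη₁)
  obtain ⟨A, ⟨hdetA, hA1⟩, hA2⟩ := ((hdet.and hA0).and (eventually_ge_atTop 1)).exists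
  set η' := min η (ε₃ / C₀) with hη'd
  have hη' : 0 < η' := lt_min hη (by positivity)
  obtain ⟨δ, L₀, hδ, hLL⟩ := hL1 η' 1 hη'
  have hk1 : ∀ᶠ k : ℕ in atTop, B * ∫ e, |mF (fun β => mChi y r₀ (mT s (zk E k) β)) e -
      mF (fun β => mChi y r₀ (mB s E β)) e| ∂(Measure.pi fun _ : J => edgeLaw q π) ≤ ε₃ := by
    have := (m_fk_tend hT J hs0 hs1 hok y hr₀).const_mul B
    rw [mul_zero] at this
    exact this.eventually (ge_mem_nhds hε₃)
  have hk2 : ∀ᶠ k : ℕ in atTop, (2 : ℝ)⁻¹ ^ k ≤ δ / 2 :=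
    (tendsto_pow_atTop_nhds_zero_of_lt_one (by norm_num) (by norm_num)).eventually
      (ge_mem_nhds (by positivity))
  filter_upwards [hk1, hk2] with k hk1 hk2 γ hγ
  set φ : Env q → ℝ := fun β => mChi y r₀ (mT s (zk E k) β) with hφd
  have hφ : Continuous φ :=
    (m_chi_cont y r₀).comp ((hT q s hs0 hs1).1 _ (m_zk_im E k)).2.1
  have hφ1 : ∀ β, 0 ≤ φ β ∧ φ β ≤ 1 := fun β => m_chi_mem y hr₀ _
  have hb' : Bulk q κ (zk E k).re := by rw [m_zk_re]; unfold Bulk at hb ⊢; linarith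
  have hAL : Tendsto (fun L : ℝ => A * L) atTop atTop :=
    tendsto_id.const_mul_atTop (by linarith)
  filter_upwards [hdetA, hC₁, hAL.eventually hC₁, eventually_ge_atTop 1,
    eventually_ge_atTop (ρ * L₀)] with L hdetL hH1 hH2 hL1' hL0
  set rm := ⌊2 * (A * L) * (3 * max C₁ 0)⌋₊ with hrm
  let Q : ∀ r : ℕ, ProbabilityMeasure (EState q r) := fun r =>
    ⟨waveE q r π s E, m_wave_prob r π hok.meas⟩
  let U : ∀ r : ℕ, Set (ProbabilityMeasure (EState q r)) := fun r =>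
    {μ | ∀ b ∈ Metric.closedBall (0 : Fin r → ℝ) γ⁻¹,
      |∫ Y, mPhi s (zk E k) y ρ φ F b Y ∂(Measure.pi fun _ : J => (μ : Measure (EState q r))) -
        ∫ Y, mPhi s (zk E k) y ρ φ F b Y
          ∂(Measure.pi fun _ : J => (Q r : Measure (EState q r)))| ≤ ε₃}
  have hU : ∀ r, U r ∈ 𝓝 (Q r) := fun r =>
    m_wk (m_phi_cont hT hs0 hs1 (m_zk_im E k) y ρ hφ hF) (m_phi_bdd s _ y ρ hφ1 hB)
      (isCompact_closedBall _ _) (Q r) hε₃
  let G : ∀ (r m : ℕ), Cfg (Fin m) q → Prop := fun r m c =>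
    ∀ u : Fin r → Fin m → ℝ, IsFrame s E ((A * L + 1) / ρ) c u →
      ∀ μ : ProbabilityMeasure (EState q r), (μ : Measure (EState q r)) = empE c u → μ ∈ U r
  have hG : ∀ᶠ m : ℕ in atTop, ∀ r ∈ Finset.range (rm + 1),
      cfgLaw (Fin m) q π {c | IsSimple c.1 ∧ ¬ G r m c} ≤
        ENNReal.ofReal (ε₃ / C₀ / (rm + 1)) := by
    rw [eventually_all_finset]
    intro r _
    exact (hBO r _ (Q r) rfl (U r) (hU r)).eventually
      (ge_mem_nhds (ENNReal.ofReal_pos.2 (by positivity)))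
  have hsm : ∀ᶠ m : ℕ in atTop, (1 + L) / (m * ρ) ≤ min (δ / 2) (min κ 1) :=
    (tendsto_const_nhds.div_atTop (tendsto_natCast_atTop_atTop.atTop_mul_const hρ)).eventually
      (ge_mem_nhds (lt_min (by positivity) (lt_min hκ one_pos)))
  filter_upwards [hH1, hH2, hn.eventually hnu, hn.eventually hG, hn.eventually hsm,
    hn.eventually (hLL (zk E k) (m_zk_im E k) hb'), hn.eventually (eventually_gt_atTop 0)]
    with j hH1 hH2 hnuj hGj hsmj hLLj hj0 t ht
  obtain ⟨hprob, p, hp0, hpC, hpS, -⟩ := hnuj (he j)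
  have hn0 : (0 : ℝ) < n j := by exact_mod_cast hj0
  have hN : 0 < (n j : ℝ) * ρ := by positivity
  have hxi := m_xi_meas hE (q := q) (n := n j) π s E
  set z : ℂ := ((E + t / (n j * ρ) : ℝ) : ℂ) + ((L / (n j * ρ) : ℝ) : ℂ) * I with hzd
  have hzre : z.re = E + t / (n j * ρ) := by
    simp only [hzd, add_re, ofReal_re, mul_re, ofReal_im, I_im, mul_one, I_re, mul_zero, sub_zero,
      add_zero]
  have hzim : z.im = L / (n j * ρ) := by
    simp only [hzd, add_im, ofReal_im, mul_im, ofReal_re, I_im, mul_one, I_re, mul_zero, add_zero,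
      zero_add]
  have ht0 : 0 ≤ t / (n j * ρ) := div_nonneg ht.1 hN.le
  have hL0' : 0 < L / (n j * ρ) := div_pos (by linarith) hN
  have hsum : t / (n j * ρ) + L / (n j * ρ) ≤ (1 + L) / (n j * ρ) := by
    rw [← add_div]; exact div_le_div_of_nonneg_right (by linarith [ht.2]) hN.le
  have hs1 := hsmj.trans (min_le_left _ _)
  have hs2 := (hsmj.trans (min_le_right _ _)).trans (min_le_left _ _)
  have hs3 := (hsmj.trans (min_le_right _ _)).trans (min_le_right _ _)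
  have hLz := hLLj z (by
      rw [hzre]; unfold Bulk at hb ⊢
      have := abs_add_le E (t / (n j * ρ))
      rw [abs_of_nonneg ht0] at this; linarith)
    (by
      have e : z - zk E k = ((t / (n j * ρ) : ℝ) : ℂ) +
          ((L / (n j * ρ) - (2 : ℝ)⁻¹ ^ k : ℝ) : ℂ) * I := by
        simp only [hzd, zk]; push_cast; ring
      rw [e]
      refine (norm_add_le _ _).trans ?_
      rw [norm_mul, norm_I, mul_one, norm_real, norm_real, Real.norm_eq_abs, Real.norm_eq_abs,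
        abs_of_nonneg ht0]
      have := abs_sub (L / (n j * ρ)) ((2 : ℝ)⁻¹ ^ k)
      rw [abs_of_pos hL0', abs_of_pos (by positivity : (0 : ℝ) < 2⁻¹ ^ k)] at this
      linarith)
    (by rw [hzim]; exact hL0')
    (by
      rw [hzim, div_le_div_iff₀ hn0 hN]
      nlinarith)
    (by rw [hzim]; linarith)
  -- the bad set
  let B1 : Set (Cfg (Fin (n j)) q) := {c | C₁ < mN L (mXi π s E c)}
  let B2 : Set (Cfg (Fin (n j)) q) := {c | C₁ < mN (A * L) (mXi π s E c)}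
  let B3 : Set (Cfg (Fin (n j)) q) := {c | η' < frac fun h : HE (Fin (n j)) q => ∃ a b,
    η' < ‖Gr (Hm s c) z (sp c.1 h a) (sp c.1 h b) - GS s (zk E k) (sview c h) a b‖}
  let B4 : Set (Cfg (Fin (n j)) q) := ⋃ r ∈ Finset.range (rm + 1), {c | ¬ G r (n j) c}
  let B5 : Set (Cfg (Fin (n j)) q) := {c | ∃ i, |mXi π s E c i - t| < γ}
  have hB1 : (mNu q π (n j)).real B1 ≤ ε₃ :=
    m_real_le hε₃.le ((Measure.le_map_apply hxi.aemeasurable _).trans hH1)
  have hB2 : (mNu q π (n j)).real B2 ≤ ε₃ :=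
    m_real_le hε₃.le ((Measure.le_map_apply hxi.aemeasurable _).trans hH2)
  have hB3 : (mNu q π (n j)).real B3 ≤ ε₃ := by
    rw [hpS]
    calc _ ≤ C₀ * (ε₃ / C₀) :=
          mul_le_mul hpC ((m_real_le hη'.le hLz).trans (min_le_right _ _)) measureReal_nonneg hC₀.le
      _ = ε₃ := by field_simp
  have hB4 : (mNu q π (n j)).real B4 ≤ ε₃ := by
    refine (measureReal_biUnion_finset_le _ _).trans ?_
    calc _ ≤ ∑ r ∈ Finset.range (rm + 1), C₀ * (ε₃ / C₀ / (rm + 1)) := by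
          refine Finset.sum_le_sum fun r hr => ?_
          rw [hpS]
          exact mul_le_mul hpC (m_real_le (by positivity) (hGj r hr)) measureReal_nonneg hC₀.le
      _ = ε₃ := by
          rw [Finset.sum_const, Finset.card_range, nsmul_eq_mul]; push_cast; field_simp
  have hBad : (mNu q π (n j)).real (B1 ∪ B2 ∪ B3 ∪ B4 ∪ B5) ≤
      4 * ε₃ + (mNu q π (n j)).real B5 := by
    have u1 := measureReal_union_le (μ := mNu q π (n j)) (B1 ∪ B2 ∪ B3 ∪ B4) B5
    have u2 := measureReal_union_le (μ := mNu q π (n j)) (B1 ∪ B2 ∪ B3) B4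
    have u3 := measureReal_union_le (μ := mNu q π (n j)) (B1 ∪ B2) B3
    have u4 := measureReal_union_le (μ := mNu q π (n j)) B1 B2
    linarith
  have hsh : Measurable fun (ξ : Fin (n j) → ℝ) i => ξ i - t := by fun_prop
  have m1 : Measurable fun c : Cfg (Fin (n j)) q => mM (bL L) F fun i => mXi π s E c i - t :=
    ((m_mM_meas (m_bL_meas L) hF).comp hsh).comp hxi
  have i1 : Integrable (fun c : Cfg (Fin (n j)) q => mObs s y φ F c (E + t / (n j * ρ)))
      (mNu q π (n j)) :=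
    Integrable.of_bound (m_obs_meas s y hφ.measurable hF _).aestronglyMeasurable B
      (ae_of_all _ fun c => m_obs_bdd s y hφ1 hB0 hB c _)
  have i2 : Integrable (fun c : Cfg (Fin (n j)) q => mM (bL L) F fun i => mXi π s E c i - t)
      (mNu q π (n j)) :=
    Integrable.of_bound m1.aestronglyMeasurable B (ae_of_all _ fun c => m_mM_bdd _ hB _)
  have hcmp := m_cmp (mNu q π (n j)) i1 (i2.const_mul τ) (ε := ε * τ + 4 * ε₃) (B := 2 * B)
    (by positivity) (by positivity) (B1 ∪ B2 ∪ B3 ∪ B4 ∪ B5) (fun c hc => ?_) (fun c => ?_)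
  · rw [integral_const_mul] at hcmp
    refine hcmp.trans ?_
    have e : ε₂ = (4 + 8 * B) * ε₃ := by rw [hε₃d]; field_simp
    have := mul_le_mul_of_nonneg_left hBad (show 0 ≤ 2 * B by positivity)
    rw [e]; linarith
  · simp only [Set.mem_union, not_or] at hc
    obtain ⟨⟨⟨⟨c1, c2⟩, c3⟩, c4⟩, c5⟩ := hc
    have c1 : mN L (mXi π s E c) ≤ C₁ := not_lt.1 c1
    have c2 : mN (A * L) (mXi π s E c) ≤ C₁ := not_lt.1 c2
    have c5 : ∀ i, γ ≤ |mXi π s E c i - t| := fun i => not_lt.1 fun h => c5 ⟨i, h⟩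
    have ht1 : |t| ≤ 1 := abs_le.2 ⟨by linarith [ht.1], ht.2⟩
    have hAL1 : 1 ≤ A * L := by nlinarith
    obtain ⟨r, f, ψ, hr, hfr, hfar, hobs⟩ := hdetL (n j) c φ E t (zk E k)
      (fun i => mXi π s E c i - t) hj0 hφ1 ht1 (fun i => rfl)
      (fun i h => by have := c5 i; rw [h, abs_zero] at this; linarith)
      ((m_mN_shift hL1' ht1 _).trans (by linarith [le_max_left C₁ 0]))
      ((m_mN_shift hAL1 ht1 _).trans (by linarith [le_max_left C₁ 0]))
      (by
        refine le_trans (p_frac_mono fun h hh => ?_) ((not_lt.1 c3).trans (min_le_left _ _))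
        obtain ⟨a, b, hab⟩ := m_bad_star hT hs0 ‹s ≤ 1› z (m_zk_im E k) η c h hh
        exact ⟨a, b, (min_le_left _ _).trans_lt hab⟩)
    have hGc : G r (n j) c := by
      by_contra hne
      exact c4 (Set.mem_biUnion (Finset.mem_coe.2 (Finset.mem_range.2
        (Nat.lt_succ_of_le (Nat.le_floor hr)))) hne)
    have : Nonempty (Fin (n j)) := ⟨⟨0, hj0⟩⟩
    have hμ := hGc ψ hfr ⟨empE c ψ, m_emp_prob _⟩ rfl
      (fun α => bL L (mXi π s E c (f α) - t)) (by
        rw [mem_closedBall_zero_iff, pi_norm_le_iff_of_nonneg (by positivity)]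
        intro α
        exact (m_bL_le L _).trans (inv_anti₀ hγ (c5 _)))
    have e1 := m_integral_pi_emp (J := J) (fun h : HE (Fin (n j)) q =>
      ((eview c h, fun a o => ψ a (ep c.1 h o)) : EState q r))
      (mPhi s (zk E k) y ρ φ F fun α => bL L (mXi π s E c (f α) - t))
    change |∫ Y, _ ∂(Measure.pi fun _ : J => emp _) -
      ∫ Y, _ ∂(Measure.pi fun _ : J => waveE q r π s E)| ≤ _ at hμ
    rw [e1] at hμ
    have h3 := htree r₀ hr₀ hr₀₁ k r fun α => bL L (mXi π s E c (f α) - t)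
    rw [← hτd] at h3
    have h4 := hmod (n j) r f (bL L) (fun i => mXi π s E c i - t) (hfar.trans hA1)
    have h5 : |τ * mM id F (fun α => bL L (mXi π s E c (f α) - t)) -
        τ * mM (bL L) F fun i => mXi π s E c i - t| ≤ ε₃ := by
      rw [← mul_sub, abs_mul, abs_of_nonneg hτ0]
      exact (mul_le_mul hτ1 h4 (abs_nonneg _) zero_le_one).trans (one_mul _).le
    have b1 := abs_le.1 hobs
    have b2 := abs_le.1 hμ
    have b3 := abs_le.1 h3
    have b4 := abs_le.1 h5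
    rw [abs_le]
    constructor <;> linarith [b1.1, b1.2, b2.1, b2.2, b3.1, b3.2, b4.1, b4.2]
  · have a1 := abs_le.1 (m_obs_bdd s y hφ1 hB0 hB c (E + t / (n j * ρ)))
    have a2 : |τ * mM (bL L) F fun i => mXi π s E c i - t| ≤ B := by
      rw [abs_mul, abs_of_nonneg hτ0]
      exact (mul_le_mul hτ1 (m_mM_bdd _ hB _) (abs_nonneg _) zero_le_one).trans (one_mul _).le
    have a3 := abs_le.1 a2
    rw [abs_le]
    constructor <;> linarith [a1.1, a1.2, a3.1, a3.2]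

end Crest.Agent.R166
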