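import Crest.Agent.R166.P.Basic

/-!
# Row 166, block M: definitions

`J` indexes the probed edges, `Fin 2 × J` their endpoints.  All probes are localised (weight `mF`)
near a fixed point `y` of the support of the law of the cavity value `mB`; `Γ₀ = GamE y y`,
`B₀ B₀ᵀ = Im Γ₀`, and the `S`-matrix of a configuration is `cay (mK y X)`, `X` the real resolvent on
the probes.
-/

set_option autoImplicit false

open MeasureTheory ProbabilityTheory Filter Topology Complex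
open scoped ENNReal NNReal BigOperators Matrix

noncomputable section

namespace Crest.Agent.R166

instance m_envProb (q : ℕ) (π : Measure II) [IsProbabilityMeasure π] :
    IsProbabilityMeasure (envLaw q π) := by unfold envLaw; infer_instance

instance m_edgeProb (q : ℕ) (π : Measure II) [IsProbabilityMeasure π] :
    IsProbabilityMeasure (edgeLaw q π) := by unfold edgeLaw; infer_instance

instance m_cfgFin (V : Type) [Fintype V] [DecidableEq V] (q : ℕ) (π : Measure II)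
    [IsProbabilityMeasure π] : IsZeroOrProbabilityMeasure (cfgLaw V q π) := by
  unfold cfgLaw
  rcases eq_zero_or_isProbabilityMeasure (uniformOn (Set.univ : Set (Pairing V q))) with h | h
  · rw [h, Measure.zero_prod]; infer_instance
  · infer_instance

/-- `B₀` with `B₀ B₀ᵀ = Im Γ₀` -/
def mB0 (y : ℂ) : Matrix (Fin 2) (Fin 2) ℝ := chol2 (imM (GamE y y))

/-- `⊕ B₀⁻¹` -/
def mBi (J : Type) [DecidableEq J] (y : ℂ) : Matrix (Fin 2 × J) (Fin 2 × J) ℝ :=
  Matrix.blockDiagonal fun _ : J => (mB0 y)⁻¹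

/-- `⊕ Re Γ₀` -/
def mRe (J : Type) [DecidableEq J] (y : ℂ) : Matrix (Fin 2 × J) (Fin 2 × J) ℝ :=
  Matrix.blockDiagonal fun _ : J => (GamE y y).map Complex.re

/-- the `K`-matrix of a block `X` of the resolvent -/
def mK {J : Type} [Fintype J] [DecidableEq J] (y : ℂ) (X : Matrix (Fin 2 × J) (Fin 2 × J) ℝ) :
    Matrix (Fin 2 × J) (Fin 2 × J) ℝ := mBi J y * (X - mRe J y) * (mBi J y)ᵀ

/-- second column of the unitary `√(Im y)/|y| B₀⁻¹ Γ₀` -/
def mAl (y : ℂ) (o : Fin 2) : ℂ :=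
  ((√(y.im / ‖y‖ ^ 2) : ℝ) : ℂ) * (((mB0 y)⁻¹).map (fun x : ℝ => (x : ℂ)) * GamE y y) o 1

/-- the vector of the reflection -/
def mWv {J : Type} [DecidableEq J] (y : ℂ) (j₁ j₂ : J) (x : Fin 2 × J) : ℂ :=
  mAl y x.1 * ((if x.2 = j₁ then 1 else 0) - (if x.2 = j₂ then 1 else 0))

/-- the reflection `1 - w wᴴ` by which the switch acts -/
def mW {J : Type} [DecidableEq J] (y : ℂ) (j₁ j₂ : J) : Matrix (Fin 2 × J) (Fin 2 × J) ℂ :=
  1 - Matrix.vecMulVec (mWv y j₁ j₂) (star (mWv y j₁ j₂))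

/-- change of the adjacency matrix on the probes under the switch of the edges `j₁, j₂` -/
def mDel {J : Type} [DecidableEq J] (j₁ j₂ : J) : Matrix (Fin 2 × J) (Fin 2 × J) ℝ :=
  Matrix.vecMulVec (Pi.single (0, j₂) 1 - Pi.single (0, j₁) 1)
      (Pi.single (1, j₁) 1 - Pi.single (1, j₂) 1) +
    Matrix.vecMulVec (Pi.single (1, j₁) 1 - Pi.single (1, j₂) 1)
      (Pi.single (0, j₂) 1 - Pi.single (0, j₁) 1)

/-- the weight of a family of edge environments -/
def mF {q : ℕ} {J : Type} [Fintype J] (φ : Env q → ℝ) (e : J → EEnv q) : ℝ :=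
  ∏ j, φ (e j).1 * φ (e j).2

/-- real resolvent on the endpoints of the edges of `a j` -/
def mX {V : Type} [Fintype V] [DecidableEq V] {q : ℕ} {J : Type} (s : ℝ) (c : Cfg V q) (E' : ℝ)
    (a : J → HE V q) : Matrix (Fin 2 × J) (Fin 2 × J) ℝ := fun x x' =>
  (Hm s c - E' • (1 : Matrix V V ℝ))⁻¹ (ep c.1 (a x.2) x.1) (ep c.1 (a x'.2) x'.1)

/-- the observable -/
def mObs {V : Type} [Fintype V] [DecidableEq V] {q : ℕ} {J : Type} [Fintype J] [DecidableEq J]
    (s : ℝ) (y : ℂ) (φ : Env q → ℝ) (F : Matrix (Fin 2 × J) (Fin 2 × J) ℂ → ℝ) (c : Cfg V q)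
    (E' : ℝ) : ℝ :=
  avg fun a : J → HE V q => mF φ (fun j => eview c (a j)) * F (cay (mK y (mX s c E' a)))

/-- tree approximation of the resolvent on the probes, from edge states -/
def mXT {q r : ℕ} {J : Type} [DecidableEq J] (s : ℝ) (z : ℂ) (ρ : ℝ) (b : Fin r → ℝ)
    (Y : J → EState q r) : Matrix (Fin 2 × J) (Fin 2 × J) ℝ := fun x x' =>
  (if x.2 = x'.2 then (GE s z (Y x.2).1 x.1 x'.1).re else 0) +
    ρ * ∑ α, b α * ((Y x.2).2 α x.1 * (Y x'.2).2 α x'.1)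

/-- the observable as a function of edge states -/
def mPhi {q r : ℕ} {J : Type} [Fintype J] [DecidableEq J] (s : ℝ) (z y : ℂ) (ρ : ℝ)
    (φ : Env q → ℝ) (F : Matrix (Fin 2 × J) (Fin 2 × J) ℂ → ℝ) (b : Fin r → ℝ)
    (Y : J → EState q r) : ℝ :=
  mF φ (fun j => (Y j).1) * F (cay (mK y (mXT s z ρ b Y)))

/-- the model expectation without shift -/
def mM {n : ℕ} {ι : Type} [Fintype ι] [DecidableEq ι] (b : ℝ → ℝ) (F : Matrix ι ι ℂ → ℝ)
    (x : Fin n → ℝ) : ℝ := ∫ g, F (cay (modelK b x g)) ∂gpi2 (Fin n) ι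

/-- bump of radius `r` at `y` -/
def mChi (y : ℂ) (r : ℝ) (Y : ℂ) : ℝ := max 0 (1 - ‖Y - y‖ / r)

/-- total weight -/
def mTau (J : Type) [Fintype J] (q : ℕ) (π : Measure II) (φ : Env q → ℝ) : ℝ :=
  ∫ e, mF φ e ∂Measure.pi fun _ : J => edgeLaw q π

/-- law of simple configurations -/
def mNu (q : ℕ) (π : Measure II) (n : ℕ) : Measure (Cfg (Fin n) q) :=
  (cfgLaw (Fin n) q π)[|{c | IsSimple c.1}]

/-- unfolded eigenvalues -/
def mXi {q n : ℕ} (π : Measure II) (s E : ℝ) (c : Cfg (Fin n) q) : Fin n → ℝ := fun i =>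
  n * rho q π s E * (ev (Hm s c) i - E)

/-- smoothed counting function -/
def mN {ι : Type} [Fintype ι] (R : ℝ) (ξ : ι → ℝ) : ℝ := ∑ i, R / (ξ i ^ 2 + R ^ 2)

/-- failure of the local law on the edge of `h` -/
def mBad {V : Type} [Fintype V] [DecidableEq V] {q : ℕ} (s : ℝ) (z z₀ : ℂ) (η : ℝ) (c : Cfg V q)
    (h : HE V q) : Prop :=
  ∃ o o', η < ‖Gr (Hm s c) z (ep c.1 h o) (ep c.1 h o') - GE s z₀ (eview c h) o o'‖

/-- `F ∘ cay` is bounded by `B` on symmetric matrices -/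
def mBd {ι : Type} [Fintype ι] [DecidableEq ι] (F : Matrix ι ι ℂ → ℝ) (B : ℝ) : Prop :=
  ∀ K : Matrix ι ι ℝ, K.IsSymm → |F (cay K)| ≤ B

/-- the reindexing of the probes -/
def mE (k : ℕ) : Fin 2 × (Fin 2 ⊕ Fin k) ≃ Fin (2 * 2) ⊕ Fin (2 * k) :=
  (Equiv.prodSumDistrib _ _ _).trans (Equiv.sumCongr finProdFinEquiv finProdFinEquiv)

instance m_nuFin (q : ℕ) (π : Measure II) (n : ℕ) : IsZeroOrProbabilityMeasure (mNu q π n) := by
  unfold mNu; infer_instance

theorem m_rrg (q : ℕ) (π : Measure II) (s E : ℝ) (n : ℕ) :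
    rrgLaw q π s E n = (mNu q π n).map (mXi π s E) := rfl

theorem m_modelE {n : ℕ} {ι : Type} [Fintype ι] [DecidableEq ι] (b : ℝ → ℝ) (δ : ℝ)
    (F : Matrix ι ι ℂ → ℝ) (ξ : Fin n → ℝ) :
    modelE b δ F ξ = δ⁻¹ * ∫ t in (0 : ℝ)..δ, mM b F fun i => ξ i - t := rfl

end Crest.Agent.R166
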