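import Crest.Agent.R166.M.Cay

/-!
# Row 166, block M: measurability, conditioning on simplicity, H1
-/

set_option autoImplicit false

open MeasureTheory ProbabilityTheory Filter Topology Complex
open scoped ENNReal NNReal BigOperators Matrix

noncomputable section

namespace Crest.Agent.R166

section
variable {V : Type} [Fintype V] [DecidableEq V] {q : ℕ}

/-- Recipe: `Finset.card_bij'` with `i ↦ (σ (u,i)).2`, `σ (σ h) = h`. -/
theorem m_adj_symm (σ : Pairing V q) : (adj σ).IsSymm := by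
  ext u v
  simp only [Matrix.transpose_apply, adj, Nat.cast_inj]
  refine Finset.card_bij (fun i _ => (σ (v, i)).2) (fun i hi => ?_) (fun i hi j hj h => ?_)
    fun j hj => ?_
  · have h := (Finset.mem_filter.1 hi).2
    refine Finset.mem_filter.2 ⟨Finset.mem_univ _, ?_⟩
    rw [← h, Prod.mk.eta, p_inv]
  · have h1 := (Finset.mem_filter.1 hi).2
    have h2 := (Finset.mem_filter.1 hj).2
    exact congrArg Prod.snd (p_inj σ (Prod.ext (h1.trans h2.symm) h))
  · have h := (Finset.mem_filter.1 hj).2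
    refine ⟨(σ (u, j)).2, Finset.mem_filter.2 ⟨Finset.mem_univ _, ?_⟩, ?_⟩
    · rw [← h, Prod.mk.eta, p_inv]
    · rw [← h, Prod.mk.eta, p_inv]

theorem m_Hm_symm (s : ℝ) (c : Cfg V q) : (Hm s c).IsSymm := by
  exact (m_adj_symm c.1).add (Matrix.isSymm_diagonal _)

theorem m_Hm_herm (s : ℝ) (c : Cfg V q) : (Hm s c).IsHermitian := by
  rw [Matrix.IsHermitian, Matrix.conjTranspose_eq_transpose_of_trivial]
  exact m_Hm_symm s c

/-- Recipe: `measurable_from_prod_countable_right` (the pairings are a discrete finite type). -/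
theorem m_Hm_meas (s : ℝ) : Measurable fun c : Cfg V q => Hm s c := by
  refine measurable_from_prod_countable_right fun σ => Continuous.measurable ?_
  have h : Continuous fun (w : V → II) (v : V) => s * (w v : ℝ) := by fun_prop
  exact (continuous_const (y := adj σ)).add h.matrix_diagonal

theorem m_simple_meas : MeasurableSet {c : Cfg V q | IsSimple c.1} := by
  exact measurable_fst (MeasurableSet.of_discrete (s := {σ : Pairing V q | IsSimple σ}))

theorem m_sing_meas (s E' : ℝ) :
    MeasurableSet {c : Cfg V q | (Hm s c - E' • (1 : Matrix V V ℝ)).det = 0} := by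
  exact measurableSet_eq_fun ((continuous_id.sub continuous_const).matrix_det.measurable.comp
    (m_Hm_meas s)) measurable_const

theorem m_mX_symm {J : Type} (s : ℝ) (c : Cfg V q) (E' : ℝ) (a : J → HE V q) :
    (mX s c E' a).IsSymm := by
  have h1 : ((Hm s c - E' • (1 : Matrix V V ℝ))⁻¹).IsSymm :=
    ((m_Hm_symm s c).sub (Matrix.isSymm_one.smul _)).inv
  ext x x'
  exact h1.apply _ _

theorem m_mF_mem {J : Type} [Fintype J] {φ : Env q → ℝ} (hφ : ∀ β, 0 ≤ φ β ∧ φ β ≤ 1)
    (e : J → EEnv q) : 0 ≤ mF φ e ∧ mF φ e ≤ 1 := by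
  exact ⟨Finset.prod_nonneg fun j _ => mul_nonneg (hφ _).1 (hφ _).1,
    Finset.prod_le_one (fun j _ => mul_nonneg (hφ _).1 (hφ _).1)
      fun j _ => mul_le_one₀ (hφ _).2 (hφ _).1 (hφ _).2⟩

theorem m_view_meas (h : Pairing V q → HE V q) : Measurable fun c : Cfg V q => view c (h c.1) :=
  measurable_from_prod_countable_right fun σ => measurable_pi_lambda _ fun l =>
    measurable_pi_apply (walk σ (h σ) l).1

theorem m_mX_meas {J : Type} (s E' : ℝ) (a : J → HE V q) :
    Measurable fun c : Cfg V q => mX s c E' a := by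
  have h1 : Measurable fun c : Cfg V q => (Hm s c - E' • (1 : Matrix V V ℝ))⁻¹ :=
    m_inv_meas.comp ((continuous_id.sub continuous_const).measurable.comp (m_Hm_meas s))
  refine measurable_pi_lambda _ fun x => measurable_pi_lambda _ fun x' => ?_
  refine measurable_from_prod_countable_right fun σ => ?_
  exact (measurable_pi_apply (ep σ (a x'.2) x'.1)).comp ((measurable_pi_apply (ep σ (a x.2) x.1)).comp
    (h1.comp measurable_prodMk_left))

theorem m_term_meas {J : Type} [Fintype J] [DecidableEq J] (s : ℝ) (y : ℂ) {φ : Env q → ℝ}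
    (hφ : Measurable φ) {F : Matrix (Fin 2 × J) (Fin 2 × J) ℂ → ℝ} (hF : Continuous F) (E' : ℝ)
    (a : J → HE V q) : Measurable fun c : Cfg V q =>
      mF φ (fun j => eview c (a j)) * F (cay (mK y (mX s c E' a))) := by
  refine Measurable.mul (Finset.measurable_prod _ fun j _ => ?_) ?_
  · exact (hφ.comp (m_view_meas fun _ => a j)).mul (hφ.comp (m_view_meas fun σ => σ (a j)))
  · have h1 : Continuous (mK (J := J) y) :=
      (continuous_const.matrix_mul (continuous_id.sub continuous_const)).matrix_mul continuous_const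
    exact hF.measurable.comp (m_cay_meas.comp (h1.measurable.comp (m_mX_meas s E' a)))

theorem m_obs_meas {J : Type} [Fintype J] [DecidableEq J] (s : ℝ) (y : ℂ) {φ : Env q → ℝ}
    (hφ : Measurable φ) {F : Matrix (Fin 2 × J) (Fin 2 × J) ℂ → ℝ} (hF : Continuous F) (E' : ℝ) :
    Measurable fun c : Cfg V q => mObs s y φ F c E' := by
  exact (Finset.measurable_sum _ fun a _ => m_term_meas s y hφ hF E' a).div_const _

theorem m_obs_bdd {J : Type} [Fintype J] [DecidableEq J] (s : ℝ) (y : ℂ) {φ : Env q → ℝ}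
    (hφ : ∀ β, 0 ≤ φ β ∧ φ β ≤ 1) {F : Matrix (Fin 2 × J) (Fin 2 × J) ℂ → ℝ} {B : ℝ} (hB0 : 0 ≤ B)
    (hB : mBd F B) (c : Cfg V q) (E' : ℝ) : |mObs s y φ F c E'| ≤ B := by
  have h1 : ∀ a : J → HE V q,
      |mF φ (fun j => eview c (a j)) * F (cay (mK y (mX s c E' a)))| ≤ B := fun a => by
    rw [abs_mul, abs_of_nonneg (m_mF_mem hφ _).1]
    exact (mul_le_of_le_one_left (abs_nonneg _) (m_mF_mem hφ _).2).trans
      (hB _ (m_mK_symm y (m_mX_symm s c E' a)))
  refine abs_le.2 ⟨?_, p_avg_le hB0 fun a => (abs_le.1 (h1 a)).2⟩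
  have h2 := p_avg_le (f := fun a : J → HE V q =>
    (-1) * (mF φ (fun j => eview c (a j)) * F (cay (mK y (mX s c E' a))))) hB0
    fun a => by linarith [(abs_le.1 (h1 a)).1]
  rw [p_avg_mul] at h2
  unfold mObs
  linarith

end

theorem m_xi_meas (hE : StE) {q n : ℕ} (π : Measure II) (s E : ℝ) :
    Measurable (mXi π s E : Cfg (Fin n) q → Fin n → ℝ) := by
  refine measurable_pi_lambda _ fun i => measurable_const.mul (Measurable.sub_const ?_ _)
  exact (measurable_pi_apply i).comp ((hE (Fin n)).1.comp (m_Hm_meas s))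

/-- conditioning on simplicity.  Recipe: `p = (cfgLaw {simple})⁻¹.toReal`, `cfgLaw {simple} = uniformOn univ {simple}`
(`Measure.prod_prod`), `cond_apply`, `cond_isProbabilityMeasure`, `integral_smul_measure`, `integral_indicator`. -/
theorem m_nu (h1 : StP1) (q : ℕ) (π : Measure II) [IsProbabilityMeasure π] :
    ∃ C : ℝ, 0 < C ∧ ∀ᶠ n : ℕ in atTop, Even (n * (q + 1)) → IsProbabilityMeasure (mNu q π n) ∧
      ∃ p : ℝ, 0 ≤ p ∧ p ≤ C ∧
        (∀ S, (mNu q π n).real S = p * (cfgLaw (Fin n) q π).real {c | IsSimple c.1 ∧ c ∈ S}) ∧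
        ∀ h : Cfg (Fin n) q → ℝ, ∫ c, h c ∂mNu q π n =
          p * ∫ c, (if IsSimple c.1 then h c else 0) ∂cfgLaw (Fin n) q π := by
  obtain ⟨c, hc, h⟩ := h1 q
  refine ⟨c⁻¹, inv_pos.2 hc, h.mono fun n hn he => ?_⟩
  have h2 : cfgLaw (Fin n) q π {c | IsSimple c.1} =
      uniformOn (Set.univ : Set (Pairing (Fin n) q)) {σ | IsSimple σ} := by
    have : {c : Cfg (Fin n) q | IsSimple c.1} = {σ | IsSimple σ} ×ˢ Set.univ := by ext; simp
    rw [this, cfgLaw, Measure.prod_prod, measure_univ, mul_one]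
  have h3 : ENNReal.ofReal c ≤ cfgLaw (Fin n) q π {c | IsSimple c.1} := h2 ▸ hn he
  have h4 : cfgLaw (Fin n) q π {c | IsSimple c.1} ≠ 0 :=
    ((ENNReal.ofReal_pos.2 hc).trans_le h3).ne'
  refine ⟨cond_isProbabilityMeasure h4, (cfgLaw (Fin n) q π {c | IsSimple c.1})⁻¹.toReal,
    ENNReal.toReal_nonneg, ?_, fun S => ?_, fun h => ?_⟩
  · refine ENNReal.toReal_le_of_le_ofReal (inv_pos.2 hc).le ?_
    rw [ENNReal.ofReal_inv_of_pos hc]
    exact ENNReal.inv_le_inv.2 h3
  · rw [Measure.real, mNu, cond_apply m_simple_meas, ENNReal.toReal_mul]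
    rfl
  · rw [mNu, ProbabilityTheory.cond, integral_smul_measure, ← integral_indicator m_simple_meas,
      smul_eq_mul]
    congr 2
    funext c
    by_cases hs : IsSimple c.1 <;> simp [Set.indicator, hs]

end Crest.Agent.R166
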