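import Crest.Agent.R166.M.AlgSw
import Crest.Agent.R166.M.Nu

/-!
# Row 166, block M: the switch, deterministic part
-/

set_option autoImplicit false

open MeasureTheory ProbabilityTheory Filter Topology Complex
open scoped ENNReal NNReal BigOperators Matrix

noncomputable section

namespace Crest.Agent.R166

variable {V : Type} [Fintype V] [DecidableEq V] {q : ℕ}

theorem m_swd_adj (σ : Pairing V q) (u v : V) : adj σ u v =
    ∑ h : HE V q, (Pi.single h.1 1 : V → ℝ) u * (Pi.single (σ h).1 1 : V → ℝ) v := by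
  rw [adj, Finset.card_filter, Fintype.sum_prod_type, Finset.sum_eq_single u]
  · simp [Pi.single_apply, eq_comm]
  · intro w _ hw
    simp [Pi.single_eq_of_ne hw.symm]
  · simp

/-- Recipe: `adj σ u v = ∑ h : HE V q, 1[h.1 = u] 1[(σ h).1 = v]`; reindex by `swap a b`; if `a ≠ b` the four
half-edges `a, b, σ a, σ b` are distinct and only their terms change (`p_switch_*`). -/
theorem m_adj_switch (σ : Pairing V q) {a b : HE V q} (h : b ≠ σ a) :
    adj (switch σ a b) = adj σ +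
      (Matrix.vecMulVec (Pi.single b.1 1 - Pi.single a.1 1)
          (Pi.single (σ a).1 1 - Pi.single (σ b).1 1) +
        Matrix.vecMulVec (Pi.single (σ a).1 1 - Pi.single (σ b).1 1)
          (Pi.single b.1 1 - Pi.single a.1 1)) := by
  rcases eq_or_ne a b with rfl | hab
  · have : switch σ a a = σ := p_ext fun x => by simp [p_switch_apply]
    simp [this]
  have h' : a ≠ σ b := fun e => h ((p_eq_iff σ).1 e.symm)
  have hs : σ a ≠ σ b := fun e => hab (σ.1.injective e)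
  have e3 : switch σ a b (σ a) = b := ((p_eq_iff _).1 (p_switch_right σ h)).symm
  have e4 : switch σ a b (σ b) = a := ((p_eq_iff _).1 (p_switch_left σ h)).symm
  ext u v
  rw [Matrix.add_apply, ← sub_eq_iff_eq_add', m_swd_adj, m_swd_adj, ← Finset.sum_sub_distrib,
    ← Finset.sum_subset (Finset.subset_univ {a, b, σ a, σ b}) fun x _ hx => by
      simp only [Finset.mem_insert, Finset.mem_singleton, not_or] at hx
      rw [p_switch_of_ne σ hx.1 hx.2.1 hx.2.2.1 hx.2.2.2, sub_self],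
    Finset.sum_insert (by simp [hab, h', (p_ne σ a).symm]), Finset.sum_insert (by simp [h, (p_ne σ b).symm]),
    Finset.sum_pair hs, p_switch_left σ h, p_switch_right σ h, e3, e4, (σ.2 a).1, (σ.2 b).1]
  simp only [Matrix.add_apply, Matrix.vecMulVec_apply, Pi.sub_apply]
  ring

theorem m_swd_swap {J : Type} [DecidableEq J] {j₁ j₂ : J} (σ : Pairing V q) (a : J → HE V q)
    (h : a j₂ ≠ σ (a j₁)) (h3 : ∀ j, j ≠ j₁ → j ≠ j₂ → switch σ (a j₁) (a j₂) (a j) = σ (a j)) (j : J) :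
    switch σ (a j₁) (a j₂) (a j) = σ (a (Equiv.swap j₁ j₂ j)) := by
  by_cases h1 : j = j₁
  · rw [h1, p_switch_left σ h, Equiv.swap_apply_left]
  by_cases h2 : j = j₂
  · rw [h2, p_switch_right σ h, Equiv.swap_apply_right]
  · rw [h3 j h1 h2, Equiv.swap_apply_of_ne_of_ne h1 h2]

/-- Recipe: `G - G' = G (H' - H) G'`; with `X' x x' = G' (ep σ ..) (ep σ ..)` (probes of `c`) one gets
`X - X' = X Δ X'` entrywise (`m_adj_switch`, `vecMulVec` algebra), and the probes of the switched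
configuration are those of `c` permuted by the swap; conclude with `m_switch_alg`. -/
theorem m_sw_det {J : Type} [Fintype J] [DecidableEq J] (s : ℝ) {y : ℂ} (hy : 0 < y.im) {j₁ j₂ : J}
    (hj : j₁ ≠ j₂) (c : Cfg V q) (a : J → HE V q) (E' : ℝ) (h : a j₂ ≠ c.1 (a j₁))
    (h3 : ∀ j, j ≠ j₁ → j ≠ j₂ → switch c.1 (a j₁) (a j₂) (a j) = c.1 (a j))
    (hu : (Hm s c - E' • (1 : Matrix V V ℝ)).det ≠ 0)
    (hu' : (Hm s (switch c.1 (a j₁) (a j₂), c.2) - E' • (1 : Matrix V V ℝ)).det ≠ 0) :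
    cay (mK y (mX s (switch c.1 (a j₁) (a j₂), c.2) E' a)) =
      mW y j₁ j₂ * cay (mK y (mX s c E' a)) * (mW y j₁ j₂)ᵀ := by
  have sy : ∀ c : Cfg V q, (Hm s c - E' • (1 : Matrix V V ℝ))⁻¹.IsSymm := fun c =>
    ((m_Hm_symm s c).sub (Matrix.isSymm_one.smul E')).inv
  set A := Hm s c - E' • (1 : Matrix V V ℝ) with hA
  set A' := Hm s (switch c.1 (a j₁) (a j₂), c.2) - E' • (1 : Matrix V V ℝ) with hA'
  set p : Fin 2 × J → V := fun x => ep c.1 (a x.2) x.1 with hp
  have e1 : A⁻¹ - A'⁻¹ = A⁻¹ * (A' - A) * A'⁻¹ := by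
    rw [mul_sub, sub_mul, mul_assoc, Matrix.mul_nonsing_inv _ hu'.isUnit, Matrix.nonsing_inv_mul _ hu.isUnit,
      mul_one, one_mul]
  rw [hA', hA, sub_sub_sub_cancel_right, Hm, Hm, add_sub_add_right_eq_sub, m_adj_switch c.1 h,
    add_sub_cancel_left, ← m_adj_switch c.1 h] at e1
  have key := m_switch_alg hy hj (X := A⁻¹.submatrix p p) (X' := A'⁻¹.submatrix p p)
    ((sy c).submatrix p) ((sy _).submatrix p) (by
      ext x x'
      refine (congrFun (congrFun e1 (p x)) (p x')).trans ?_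
      simp only [mDel, mul_add, add_mul, Matrix.mul_vecMulVec, Matrix.vecMulVec_mul, Matrix.add_apply,
        Matrix.vecMulVec_apply, Matrix.mulVec_sub, Matrix.sub_vecMul, Matrix.mulVec_single_one,
        Matrix.single_one_vecMul, Pi.sub_apply]
      rfl)
  have e2 : ∀ x : Fin 2 × J, ep (switch c.1 (a j₁) (a j₂)) (a x.2) x.1 = p (Equiv.swap (1, j₁) (1, j₂) x) := by
    rintro ⟨o, j⟩
    fin_cases o
    · rw [Equiv.swap_apply_of_ne_of_ne (by simp) (by simp)]
      rfl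
    · have : Equiv.swap ((1 : Fin 2), j₁) (1, j₂) (1, j) = (1, Equiv.swap j₁ j₂ j) :=
        (Function.Injective.swap_apply (f := fun j : J => ((1 : Fin 2), j))
          (fun _ _ e => congrArg Prod.snd e) j₁ j₂ j)
      exact (congrArg Prod.fst (m_swd_swap c.1 a h h3 j)).trans (congrArg p this).symm
  refine (congrArg (fun X => cay (mK y X)) ?_).trans key
  ext x x'
  simp only [mX, e2, Matrix.submatrix_apply, hA']

/-- a continuous function of the environment depends uniformly on finitely many levels (compactness) -/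
theorem m_depth {φ : Env q → ℝ} (hφ : Continuous φ) {ε : ℝ} (hε : 0 < ε) :
    ∃ R : ℕ, ∀ β β' : Env q, (∀ l : List (Fin q), l.length ≤ R → β l = β' l) →
      |φ β - φ β'| ≤ ε := by
  have hU := CompactSpace.uniformContinuous_of_continuous hφ (Metric.dist_mem_uniformity hε)
  rw [mem_map, Pi.uniformity, mem_iInf] at hU
  obtain ⟨T, hT, W, hW, e⟩ := hU
  obtain ⟨R, hR⟩ := (hT.image List.length).bddAbove
  refine ⟨R, fun β β' h => ?_⟩
  have : (β, β') ∈ ⋂ i, W i := Set.mem_iInter.2 fun i => by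
    obtain ⟨t, ht, hs⟩ := mem_comap.1 (hW i)
    refine hs ?_
    show (β i, β' i) ∈ t
    rw [h i (hR ⟨i, i.2, rfl⟩)]
    exact refl_mem_uniformity ht
  rw [← e] at this
  exact le_of_lt this

/-- the event on which the switch changes something visible at depth `R` -/
def mSwBad {J : Type} (R : ℕ) (j₁ j₂ : J) (σ : Pairing V q) (a : J → HE V q) : Prop :=
  a j₂ = σ (a j₁) ∨ ¬ (IsSimple (switch σ (a j₁) (a j₂)) ↔ IsSimple σ) ∨
  (∃ h ∈ [a j₁, a j₂, σ (a j₁), σ (a j₂)], ∃ l : List (Fin q), l.length ≤ R ∧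
    walk (switch σ (a j₁) (a j₂)) h l ≠ walk σ h l) ∨
  ∃ j, j ≠ j₁ ∧ j ≠ j₂ ∧ (switch σ (a j₁) (a j₂) (a j) ≠ σ (a j) ∨
    ∃ h ∈ [a j, σ (a j)], ∃ l : List (Fin q), l.length ≤ R ∧
      walk (switch σ (a j₁) (a j₂)) h l ≠ walk σ h l)

theorem m_swd_prod {J : Type} (s : Finset J) {u v : J → ℝ} (hu : ∀ j, 0 ≤ u j ∧ u j ≤ 1)
    (hv : ∀ j, 0 ≤ v j ∧ v j ≤ 1) {ε : ℝ} (h : ∀ j, |u j - v j| ≤ ε) :
    |∏ j ∈ s, u j - ∏ j ∈ s, v j| ≤ s.card * ε := by
  classical
  induction s using Finset.induction_on with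
  | empty => simp
  | insert j s hj ih =>
    rw [Finset.prod_insert hj, Finset.prod_insert hj, Finset.card_insert_of_notMem hj]
    have e : u j * ∏ j ∈ s, u j - v j * ∏ j ∈ s, v j =
        u j * (∏ j ∈ s, u j - ∏ j ∈ s, v j) + (u j - v j) * ∏ j ∈ s, v j := by ring
    rw [e]
    refine (abs_add_le _ _).trans ?_
    rw [abs_mul, abs_mul, abs_of_nonneg (hu j).1, abs_of_nonneg (Finset.prod_nonneg fun i _ => (hv i).1)]
    have a1 := mul_le_of_le_one_left (abs_nonneg (∏ j ∈ s, u j - ∏ j ∈ s, v j)) (hu j).2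
    have a2 := mul_le_of_le_one_right (abs_nonneg (u j - v j))
      (Finset.prod_le_one (s := s) (fun i _ => (hv i).1) fun i _ => (hv i).2)
    push_cast
    linarith [h j]

/-- the weights before and after the switch are close.  Recipe: `mF φ e = (∏ j, φ (e j).1) * ∏ j, φ (e j).2`; the second
product is reindexed by `Equiv.swap j₁ j₂`; `|∏ u - ∏ v| ≤ ∑ |u - v|` for factors in `[0,1]`. -/
theorem m_sw_weight {J : Type} [Fintype J] [DecidableEq J] {φ : Env q → ℝ}
    (hφ : ∀ β, 0 ≤ φ β ∧ φ β ≤ 1) {R : ℕ} {ε : ℝ}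
    (hR : ∀ β β' : Env q, (∀ l : List (Fin q), l.length ≤ R → β l = β' l) → |φ β - φ β'| ≤ ε)
    {j₁ j₂ : J} (hj : j₁ ≠ j₂) (c : Cfg V q) (a : J → HE V q) (h : ¬ mSwBad R j₁ j₂ c.1 a) :
    |mF φ (fun j => eview (switch c.1 (a j₁) (a j₂), c.2) (a j)) - mF φ fun j => eview c (a j)| ≤
      2 * Fintype.card J * ε := by
  simp only [mSwBad, not_or, not_exists, not_and, not_not] at h
  obtain ⟨h1, -, h2, h3⟩ := h
  have k : ∀ j, ∀ x ∈ [a j, c.1 (a j)],
      |φ (view (switch c.1 (a j₁) (a j₂), c.2) x) - φ (view c x)| ≤ ε := fun j x hx => by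
    refine hR _ _ fun l hl => congrArg (fun y : HE V q => c.2 y.1) ?_
    by_cases e1 : j = j₁
    · exact h2 x (by simp only [List.mem_cons, List.not_mem_nil, or_false, e1] at hx ⊢; tauto) l hl
    by_cases e2 : j = j₂
    · exact h2 x (by simp only [List.mem_cons, List.not_mem_nil, or_false, e2] at hx ⊢; tauto) l hl
    · exact (h3 j e1 e2).2 x hx l hl
  simp only [mF, eview, Finset.prod_mul_distrib, m_swd_swap c.1 a h1 fun j e1 e2 => (h3 j e1 e2).1]
  rw [Equiv.prod_comp (Equiv.swap j₁ j₂) fun j => φ (view (switch c.1 (a j₁) (a j₂), c.2) (c.1 (a j)))]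
  have b : ∀ f : J → Env q, 0 ≤ ∏ j, φ (f j) ∧ ∏ j, φ (f j) ≤ 1 := fun f =>
    ⟨Finset.prod_nonneg fun j _ => (hφ _).1, Finset.prod_le_one (fun j _ => (hφ _).1) fun j _ => (hφ _).2⟩
  have := m_swd_prod (Finset.univ : Finset (Fin 2)) (ε := Fintype.card J * ε)
    (u := ![∏ j, φ (view (switch c.1 (a j₁) (a j₂), c.2) (a j)),
      ∏ j, φ (view (switch c.1 (a j₁) (a j₂), c.2) (c.1 (a j)))])
    (v := ![∏ j, φ (view c (a j)), ∏ j, φ (view c (c.1 (a j)))])
    (Fin.forall_fin_two.2 ⟨b _, b _⟩) (Fin.forall_fin_two.2 ⟨b _, b _⟩) (Fin.forall_fin_two.2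
      ⟨m_swd_prod _ (fun _ => hφ _) (fun _ => hφ _) fun j => k j _ (by simp),
        m_swd_prod _ (fun _ => hφ _) (fun _ => hφ _) fun j => k j _ (by simp)⟩)
  simpa [mul_assoc] using this

end Crest.Agent.R166
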