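import Crest.Agent.R166.M.Nu

/-!
# Row 166, block M: the localising weight
-/

set_option autoImplicit false

open MeasureTheory ProbabilityTheory Filter Topology Complex
open scoped ENNReal NNReal BigOperators Matrix

noncomputable section

namespace Crest.Agent.R166

theorem m_chi_cont (y : ℂ) (r : ℝ) : Continuous (mChi y r) := by
  unfold mChi; fun_prop

theorem m_chi_mem (y : ℂ) {r : ℝ} (hr : 0 < r) (Y : ℂ) : 0 ≤ mChi y r Y ∧ mChi y r Y ≤ 1 :=
  ⟨le_max_left _ _, max_le zero_le_one (sub_le_self _ (by positivity))⟩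

theorem m_chi_pos (y : ℂ) {r : ℝ} (hr : 0 < r) (Y : ℂ) : 0 < mChi y r Y ↔ ‖Y - y‖ < r := by
  rw [mChi, lt_max_iff, sub_pos, div_lt_one hr]; simp

/-- a point of the support.  Recipe: `Measure.support_mem_ae`, `Measure.mem_support_iff_forall` for the law of `mB`. -/
theorem m_exists_y {q : ℕ} {π : Measure II} [IsProbabilityMeasure π] {s E : ℝ} (h : TreeOK q π s E) :
    ∃ y : ℂ, 0 < y.im ∧ ∀ r : ℝ, 0 < r → envLaw q π {β | ‖mB s E β - y‖ < r} ≠ 0 := by
  have := Measure.isProbabilityMeasure_map (μ := envLaw q π) h.meas.aemeasurable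
  have h1 : ∀ᵐ y ∂(envLaw q π).map (mB s E), 0 < y.im :=
    (ae_map_iff h.meas.aemeasurable (measurableSet_lt measurable_const Complex.measurable_im)).2 h.pos
  obtain ⟨y, hy, hs⟩ := (h1.and (Measure.support_mem_ae (μ := (envLaw q π).map (mB s E)))).exists
  refine ⟨y, hy, fun r hr => ?_⟩
  have h2 := (Measure.mem_support_iff_forall y).1 hs (Metric.ball y r) (Metric.ball_mem_nhds y hr)
  rw [Measure.map_apply h.meas measurableSet_ball] at h2
  refine ne_of_gt (h2.trans_eq ?_)
  congr 1
  ext β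
  simp [dist_eq_norm]

/-- Recipe: `integral_fintype_prod_eq_prod`, `integral_prod_mul`, `integral_pos_iff_support_of_nonneg`. -/
theorem m_tau_pos (J : Type) [Fintype J] {q : ℕ} {π : Measure II} [IsProbabilityMeasure π] {s E : ℝ}
    (h : TreeOK q π s E) {y : ℂ} {r : ℝ} (hr : 0 < r)
    (hy : envLaw q π {β | ‖mB s E β - y‖ < r} ≠ 0) :
    0 < mTau J q π (fun β => mChi y r (mB s E β)) ∧ mTau J q π (fun β => mChi y r (mB s E β)) ≤ 1 := by
  have hm : Measurable fun β : Env q => mChi y r (mB s E β) := (m_chi_cont y r).measurable.comp h.meas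
  have hi : Integrable (fun β : Env q => mChi y r (mB s E β)) (envLaw q π) :=
    Integrable.of_bound hm.aestronglyMeasurable 1 (ae_of_all _ fun β => by
      rw [Real.norm_of_nonneg (m_chi_mem y hr _).1]; exact (m_chi_mem y hr _).2)
  have h0 : 0 < ∫ β, mChi y r (mB s E β) ∂envLaw q π := by
    rw [integral_pos_iff_support_of_nonneg (fun β => (m_chi_mem y hr _).1) hi]
    refine (pos_iff_ne_zero.2 hy).trans_le (measure_mono fun β hβ => ?_)
    exact ((m_chi_pos y hr _).2 hβ).ne'
  have h1 : ∫ β, mChi y r (mB s E β) ∂envLaw q π ≤ 1 := by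
    simpa using integral_mono hi (integrable_const (1 : ℝ)) fun β => (m_chi_mem y hr _).2
  unfold mTau mF
  rw [integral_fintype_prod_eq_prod (f := fun (_ : J) (e : EEnv q) =>
    mChi y r (mB s E e.1) * mChi y r (mB s E e.2)), edgeLaw,
    integral_prod_mul (f := fun β : Env q => mChi y r (mB s E β))
      (g := fun β : Env q => mChi y r (mB s E β))]
  exact ⟨Finset.prod_pos fun _ _ => mul_pos h0 h0, Finset.prod_le_one (fun _ _ => by positivity)
    fun _ _ => mul_le_one₀ h1 h0.le h1⟩

/-- Recipe: dominated convergence; `TreeOK.tend` holds a.e. for each coordinate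
(`Measure.quasiMeasurePreserving_eval`/`measurePreserving_eval`, `quasiMeasurePreserving_fst/snd`, `ae_all_iff`). -/
theorem m_fk_tend (hT : StT0) (J : Type) [Fintype J] {q : ℕ} {π : Measure II} [IsProbabilityMeasure π]
    {s E : ℝ} (hs0 : 0 ≤ s) (hs1 : s ≤ 1) (h : TreeOK q π s E) (y : ℂ) {r : ℝ} (hr : 0 < r) :
    Tendsto (fun k => ∫ e, |mF (fun β => mChi y r (mT s (zk E k) β)) e -
      mF (fun β => mChi y r (mB s E β)) e| ∂(Measure.pi fun _ : J => edgeLaw q π)) atTop (𝓝 0) := by
  have hz : ∀ k, 0 < (zk E k).im := fun k => by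
    simp only [zk, add_im, ofReal_im, mul_im, ofReal_re, I_im, I_re]; positivity
  have mF_meas : ∀ φ : Env q → ℝ, Measurable φ → Measurable (mF (J := J) φ) := fun φ hφ =>
    Finset.measurable_prod _ fun j _ => (hφ.comp (measurable_fst.comp (measurable_pi_apply j))).mul
      (hφ.comp (measurable_snd.comp (measurable_pi_apply j)))
  have mF_mem : ∀ (f : Env q → ℂ) (e : J → EEnv q), 0 ≤ mF (fun β => mChi y r (f β)) e ∧
      mF (fun β => mChi y r (f β)) e ≤ 1 := fun f e =>
    ⟨Finset.prod_nonneg fun _ _ => mul_nonneg (m_chi_mem y hr _).1 (m_chi_mem y hr _).1,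
      Finset.prod_le_one (fun _ _ => mul_nonneg (m_chi_mem y hr _).1 (m_chi_mem y hr _).1)
        fun _ _ => mul_le_one₀ (m_chi_mem y hr _).2 (m_chi_mem y hr _).1 (m_chi_mem y hr _).2⟩
  have key := tendsto_integral_of_dominated_convergence (μ := Measure.pi fun _ : J => edgeLaw q π)
    (F := fun k e => |mF (fun β => mChi y r (mT s (zk E k) β)) e -
      mF (fun β => mChi y r (mB s E β)) e|) (f := fun _ => (0 : ℝ)) (fun _ => (1 : ℝ))
    (fun k => (((mF_meas _ ((m_chi_cont y r).measurable.comp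
      ((hT q s hs0 hs1).1 _ (hz k)).2.1.measurable)).sub
      (mF_meas _ ((m_chi_cont y r).measurable.comp h.meas))).abs).aestronglyMeasurable)
    (integrable_const _) (fun k => ae_of_all _ fun e => by
      have a1 := mF_mem (mT s (zk E k)) e
      have a2 := mF_mem (mB s E) e
      rw [Real.norm_eq_abs, abs_abs, abs_le]
      constructor <;> linarith [a1.1, a1.2, a2.1, a2.2]) ?_
  · simpa using key
  have h1 : ∀ᵐ e ∂edgeLaw q π, Tendsto (fun k => mT s (zk E k) e.1) atTop (𝓝 (mB s E e.1)) ∧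
      Tendsto (fun k => mT s (zk E k) e.2) atTop (𝓝 (mB s E e.2)) :=
    (Measure.quasiMeasurePreserving_fst.ae h.tend).and (Measure.quasiMeasurePreserving_snd.ae h.tend)
  have h2 := ae_all_iff.2 fun j : J =>
    (Measure.quasiMeasurePreserving_eval (fun _ : J => edgeLaw q π) j).ae h1
  filter_upwards [h2] with e he
  have h3 : Tendsto (fun k => mF (fun β => mChi y r (mT s (zk E k) β)) e) atTop
      (𝓝 (mF (fun β => mChi y r (mB s E β)) e)) :=
    tendsto_finsetProd _ fun j _ => (((m_chi_cont y r).tendsto _).comp (he j).1).mul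
      (((m_chi_cont y r).tendsto _).comp (he j).2)
  simpa using (h3.sub_const (mF (fun β => mChi y r (mB s E β)) e)).abs

end Crest.Agent.R166
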