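import Crest.Agent.R166.M.Wk
import Crest.Agent.R166.M.Alg
import Crest.Agent.R166.M.Gauss
import Crest.Agent.R166.M.CayU

/-!
# Row 166, block M: the Gaussian wave on the tree
-/

set_option autoImplicit false

open MeasureTheory ProbabilityTheory Filter Topology Complex
open scoped ENNReal NNReal BigOperators Matrix

noncomputable section

namespace Crest.Agent.R166

theorem m_chol_meas : Measurable fun p : ℂ × ℂ => chol2 (imM (GamE p.1 p.2)) := by
  refine measurable_pi_lambda _ fun o => measurable_pi_lambda _ fun o' => ?_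
  fin_cases o <;> fin_cases o' <;>
    simp only [chol2, imM, GamE, Matrix.map_apply, Matrix.of_apply, Matrix.cons_val',
      Matrix.cons_val_zero, Matrix.cons_val_one, Matrix.cons_val_fin_one, Fin.zero_eta, Fin.mk_one,
      Fin.isValue] <;> fun_prop

theorem m_chol_contAt {C : Matrix (Fin 2) (Fin 2) ℝ} (h : 0 < C 0 0) : ContinuousAt chol2 C := by
  have h1 : √(C 0 0) ≠ 0 := (Real.sqrt_pos.2 h).ne'
  have h2 := h.ne'
  have he : ∀ o o', Continuous fun M : Matrix (Fin 2) (Fin 2) ℝ => M o o' := fun o o' =>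
    continuous_id.matrix_elem o o'
  refine continuousAt_pi.2 fun o => continuousAt_pi.2 fun o' => ?_
  fin_cases o <;> fin_cases o' <;>
    simp only [chol2, Matrix.of_apply, Matrix.cons_val', Matrix.cons_val_zero, Matrix.cons_val_one,
      Matrix.cons_val_fin_one, Fin.zero_eta, Fin.mk_one, Fin.isValue]
  · exact (he 0 0).sqrt.continuousAt
  · exact continuousAt_const
  · exact (he 1 0).continuousAt.div (he 0 0).sqrt.continuousAt h1
  · exact ((he 1 1).continuousAt.sub (((he 1 0).pow 2).continuousAt.div (he 0 0).continuousAt h2)).sqrt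

theorem m_modelK_mul {ι : Type} [Fintype ι] {n : ℕ} (T : Matrix ι ι ℝ) (b : ℝ → ℝ) (x : Fin n → ℝ)
    (g : Fin n → ι → ℝ) : T * modelK b x g * Tᵀ = modelK b x fun i => T *ᵥ g i := by
  have e : ∀ g : Fin n → ι → ℝ, modelK b x g =
      Real.pi⁻¹ • ∑ i, b (x i) • Matrix.vecMulVec (g i) (g i) := fun g => by
    ext a c; simp [modelK, Matrix.sum_apply, Matrix.vecMulVec_apply]
  rw [e, e]
  simp only [Matrix.mul_smul, Matrix.smul_mul, Matrix.mul_sum, Matrix.sum_mul, Matrix.mul_vecMulVec,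
    Matrix.vecMulVec_mul, Matrix.vecMul_transpose]

theorem m_wave_meas {q r : ℕ} {s E : ℝ} (h : Measurable (mB (q := q) s E)) (ρ : ℝ) :
    Measurable fun p : EEnv q × (Fin r → Fin 2 → ℝ) => ((p.1, fun a => ρ •
      (chol2 (imM (GamE (mB s E p.1.1) (mB s E p.1.2))) *ᵥ p.2 a)) : EState q r) := by
  have hc : Measurable fun p : EEnv q × (Fin r → Fin 2 → ℝ) =>
      chol2 (imM (GamE (mB s E p.1.1) (mB s E p.1.2))) := by
    have h0 : Measurable fun p : EEnv q × (Fin r → Fin 2 → ℝ) => (mB s E p.1.1, mB s E p.1.2) :=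
      (h.comp (measurable_fst.comp measurable_fst)).prodMk
        (h.comp (measurable_snd.comp measurable_fst))
    have h1 := m_chol_meas.comp h0
    simpa only [Function.comp_def] using h1
  refine measurable_fst.prodMk (measurable_pi_lambda _ fun a => measurable_pi_lambda _ fun o => ?_)
  simp only [Pi.smul_apply, smul_eq_mul, Matrix.mulVec, dotProduct]
  refine Measurable.const_mul (Finset.measurable_sum _ fun o' _ => Measurable.mul ?_ (by fun_prop)) _
  exact (measurable_pi_apply o').comp ((measurable_pi_apply o).comp hc)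

theorem m_wave_prob {q : ℕ} (r : ℕ) (π : Measure II) [IsProbabilityMeasure π] {s E : ℝ}
    (h : Measurable (mB (q := q) s E)) : IsProbabilityMeasure (waveE q r π s E) :=
  Measure.isProbabilityMeasure_map (m_wave_meas h _).aemeasurable

/-- Recipe: `measurePreserving_pi` for the map of `waveE`, composed with
`(measurePreserving_arrowProdEquivProdArrow ..).symm` and `id.prod m_gpi2_split`. -/
theorem m_pi_wave {q : ℕ} (r : ℕ) (J : Type) [Fintype J] (π : Measure II) [IsProbabilityMeasure π]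
    {s E : ℝ} (h : Measurable (mB (q := q) s E)) :
    MeasurePreserving (fun (p : (J → EEnv q) × (Fin r → Fin 2 × J → ℝ)) (j : J) =>
        ((p.1 j, fun a => (√(Real.pi * rho q π s E))⁻¹ •
          (chol2 (imM (GamE (mB s E (p.1 j).1) (mB s E (p.1 j).2))) *ᵥ fun o => p.2 a (o, j))) :
          EState q r))
      ((Measure.pi fun _ : J => edgeLaw q π).prod (gpi2 (Fin r) (Fin 2 × J)))
      (Measure.pi fun _ : J => waveE q r π s E) := by
  have := m_wave_prob r π h
  have h1 := (MeasurePreserving.id (Measure.pi fun _ : J => edgeLaw q π)).prod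
    (m_gpi2_split (Fin r) (Fin 2) J)
  have h2 := (measurePreserving_arrowProdEquivProdArrow (EEnv q) (Fin r → Fin 2 → ℝ) J
    (fun _ => edgeLaw q π) (fun _ => gpi2 (Fin r) (Fin 2))).symm
  have h3 := measurePreserving_pi (fun _ : J => (edgeLaw q π).prod (gpi2 (Fin r) (Fin 2)))
    (fun _ : J => waveE q r π s E)
    (fun _ => (⟨m_wave_meas h (√(Real.pi * rho q π s E))⁻¹, rfl⟩ : MeasurePreserving _ _ _))
  exact h3.comp (h2.comp h1)

/-- the `K`-matrix on the Gaussian wave is `T K Tᵀ + D` -/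
theorem m_tree_alg {q r : ℕ} {J : Type} [Fintype J] [DecidableEq J] (s : ℝ) (z y : ℂ) {ρ : ℝ}
    (hρ : 0 < ρ) (b : Fin r → ℝ) (e : J → EEnv q) (C : J → Matrix (Fin 2) (Fin 2) ℝ)
    (g : Fin r → Fin 2 × J → ℝ) :
    mK y (mXT s z ρ b fun j => ((e j, fun a => (√(Real.pi * ρ))⁻¹ • (C j *ᵥ fun o => g a (o, j))) :
        EState q r)) =
      (mBi J y * Matrix.blockDiagonal C) * modelK id b g * (mBi J y * Matrix.blockDiagonal C)ᵀ +
        mK y (Matrix.blockDiagonal fun j => (GE s z (e j)).map Complex.re) := by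
  have hs : (√(Real.pi * ρ))⁻¹ * (√(Real.pi * ρ))⁻¹ = Real.pi⁻¹ * ρ⁻¹ := by
    rw [← mul_inv, Real.mul_self_sqrt (by positivity), mul_inv]
  have e1 : ∀ (v : Fin 2 × J → ℝ) (x : Fin 2 × J),
      (Matrix.blockDiagonal C *ᵥ v) x = (C x.2 *ᵥ fun o => v (o, x.2)) x.1 := fun v x => by
    simp [Matrix.mulVec, dotProduct, Matrix.blockDiagonal_apply, Fintype.sum_prod_type]
  have e2 : (mXT s z ρ b fun j => ((e j, fun a => (√(Real.pi * ρ))⁻¹ •
      (C j *ᵥ fun o => g a (o, j))) : EState q r)) =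
      Matrix.blockDiagonal C * modelK id b g * (Matrix.blockDiagonal C)ᵀ +
        Matrix.blockDiagonal fun j => (GE s z (e j)).map Complex.re := by
    rw [m_modelK_mul]
    ext x x'
    simp only [mXT, modelK, Matrix.add_apply, Matrix.blockDiagonal_apply, Matrix.map_apply, e1, id,
      Pi.smul_apply, smul_eq_mul]
    rw [add_comm, Finset.mul_sum, Finset.mul_sum]
    congr 1
    refine Finset.sum_congr rfl fun α _ => ?_
    have : ρ * (Real.pi⁻¹ * ρ⁻¹) = Real.pi⁻¹ := by field_simp
    rw [← this, ← hs]; ring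
  rw [e2, mK, mK, add_sub_assoc, Matrix.mul_add, Matrix.add_mul, Matrix.transpose_mul]
  simp only [Matrix.mul_assoc]

/-- continuity at `(y, y)`.  Recipe: the map `(m, m') ↦ (mBi * ⊕ chol2 (imM (GamE (m j).1 (m j).2)), mK y (⊕ Re GamE (m' j).1 (m' j).2))`
is continuous at the constant `(y,y)` with value `(1, 0)` (`m_GamE_contAt`, `m_imGam_pos`, `m_B0_unit`);
pull back `m_cay_nhds`, `Metric.eventually_nhds_iff`. -/
theorem m_tree_loc {J : Type} [Fintype J] [DecidableEq J] {y : ℂ} (hy : 0 < y.im)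
    {F : Matrix (Fin 2 × J) (Fin 2 × J) ℂ → ℝ} (hF : Continuous F) {ε : ℝ} (hε : 0 < ε) :
    ∃ r₁ : ℝ, 0 < r₁ ∧ ∀ m m' : J → ℂ × ℂ, (∀ j, ‖(m j).1 - y‖ < r₁ ∧ ‖(m j).2 - y‖ < r₁) →
      (∀ j, ‖(m' j).1 - y‖ < r₁ ∧ ‖(m' j).2 - y‖ < r₁) →
      ∀ K : Matrix (Fin 2 × J) (Fin 2 × J) ℝ, K.IsSymm →
        |F (cay ((mBi J y * Matrix.blockDiagonal fun j => chol2 (imM (GamE (m j).1 (m j).2))) * K *
            (mBi J y * Matrix.blockDiagonal fun j => chol2 (imM (GamE (m j).1 (m j).2)))ᵀ +
            mK y (Matrix.blockDiagonal fun j => (GamE (m' j).1 (m' j).2).map Complex.re))) -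
          F (cay K)| ≤ ε := by
  let h : (J → ℂ × ℂ) × (J → ℂ × ℂ) →
      Matrix (Fin 2 × J) (Fin 2 × J) ℝ × Matrix (Fin 2 × J) (Fin 2 × J) ℝ := fun p =>
    (mBi J y * Matrix.blockDiagonal fun j => chol2 (imM (GamE (p.1 j).1 (p.1 j).2)),
      mK y (Matrix.blockDiagonal fun j => (GamE (p.2 j).1 (p.2 j).2).map Complex.re))
  have hbd : Continuous (Matrix.blockDiagonal : (J → Matrix (Fin 2) (Fin 2) ℝ) → _) :=
    continuous_id.matrix_blockDiagonal
  have hG := m_GamE_contAt hy hy
  have hc : ContinuousAt h (fun _ => (y, y), fun _ => (y, y)) := by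
    refine ContinuousAt.prodMk ?_ ?_
    · refine ((continuous_const.matrix_mul continuous_id).comp hbd).continuousAt.comp
        (continuousAt_pi.2 fun j => ?_)
      have a1 : ContinuousAt (fun p : ℂ × ℂ => chol2 (imM (GamE p.1 p.2))) (y, y) :=
        ContinuousAt.comp (g := chol2) (m_chol_contAt (m_imGam_pos hy).1)
          ((continuous_id.matrix_map continuous_im).continuousAt.comp hG)
      exact ContinuousAt.comp (f := fun p : (J → ℂ × ℂ) × (J → ℂ × ℂ) => p.1 j)
        (x := (fun _ => (y, y), fun _ => (y, y))) a1 (by fun_prop)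
    · have a0 : Continuous (mK (J := J) y) :=
        (continuous_const.matrix_mul (continuous_id.sub continuous_const)).matrix_mul continuous_const
      refine (a0.comp hbd).continuousAt.comp (continuousAt_pi.2 fun j => ?_)
      have a1 : ContinuousAt (fun p : ℂ × ℂ => (GamE p.1 p.2).map Complex.re) (y, y) :=
        (continuous_id.matrix_map continuous_re).continuousAt.comp hG
      exact ContinuousAt.comp (f := fun p : (J → ℂ × ℂ) × (J → ℂ × ℂ) => p.2 j)
        (x := (fun _ => (y, y), fun _ => (y, y))) a1 (by fun_prop)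
  have h0 : h (fun _ => (y, y), fun _ => (y, y)) = (1, 0) := by
    refine Prod.ext ?_ ?_
    · change mBi J y * Matrix.blockDiagonal (fun _ => mB0 y) = 1
      rw [mBi, ← Matrix.blockDiagonal_mul]
      simp only [Matrix.nonsing_inv_mul _ (m_B0_unit hy)]
      exact Matrix.blockDiagonal_one
    · change mK y (mRe J y) = 0
      simp [mK]
  have ev := hc.tendsto
  rw [h0] at ev
  obtain ⟨r₁, hr₁, H⟩ := Metric.eventually_nhds_iff.1 (ev.eventually (m_cay_nhds hF hε))
  refine ⟨r₁, hr₁, fun m m' hm hm' K hK => H (y := (m, m')) ?_ K hK (m_mK_symm y ?_)⟩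
  · simp only [Prod.dist_eq, max_lt_iff, dist_pi_lt_iff hr₁, Complex.dist_eq]
    exact ⟨hm, hm'⟩
  · refine Matrix.IsSymm.ext fun a b => ?_
    obtain ⟨o, j⟩ := a
    obtain ⟨o', j'⟩ := b
    simp only [Matrix.blockDiagonal_apply, Matrix.map_apply]
    by_cases h : j = j'
    · subst h
      fin_cases o <;> fin_cases o' <;> simp [GamE]
    · rw [if_neg h, if_neg (Ne.symm h)]

end Crest.Agent.R166
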