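import Crest.Agent.R166.M.Tree
import Crest.Agent.R166.M.Tau

/-!
# Row 166, block M: integration on the tree
-/

set_option autoImplicit false

open MeasureTheory ProbabilityTheory Filter Topology Complex
open scoped ENNReal NNReal BigOperators Matrix

noncomputable section

namespace Crest.Agent.R166

theorem m_mF_meas {q : ℕ} {J : Type} [Fintype J] {φ : Env q → ℝ} (hφ : Measurable φ) :
    Measurable fun e : J → EEnv q => mF φ e := by
  unfold mF; fun_prop

theorem m_mF_pos {q : ℕ} {J : Type} [Fintype J] {y : ℂ} {r : ℝ} (hr : 0 < r) {m : Env q → ℂ}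
    {e : J → EEnv q} (h : mF (fun β => mChi y r (m β)) e ≠ 0) (j : J) :
    ‖m (e j).1 - y‖ < r ∧ ‖m (e j).2 - y‖ < r := by
  have := mul_ne_zero_iff.1 (Finset.prod_ne_zero_iff.1 h j (Finset.mem_univ j))
  exact ⟨(m_chi_pos y hr _).1 (lt_of_le_of_ne (m_chi_mem y hr _).1 this.1.symm),
    (m_chi_pos y hr _).1 (lt_of_le_of_ne (m_chi_mem y hr _).1 this.2.symm)⟩

theorem m_two_weights {f f' G M ε B : ℝ} (hf : 0 ≤ f) (hf' : 0 ≤ f') (hε : 0 ≤ ε) (hG : |G| ≤ B)
    (hM : |M| ≤ B) (h : f ≠ 0 → f' ≠ 0 → |G - M| ≤ ε) : |f' * G - f * M| ≤ ε * f + B * |f' - f| := by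
  have h0 := mul_nonneg hε hf
  by_cases h1 : f = 0
  · subst h1
    simp only [zero_mul, sub_zero, mul_zero, zero_add, abs_mul]
    rw [mul_comm]; exact mul_le_mul_of_nonneg_right hG (abs_nonneg _)
  by_cases h2 : f' = 0
  · subst h2
    simp only [zero_mul, zero_sub, abs_neg, abs_mul]
    nlinarith [mul_le_mul_of_nonneg_left hM (abs_nonneg f)]
  have h3 := h h1 h2
  rcases le_total f f' with hle | hle
  · rw [show f' * G - f * M = f * (G - M) + (f' - f) * G by ring]
    refine (abs_add_le _ _).trans ?_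
    rw [abs_mul, abs_mul, abs_of_nonneg hf]
    nlinarith [mul_le_mul_of_nonneg_left h3 hf, mul_le_mul_of_nonneg_left hG (abs_nonneg (f' - f))]
  · rw [show f' * G - f * M = f' * (G - M) + (f' - f) * M by ring]
    refine (abs_add_le _ _).trans ?_
    rw [abs_mul, abs_mul, abs_of_nonneg hf']
    nlinarith [mul_le_mul_of_nonneg_left h3 hf', mul_le_mul_of_nonneg_left hM (abs_nonneg (f' - f)),
      mul_le_mul_of_nonneg_left hle hε]

/-- Recipe: `m_pi_wave`, Fubini; with `f_k, f` the two weights and `G(e) = ∫ F(cay(T K Tᵀ + D)) dg`,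
`|f_k G - f M| ≤ ε f + B |f_k - f|` (if both weights are positive `|G - M| ≤ ε` by `m_tree_loc`; write
`m = min f_k f`). -/
theorem m_tree (hT : StT0) {q : ℕ} {π : Measure II} [IsProbabilityMeasure π] {s E : ℝ} (hs0 : 0 ≤ s)
    (hs1 : s ≤ 1) (h : TreeOK q π s E) {J : Type} [Fintype J] [DecidableEq J] {y : ℂ} (hy : 0 < y.im)
    {F : Matrix (Fin 2 × J) (Fin 2 × J) ℂ → ℝ} (hF : Continuous F) {B : ℝ} (hB : mBd F B) {ε : ℝ}
    (hε : 0 < ε) : ∃ r₁ : ℝ, 0 < r₁ ∧ ∀ r₀ : ℝ, 0 < r₀ → r₀ ≤ r₁ → ∀ (k r : ℕ) (b : Fin r → ℝ),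
      |∫ Y, mPhi s (zk E k) y (rho q π s E) (fun β => mChi y r₀ (mT s (zk E k) β)) F b Y
          ∂(Measure.pi fun _ : J => waveE q r π s E) -
        mTau J q π (fun β => mChi y r₀ (mB s E β)) * mM id F b| ≤
      ε * mTau J q π (fun β => mChi y r₀ (mB s E β)) +
        B * ∫ e, |mF (fun β => mChi y r₀ (mT s (zk E k) β)) e -
          mF (fun β => mChi y r₀ (mB s E β)) e| ∂(Measure.pi fun _ : J => edgeLaw q π) := by
  obtain ⟨r₁, hr₁, hloc⟩ := m_tree_loc hy hF hε
  refine ⟨r₁, hr₁, fun r₀ hr₀ hr k r b => ?_⟩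
  have hz : 0 < (zk E k).im := by
    simp only [zk, add_im, ofReal_im, mul_im, ofReal_re, I_im, mul_one, I_re, mul_zero, add_zero,
      zero_add]
    positivity
  set φ : Env q → ℝ := fun β => mChi y r₀ (mT s (zk E k) β) with hφd
  set φ' : Env q → ℝ := fun β => mChi y r₀ (mB s E β) with hφ'd
  have hφ : Continuous φ := (m_chi_cont y r₀).comp ((hT q s hs0 hs1).1 _ hz).2.1
  have hφ' : Measurable φ' := (m_chi_cont y r₀).measurable.comp h.meas
  have hφ1 : ∀ β, 0 ≤ φ β ∧ φ β ≤ 1 := fun β => m_chi_mem y hr₀ _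
  have hφ1' : ∀ β, 0 ≤ φ' β ∧ φ' β ≤ 1 := fun β => m_chi_mem y hr₀ _
  have hΦ : Continuous (mPhi (r := r) s (zk E k) y (rho q π s E) φ F b) :=
    (m_phi_cont hT hs0 hs1 hz y _ hφ hF).uncurry_left b
  have : BorelSpace (EState q r) := inferInstance
  have : SecondCountableTopology (EState q r) := inferInstance
  have mp := m_pi_wave r J π h.meas
  have := m_wave_prob r π h.meas
  have iΦ : Integrable (mPhi (r := r) s (zk E k) y (rho q π s E) φ F b)
      (Measure.pi fun _ : J => waveE q r π s E) :=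
    Integrable.of_bound hΦ.measurable.aestronglyMeasurable B
      (ae_of_all _ fun Y => m_phi_bdd s _ y _ hφ1 hB b Y)
  have iF : ∀ ψ : Env q → ℝ, Measurable ψ → (∀ β, 0 ≤ ψ β ∧ ψ β ≤ 1) →
      Integrable (fun e : J → EEnv q => mF ψ e) (Measure.pi fun _ : J => edgeLaw q π) :=
    fun ψ h1 h2 => Integrable.of_bound (m_mF_meas h1).aestronglyMeasurable 1 (ae_of_all _ fun e => by
      rw [Real.norm_eq_abs, abs_of_nonneg (m_mF_mem h2 e).1]; exact (m_mF_mem h2 e).2)
  have iM : Integrable (fun g : Fin r → Fin 2 × J → ℝ => F (cay (modelK id b g)))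
      (gpi2 (Fin r) (Fin 2 × J)) :=
    Integrable.of_bound (((m_model_meas measurable_id hF).of_uncurry_left (x := b)
      (f := fun b g => F (cay (modelK id b g)))).aestronglyMeasurable) B
      (ae_of_all _ fun g => hB _ (m_modelK_symm _ _ _))
  have i1 := mp.integrable_comp_of_integrable iΦ
  simp only [Function.comp_def] at i1
  have i2 := (iF φ' hφ' hφ1').mul_prod iM
  have i4 : Integrable (fun e : J → EEnv q => B * |mF φ e - mF φ' e|)
      (Measure.pi fun _ : J => edgeLaw q π) :=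
    ((iF φ hφ.measurable hφ1).sub (iF φ' hφ' hφ1')).abs.const_mul B
  have i3 : Integrable (fun e : J → EEnv q => ε * mF φ' e + B * |mF φ e - mF φ' e|)
      (Measure.pi fun _ : J => edgeLaw q π) :=
    ((iF φ' hφ' hφ1').const_mul ε).add i4
  rw [← mp.map_eq, integral_map mp.measurable.aemeasurable hΦ.measurable.aestronglyMeasurable, mTau,
    mM, ← integral_prod_mul, ← integral_sub i1 i2, ← integral_const_mul, ← integral_const_mul,
    ← integral_add ((iF φ' hφ' hφ1').const_mul ε) i4]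
  have e := integral_fun_fst (μ := Measure.pi fun _ : J => edgeLaw q π)
    (ν := gpi2 (Fin r) (Fin 2 × J)) fun e : J → EEnv q => ε * mF φ' e + B * |mF φ e - mF φ' e|
  rw [probReal_univ, one_smul] at e
  refine (abs_integral_le_integral_abs.trans
    (integral_mono (i1.sub i2).abs (i3.comp_fst _) fun p => ?_)).trans e.le
  refine m_two_weights (m_mF_mem hφ1' p.1).1 (m_mF_mem hφ1 p.1).1 hε.le
    (hB _ (m_mK_symm y (m_mXT_symm _ _ _ _ _))) (hB _ (m_modelK_symm _ _ _)) fun h1 h2 => ?_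
  rw [m_tree_alg s _ y h.rho_pos]
  exact hloc (fun j => (mB s E (p.1 j).1, mB s E (p.1 j).2))
    (fun j => (mT s (zk E k) (p.1 j).1, mT s (zk E k) (p.1 j).2))
    (fun j => ⟨(m_mF_pos hr₀ h1 j).1.trans_le hr, (m_mF_pos hr₀ h1 j).2.trans_le hr⟩)
    (fun j => ⟨(m_mF_pos hr₀ h2 j).1.trans_le hr, (m_mF_pos hr₀ h2 j).2.trans_le hr⟩) _
    (m_modelK_symm _ _ _)

end Crest.Agent.R166
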